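import Vale.Agent.Lib.P335.ThreeRowFib
set_option linter.unusedSectionVars false

/-!
The three-row inequality: on the class of all `3 × Y` zero-one matrices with prescribed margins, for
functions of the single rows with mean zero, the variance of the sum is at most twice the sum of the
variances.

Proof. Let `K` be the operator on triples of row functions, `(K F)_a = ∑_{b ≠ a} E[F_b | row a]`.
It is symmetric, and the claim is `⟪F, K F⟫ ≤ ⟪F, F⟫`. By log-convexity of `t ↦ ‖K^t F‖²` it is enough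
that this sequence grows polynomially. That follows from two Lipschitz estimates: `K` does not increase
the Lipschitz constant for swaps of two columns with the same sum (exactly one other row changes),
and, for functions of the number `pv` of elements in columns of sum one, `K` does not increase the
Lipschitz constant in `pv` (stochastic dominance between consecutive hypergeometric laws).
-/

namespace Vale.Agent.Lib.P335

open Finset

variable {Y : Type*} [Fintype Y] [DecidableEq Y]
variable {r : Fin 3 → ℕ} {c : Y → ℕ}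

variable (r c)

/-- Lipschitz constant for the values of `pv` at distance at most one. -/
def PLip (F : Fin 3 → Finset Y → ℝ) (D : ℝ) : Prop :=
  ∀ a S S', feas r c a S → feas r c a S' → (pv c S' = pv c S + 1 ∨ pv c S' = pv c S) →
    |F a S - F a S'| ≤ D

open Classical in
/-- A representative row with a prescribed value of `pv`. -/
noncomputable def rep (f : Fin 3) (u : ℕ) : Finset Y :=
  if h : ∃ T, feas r c f T ∧ pv c T = u then h.choose else ∅

variable {r c}

lemma rep_spec {f : Fin 3} {T : Finset Y} (hT : feas r c f T) :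
    feas r c f (rep r c f (pv c T)) ∧ pv c (rep r c f (pv c T)) = pv c T := by
  have h : ∃ T', feas r c f T' ∧ pv c T' = pv c T := ⟨T, hT, rfl⟩
  unfold rep
  rw [dif_pos h]
  exact h.choose_spec

/-- Step 2: the Lipschitz constant in `pv` grows at most by a fixed amount. -/
lemma PLip_KK {F : Fin 3 → Finset Y → ℝ} {C D : ℝ} (hT : TLip r c F C) (hP : PLip r c F D)
    (hC : 0 ≤ C) (hD : 0 ≤ D) :
    PLip r c (KK r c F) (D + 4 * ((Fintype.card Y : ℝ) * C)) := by
  have hmC : 0 ≤ (Fintype.card Y : ℝ) * C := by positivity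
  intro a S S' hS hS' hadj
  rcases hadj with hadj | hadj
  swap
  · have := same_pv_le (TLip_KK hT hC) hC a hS hS' hadj.symm
    linarith
  obtain ⟨b, e, hab, hae, hbe⟩ := exists_others a
  obtain ⟨x0, hx0⟩ := hS
  obtain ⟨x1, hx1⟩ := hS'
  rw [mem_trFib] at hx0 hx1
  obtain ⟨hx0, rfl⟩ := hx0
  obtain ⟨hx1, hS1⟩ := hx1
  subst hS1
  set g : Fin 3 → ℕ → ℝ := fun f u => F f (rep r c f u) with hg
  -- approximation by functions of `pv`
  have happrox : ∀ f, ∀ x ∈ Rows3 r c, |F f (x f) - g f (pv c (x f))| ≤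
      (Fintype.card Y : ℝ) * C := by
    intro f x hx
    have h1 := rep_spec (feas_row hx f)
    exact same_pv_le hT hC f (feas_row hx f) h1.1 h1.2.symm
  set Ψ : Finset Y → ℝ := fun T =>
    (∑ x ∈ trFib r c a T, (g b (pv c (x b)) + g e (pv c (x e)))) / (trFib r c a T).card with hΨ
  have hKΨ : ∀ T, |KK r c F a T - Ψ T| ≤ 2 * ((Fintype.card Y : ℝ) * C) := by
    intro T
    rw [KK_eq F hab hae hbe, hΨ]
    simp only
    rw [← sub_div, ← Finset.sum_sub_distrib]
    apply abs_avg_le _ _ _ (by positivity)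
    intro x hx
    rw [mem_trFib] at hx
    have h1 := happrox b x hx.1
    have h2 := happrox e x hx.1
    have h3 : F b (x b) + F e (x e) - (g b (pv c (x b)) + g e (pv c (x e)))
        = (F b (x b) - g b (pv c (x b))) + (F e (x e) - g e (pv c (x e))) := by ring
    rw [h3]
    have h4 := abs_add_le (F b (x b) - g b (pv c (x b))) (F e (x e) - g e (pv c (x e)))
    linarith
  -- parameters
  set n1 := (W1 c (x1 a)).card with hn1
  set n2 := (W2 c (x1 a)).card with hn2
  set w := (x1 b ∩ WW c (x1 a)).card with hw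
  have hN1 : (W1 c (x0 a)).card = n1 + 1 := by
    have h1 := card_W1_add (c := c) (x0 a)
    have h2 := card_W1_add (c := c) (x1 a)
    omega
  have hpw : pw c (x0 a) = pw c (x1 a) + 1 := by
    have h1 := card_decomp hx0 a
    have h2 := card_decomp hx1 a
    omega
  have hN2 : (W2 c (x0 a)).card = n2 + 1 := by
    rw [hn2, card_W2, card_W2, hpw]
  have hW : (x0 b ∩ WW c (x0 a)).card = w + 1 := by
    have h1 := card_row_b hx0 hab hae hbe
    have h2 := card_row_b hx1 hab hae hbe
    have h3 := card_BB_add (c := c) (x0 a)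
    have h4 := card_BB_add (c := c) (x1 a)
    omega
  -- the sums
  have s0 := sum_fib_pv hx0 hab hae hbe (fun u v => g b u + g e v)
  have s1 := sum_fib_pv hx1 hab hae hbe (fun u v => g b u + g e v)
  have d0 := sum_fib_pv hx0 hab hae hbe (fun _ _ => 1)
  have d1 := sum_fib_pv hx1 hab hae hbe (fun _ _ => 1)
  rw [hN1, hN2, hW] at s0 d0
  simp only [Finset.sum_const, nsmul_eq_mul, mul_one] at d0 d1
  have hc0 : (0 : ℝ) < (trFib r c a (x0 a)).card := by
    exact_mod_cast Finset.card_pos.2 ⟨x0, mem_trFib.2 ⟨hx0, rfl⟩⟩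
  have hc1 : (0 : ℝ) < (trFib r c a (x1 a)).card := by
    exact_mod_cast Finset.card_pos.2 ⟨x1, mem_trFib.2 ⟨hx1, rfl⟩⟩
  have hlip := hyp_lip n1 n2 w D hD (g b) (fun u => g e (n1 + 1 - u))
    (by
      intro u hu h1 h2
      have h1' : hyp (W1 c (x0 a)).card (W2 c (x0 a)).card (x0 b ∩ WW c (x0 a)).card u ≠ 0 := by
        rw [hN1, hN2, hW]; exact h1
      have h2' : hyp (W1 c (x0 a)).card (W2 c (x0 a)).card (x0 b ∩ WW c (x0 a)).card (u + 1) ≠ 0 := by
        rw [hN1, hN2, hW]; exact h2
      obtain ⟨y, hy, hyu⟩ := exists_of_hyp hx0 hab hae hbe (by omega) h1'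
      obtain ⟨y', hy', hyu'⟩ := exists_of_hyp hx0 hab hae hbe (by omega) h2'
      rw [mem_trFib] at hy hy'
      have r1 := rep_spec (feas_row hy.1 b)
      have r2 := rep_spec (feas_row hy'.1 b)
      rw [hyu] at r1
      rw [hyu'] at r2
      exact hP b _ _ r1.1 r2.1 (Or.inl (by rw [r1.2, r2.2])))
    (by
      intro u hu h1 h2
      have h1' : hyp (W1 c (x0 a)).card (W2 c (x0 a)).card (x0 b ∩ WW c (x0 a)).card u ≠ 0 := by
        rw [hN1, hN2, hW]; exact h1
      have h2' : hyp (W1 c (x0 a)).card (W2 c (x0 a)).card (x0 b ∩ WW c (x0 a)).card (u + 1) ≠ 0 := by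
        rw [hN1, hN2, hW]; exact h2
      obtain ⟨y, hy, hyu⟩ := exists_of_hyp hx0 hab hae hbe (by omega) h1'
      obtain ⟨y', hy', hyu'⟩ := exists_of_hyp hx0 hab hae hbe (by omega) h2'
      rw [mem_trFib] at hy hy'
      have p1 := pv_sum hy.1 hab hae hbe
      have p2 := pv_sum hy'.1 hab hae hbe
      rw [hy.2, hN1, hyu] at p1
      rw [hy'.2, hN1, hyu'] at p2
      have e1 : pv c (y e) = n1 + 1 - u := by omega
      have e2 : pv c (y' e) = n1 + 1 - (u + 1) := by omega
      have r1 := rep_spec (feas_row hy.1 e)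
      have r2 := rep_spec (feas_row hy'.1 e)
      rw [e1] at r1
      rw [e2] at r2
      rw [abs_sub_comm]
      refine hP e _ _ r2.1 r1.1 (Or.inl ?_)
      rw [r1.2, r2.2]
      omega)
    (by rw [← d1]; exact hc1) (by rw [← d0]; exact hc0)
  have e0 : Ψ (x0 a) = (∑ u ∈ range (w + 1 + 1), hyp (n1 + 1) (n2 + 1) (w + 1) u *
      (g b u + g e (n1 + 1 - u))) / (∑ u ∈ range (w + 1 + 1), hyp (n1 + 1) (n2 + 1) (w + 1) u) := by
    rw [hΨ]
    simp only
    rw [s0, d0]
  have e1 : Ψ (x1 a) = (∑ u ∈ range (w + 1), hyp n1 n2 w u *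
      (g b u + g e (n1 + 1 - (u + 1)))) / (∑ u ∈ range (w + 1), hyp n1 n2 w u) := by
    rw [hΨ]
    simp only
    rw [s1, d1]
    congr 1
    apply Finset.sum_congr rfl
    intro u _
    rw [Nat.add_sub_add_right]
  have h0 := hKΨ (x0 a)
  have h1 := hKΨ (x1 a)
  have hΨΨ : |Ψ (x0 a) - Ψ (x1 a)| ≤ D := by
    rw [e0, e1]; exact hlip
  have tri : KK r c F a (x0 a) - KK r c F a (x1 a) =
      (KK r c F a (x0 a) - Ψ (x0 a)) + (Ψ (x0 a) - Ψ (x1 a)) - (KK r c F a (x1 a) - Ψ (x1 a)) := by
    ring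
  rw [tri]
  have h5 := abs_sub ((KK r c F a (x0 a) - Ψ (x0 a)) + (Ψ (x0 a) - Ψ (x1 a)))
    (KK r c F a (x1 a) - Ψ (x1 a))
  have h6 := abs_add_le (KK r c F a (x0 a) - Ψ (x0 a)) (Ψ (x0 a) - Ψ (x1 a))
  linarith

/-- Auxiliary form of the interval property of the values of `pv`. -/
lemma exists_next_aux {x x' : Fin 3 → Finset Y} (hx : x ∈ Rows3 r c) (hx' : x' ∈ Rows3 r c)
    {f a e : Fin 3} (hfa : f ≠ a) (hfe : f ≠ e) (hae : a ≠ e) (hlt : pv c (x' e) < pv c (x e)) :
    ∃ y ∈ Rows3 r c, pv c (y a) = pv c (x a) + 1 := by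
  -- a column of sum two missed by row `e`
  have h1 := card_decomp hx e
  have h2 := card_decomp hx' e
  have h3 : pw c (x e) < n2t c := by
    have : pw c (x' e) ≤ n2t c := by
      unfold pw n2t
      apply Finset.card_le_card
      intro y hy
      simp only [Finset.mem_filter, Finset.mem_univ, true_and] at hy ⊢
      exact hy.2
    omega
  obtain ⟨j, hj, hj'⟩ : ∃ j ∈ (univ.filter fun y => c y = 2), j ∉ ((x e).filter fun y => c y = 2) := by
    by_contra hcon
    push Not at hcon
    have : n2t c ≤ pw c (x e) := by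
      unfold pw n2t
      exact Finset.card_le_card hcon
    omega
  have hj2 : c j = 2 := (Finset.mem_filter.1 hj).2
  have hje : j ∉ x e := fun h => hj' (Finset.mem_filter.2 ⟨h, hj2⟩)
  have hcnt := count3 hx hfa hfe hae j
  rw [if_neg hje, hj2] at hcnt
  have hjf : j ∈ x f := by
    by_contra h
    rw [if_neg h] at hcnt
    split_ifs at hcnt <;> omega
  have hja : j ∈ x a := by
    by_contra h
    rw [if_neg h] at hcnt
    split_ifs at hcnt <;> omega
  -- the parameters of the fiber over row `f`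
  set A := x a ∩ WW c (x f) with hA
  have hAW : A ⊆ WW c (x f) := Finset.inter_subset_right
  have hu : pv c (x a) = (A ∩ W1 c (x f)).card := by
    have h4 : x a = BB c (x f) ∪ A := row_b_eq hx hfa hfe hae
    conv_lhs => rw [h4]
    rw [pv_BB_union, pv_sub_WW hAW]
  have hsplit : A.card = (A ∩ W1 c (x f)).card + (A ∩ W2 c (x f)).card := by
    rw [← Finset.card_union_of_disjoint]
    · congr 1
      rw [← Finset.inter_union_distrib_left]
      exact (Finset.inter_eq_left.2 hAW).symm
    · exact Finset.disjoint_of_subset_left Finset.inter_subset_right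
        (Finset.disjoint_of_subset_right Finset.inter_subset_right (disjoint_W1_W2 _))
  have hjA : j ∈ A ∩ W2 c (x f) := by
    have hjW2 : j ∈ W2 c (x f) := by
      simp [W2, hj2, hjf]
    refine Finset.mem_inter.2 ⟨Finset.mem_inter.2 ⟨hja, ?_⟩, hjW2⟩
    exact Finset.mem_union_right _ hjW2
  have h5 : 0 < (A ∩ W2 c (x f)).card := Finset.card_pos.2 ⟨j, hjA⟩
  have h6 : (A ∩ W2 c (x f)).card ≤ (W2 c (x f)).card := Finset.card_le_card Finset.inter_subset_right
  have hsum := pv_sum hx hfa hfe hae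
  have hne : hyp (W1 c (x f)).card (W2 c (x f)).card A.card (pv c (x a) + 1) ≠ 0 := by
    rw [hyp_ne_zero_iff]
    omega
  have hle : pv c (x a) + 1 ≤ A.card := by omega
  obtain ⟨y, hy, hyu⟩ := exists_of_hyp hx hfa hfe hae (u := pv c (x a) + 1) hle hne
  exact ⟨y, (mem_trFib.1 hy).1, hyu⟩

/-- Interval property of the values of `pv`. -/
lemma exists_next {x x' : Fin 3 → Finset Y} (hx : x ∈ Rows3 r c) (hx' : x' ∈ Rows3 r c)
    {a : Fin 3} (hlt : pv c (x a) < pv c (x' a)) :
    ∃ y ∈ Rows3 r c, pv c (y a) = pv c (x a) + 1 := by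
  obtain ⟨b, e, hab, hae, hbe⟩ := exists_others a
  have h1 := pv_sum hx hab hae hbe
  have h2 := pv_sum hx' hab hae hbe
  have h3 := card_W1_add (c := c) (x a)
  have h4 := card_W1_add (c := c) (x' a)
  have h5 : pv c (x' b) < pv c (x b) ∨ pv c (x' e) < pv c (x e) := by omega
  rcases h5 with h5 | h5
  · exact exists_next_aux hx hx' hae.symm hbe.symm hab h5
  · exact exists_next_aux hx hx' hab.symm hbe hae h5

/-- Chain along the values of `pv`. -/
lemma PLip_chain {F : Fin 3 → Finset Y → ℝ} {D : ℝ} (hP : PLip r c F D) (a : Fin 3) :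
    ∀ (k : ℕ) (S S' : Finset Y), feas r c a S → feas r c a S' → pv c S' = pv c S + k →
      |F a S - F a S'| ≤ ((k : ℝ) + 1) * D := by
  intro k
  induction k with
  | zero =>
    intro S S' hS hS' h
    have := hP a S S' hS hS' (Or.inr (by simpa using h))
    simpa using this
  | succ k ih =>
    intro S S' hS hS' h
    obtain ⟨x, hx⟩ := hS
    obtain ⟨x', hx'⟩ := hS'
    rw [mem_trFib] at hx hx'
    obtain ⟨hx, rfl⟩ := hx
    obtain ⟨hx', rfl⟩ := hx'
    obtain ⟨y, hy, hyu⟩ := exists_next hx hx' (a := a) (by omega)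
    have h1 := hP a _ _ (feas_row hx a) (feas_row hy a) (Or.inl hyu)
    have h2 := ih (y a) (x' a) (feas_row hy a) (feas_row hx' a) (by omega)
    have h3 := abs_sub_le (F a (x a)) (F a (y a)) (F a (x' a))
    push_cast
    nlinarith

lemma pv_le (S : Finset Y) : pv c S ≤ Fintype.card Y :=
  (Finset.card_filter_le _ _).trans (Finset.card_le_univ _)

/-- Any two rows of a matrix class are close. -/
lemma PLip_osc {F : Fin 3 → Finset Y → ℝ} {D : ℝ} (hP : PLip r c F D) (hD : 0 ≤ D) (a : Fin 3)
    {S S' : Finset Y} (hS : feas r c a S) (hS' : feas r c a S') :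
    |F a S - F a S'| ≤ ((Fintype.card Y : ℝ) + 1) * D := by
  have key : ∀ {T T' : Finset Y}, feas r c a T → feas r c a T' → pv c T ≤ pv c T' →
      |F a T - F a T'| ≤ ((Fintype.card Y : ℝ) + 1) * D := by
    intro T T' hT hT' hle
    obtain ⟨k, hk⟩ := Nat.exists_eq_add_of_le hle
    have h1 := PLip_chain hP a k T T' hT hT' hk
    have h2 : (k : ℝ) ≤ Fintype.card Y := by
      have := pv_le (c := c) T'
      exact_mod_cast (by omega : k ≤ Fintype.card Y)
    have h3 : ((k : ℝ) + 1) * D ≤ ((Fintype.card Y : ℝ) + 1) * D :=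
      mul_le_mul_of_nonneg_right (by linarith) hD
    linarith
  rcases le_total (pv c S) (pv c S') with h | h
  · exact key hS hS' h
  · rw [abs_sub_comm]; exact key hS' hS h

/-- Sup bound for functions with mean zero. -/
lemma sup_bound {F : Fin 3 → Finset Y → ℝ} {D : ℝ} (hP : PLip r c F D) (hD : 0 ≤ D) (a : Fin 3)
    (hmean : ∑ x ∈ Rows3 r c, F a (x a) = 0) {x : Fin 3 → Finset Y} (hx : x ∈ Rows3 r c) :
    |F a (x a)| ≤ ((Fintype.card Y : ℝ) + 1) * D := by
  have hne : (Rows3 r c).Nonempty := ⟨x, hx⟩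
  have hpos : ((Rows3 r c).card : ℝ) ≠ 0 := by
    exact_mod_cast (Finset.card_pos.2 hne).ne'
  have e : F a (x a) = (∑ x' ∈ Rows3 r c, (F a (x a) - F a (x' a))) / (Rows3 r c).card := by
    rw [Finset.sum_sub_distrib, hmean, Finset.sum_const, nsmul_eq_mul, sub_zero]
    field_simp
  rw [e]
  apply abs_avg_le _ _ _ (by positivity)
  intro x' hx'
  exact PLip_osc hP hD a (feas_row hx a) (feas_row hx' a)

lemma mean_KK {F : Fin 3 → Finset Y → ℝ} (hmean : ∀ a, ∑ x ∈ Rows3 r c, F a (x a) = 0) (a : Fin 3) :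
    ∑ x ∈ Rows3 r c, KK r c F a (x a) = 0 := by
  unfold KK
  rw [Finset.sum_comm]
  apply Finset.sum_eq_zero
  intro b _
  have := sum_condE_mul (r := r) (c := c) a (fun x => F b (x b)) (fun _ => 1)
  simp only [mul_one] at this
  rw [this, hmean]

/-- The three-row inequality. -/
theorem three_row (r : Fin 3 → ℕ) (c : Y → ℕ) (F : Fin 3 → Finset Y → ℝ)
    (hmean : ∀ a, ∑ x ∈ Rows3 r c, F a (x a) = 0) :
    ∑ x ∈ Rows3 r c, (∑ a, F a (x a)) ^ 2 ≤ 2 * ∑ a, ∑ x ∈ Rows3 r c, (F a (x a)) ^ 2 := by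
  set M : ℝ := ∑ a, ∑ S : Finset Y, |F a S| with hM
  have hM0 : 0 ≤ M := Finset.sum_nonneg fun a _ => Finset.sum_nonneg fun S _ => abs_nonneg _
  have hFM : ∀ a S, |F a S| ≤ M := by
    intro a S
    have h1 : |F a S| ≤ ∑ S : Finset Y, |F a S| :=
      Finset.single_le_sum (f := fun S => |F a S|) (fun _ _ => abs_nonneg _) (Finset.mem_univ S)
    have h2 : ∑ S : Finset Y, |F a S| ≤ M :=
      Finset.single_le_sum (f := fun a => ∑ S : Finset Y, |F a S|)
        (fun _ _ => Finset.sum_nonneg fun _ _ => abs_nonneg _) (Finset.mem_univ a)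
    linarith
  set C : ℝ := 2 * M with hC
  have hC0 : 0 ≤ C := by positivity
  set m : ℝ := (Fintype.card Y : ℝ) with hm
  have hm0 : 0 ≤ m := by positivity
  set G : ℕ → Fin 3 → Finset Y → ℝ := fun t => (KK r c)^[t] F with hG
  have hGs : ∀ t, G (t + 1) = KK r c (G t) := fun t => Function.iterate_succ_apply' _ _ _
  have hT0 : TLip r c F C := by
    intro a S i j _ _
    have h1 := hFM a S
    have h2 := hFM a (sw i j S)
    have h3 := abs_sub (F a S) (F a (sw i j S))
    rw [hC]; linarith
  have hP0 : PLip r c F C := by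
    intro a S S' _ _ _
    have h1 := hFM a S
    have h2 := hFM a S'
    have h3 := abs_sub (F a S) (F a S')
    rw [hC]; linarith
  have hT : ∀ t, TLip r c (G t) C := by
    intro t
    induction t with
    | zero => exact hT0
    | succ t ih => rw [hGs]; exact TLip_KK ih hC0
  set incr : ℝ := 4 * (m * C) with hincr
  have hincr0 : 0 ≤ incr := by positivity
  have hP : ∀ t : ℕ, PLip r c (G t) (C + (t : ℝ) * incr) := by
    intro t
    induction t with
    | zero =>
      have h0 : PLip r c (G 0) C := hP0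
      simpa using h0
    | succ t ih =>
      rw [hGs]
      have := PLip_KK (hT t) ih hC0 (by positivity)
      have e : C + ((t + 1 : ℕ) : ℝ) * incr = C + (t : ℝ) * incr + 4 * (m * C) := by
        push_cast; rw [hincr]; ring
      rw [e]
      exact this
  have hmeanG : ∀ t a, ∑ x ∈ Rows3 r c, G t a (x a) = 0 := by
    intro t
    induction t with
    | zero => exact hmean
    | succ t ih => rw [hGs]; exact mean_KK ih
  -- polynomial growth
  set A : ℝ := 3 * ((Rows3 r c).card : ℝ) * ((m + 1) * (C + incr)) ^ 2 with hA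
  have hgrow : ∀ t : ℕ, form r c (G t) (G t) ≤ A * ((t : ℝ) + 1) ^ 2 := by
    intro t
    have h1 : ∀ a, ∀ x ∈ Rows3 r c, G t a (x a) * G t a (x a) ≤ ((m + 1) * (C + incr) * ((t : ℝ) + 1)) ^ 2 := by
      intro a x hx
      have h2 := sup_bound (hP t) (by positivity) a (hmeanG t a) hx
      have h3 : (m + 1) * (C + (t : ℝ) * incr) ≤ (m + 1) * (C + incr) * ((t : ℝ) + 1) := by
        have ht : (0 : ℝ) ≤ t := by positivity
        have : C + (t : ℝ) * incr ≤ (C + incr) * ((t : ℝ) + 1) := by nlinarith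
        calc (m + 1) * (C + (t : ℝ) * incr) ≤ (m + 1) * ((C + incr) * ((t : ℝ) + 1)) :=
              mul_le_mul_of_nonneg_left this (by positivity)
          _ = _ := by ring
      have h4 := abs_le.1 (h2.trans h3)
      rw [← sq]
      exact sq_le_sq' h4.1 h4.2
    unfold form
    calc ∑ a, ∑ x ∈ Rows3 r c, G t a (x a) * G t a (x a)
        ≤ ∑ _a : Fin 3, ∑ _x ∈ Rows3 r c, ((m + 1) * (C + incr) * ((t : ℝ) + 1)) ^ 2 :=
          Finset.sum_le_sum fun a _ => Finset.sum_le_sum fun x hx => h1 a x hx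
      _ = A * ((t : ℝ) + 1) ^ 2 := by
          simp only [Finset.sum_const, Finset.card_univ, Fintype.card_fin, nsmul_eq_mul, hA]
          push_cast
          ring
  -- log-convexity
  have hlogc : ∀ t, (form r c (G (t + 1)) (G (t + 1))) ^ 2 ≤
      form r c (G t) (G t) * form r c (G (t + 2)) (G (t + 2)) := by
    intro t
    have e : form r c (G (t + 1)) (G (t + 1)) = form r c (G t) (G (t + 2)) := by
      calc form r c (G (t + 1)) (G (t + 1)) = form r c (KK r c (G t)) (G (t + 1)) := by rw [← hGs t]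
        _ = form r c (G t) (KK r c (G (t + 1))) := form_KK_symm _ _
        _ = form r c (G t) (G (t + 2)) := by rw [hGs (t + 1)]
    rw [e]
    exact form_cs _ _
  have hfirst : form r c (G 1) (G 1) ≤ form r c (G 0) (G 0) :=
    first_step_le (fun t => form r c (G t) (G t)) (fun t => form_self_nonneg _) hlogc A hgrow
  have hG0 : G 0 = F := rfl
  have hG1 : G 1 = KK r c F := hGs 0
  rw [hG1, hG0] at hfirst
  -- conclusion
  have hcs := form_cs (r := r) (c := c) (KK r c F) F
  have hff := form_self_nonneg (r := r) (c := c) F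
  have hle : form r c (KK r c F) F ≤ form r c F F := by
    have h1 : (form r c (KK r c F) F) ^ 2 ≤ (form r c F F) ^ 2 := by
      calc (form r c (KK r c F) F) ^ 2 ≤ form r c (KK r c F) (KK r c F) * form r c F F := hcs
        _ ≤ form r c F F * form r c F F := mul_le_mul_of_nonneg_right hfirst hff
        _ = (form r c F F) ^ 2 := by ring
    exact abs_le_of_sq_le_sq' h1 hff |>.2
  rw [sum_sq_eq_form]
  have e2 : ∑ a, ∑ x ∈ Rows3 r c, (F a (x a)) ^ 2 = form r c F F := by
    unfold form
    simp_rw [sq]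
  rw [e2]
  linarith

end Vale.Agent.Lib.P335
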