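import Vale.Agent.Lib.P335.Blocks
import Vale.Agent.Lib.P335.ThreeRow
set_option linter.unusedSectionVars false
set_option linter.unusedVariables false

/-!
The inequality for the three pairs inside a triple of vertices.
-/

namespace Vale.Agent.Lib.P335

open Finset

section Abstract

variable {Ω : Type*} [Fintype Ω] {Y : Type*} [DecidableEq Y] {Z : Type*} [DecidableEq Z]

lemma rem_of_meas (ξ : Ω → Y) (g : Ω → ℝ) (hg : ∀ x y, ξ x = ξ y → g x = g y) : rem ξ g = 0 := by
  rw [rem, cond_of_meas ξ g hg, sub_self]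

lemma rem_sub' (ξ : Ω → Y) (f g : Ω → ℝ) : rem ξ (f - g) = rem ξ f - rem ξ g := by
  funext x
  simp only [rem, cond_sub, Pi.sub_apply]
  ring

lemma ip_cond_self (ξ : Ω → Y) (g : Ω → ℝ) : ip g (cond ξ g) = ip (cond ξ g) (cond ξ g) := by
  rw [cond_selfadj ξ g (cond ξ g), cond_cond]

lemma ip_rem_eq (ξ : Ω → Y) (g : Ω → ℝ) :
    ip (rem ξ g) (rem ξ g) = ip g g - ip (cond ξ g) (cond ξ g) := by
  rw [ip_rem_self, rem, ip_sub_right, ip_cond_self]

/-- The abstract operator step: the three-row inequality on each class gives the inequality for the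
remainders. -/
theorem op_step (ξ : Fin 3 → Ω → Y) (κ : Ω → Z) (href : ∀ i x y, ξ i x = ξ i y → κ x = κ y)
    (TR : ∀ F : Fin 3 → Ω → ℝ, (∀ i x y, ξ i x = ξ i y → F i x = F i y) →
      (∀ i, cond κ (F i) = 0) →
      ip (F 0 + F 1 + F 2) (F 0 + F 1 + F 2) ≤ 2 * (ip (F 0) (F 0) + ip (F 1) (F 1) + ip (F 2) (F 2)))
    (f : Ω → ℝ) :
    ip (rem (ξ 0) f) (rem (ξ 0) f) + ip (rem (ξ 1) f) (rem (ξ 1) f) + ip (rem (ξ 2) f) (rem (ξ 2) f)
      ≤ ip (rem (ξ 0) f + rem (ξ 1) f + rem (ξ 2) f) (rem (ξ 0) f + rem (ξ 1) f + rem (ξ 2) f) := by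
  set g := rem κ f with hg
  have e : ∀ i, rem (ξ i) f = rem (ξ i) g := by
    intro i
    have h0 : rem (ξ i) (cond κ f) = 0 :=
      rem_of_meas _ _ (fun x y h => cond_congr κ f (href i x y h))
    have hgf : g = f - cond κ f := rfl
    rw [hgf, rem_sub', h0, sub_zero]
  rw [e 0, e 1, e 2]
  set Q : Fin 3 → Ω → ℝ := fun i => cond (ξ i) g with hQ
  have hQ0 : ∀ i, cond κ (Q i) = 0 := by
    intro i
    rw [hQ]
    show cond κ (cond (ξ i) g) = 0
    rw [cond_tower (ξ i) κ (href i) g]
    exact cond_rem κ f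
  have hTR := TR Q (fun i x y h => cond_congr _ _ h) hQ0
  have h1 : ∀ i, ip g (Q i) = ip (Q i) (Q i) := fun i => ip_cond_self _ _
  have h2 : ∀ i, ip (rem (ξ i) g) (rem (ξ i) g) = ip g g - ip (Q i) (Q i) := fun i => ip_rem_eq _ _
  set N := ip g g with hN
  set S0 := ip (Q 0) (Q 0) + ip (Q 1) (Q 1) + ip (Q 2) (Q 2) with hS0
  have hS0nn : 0 ≤ S0 := by
    have h0 := ip_self_nonneg (Q 0)
    have h1 := ip_self_nonneg (Q 1)
    have h2 := ip_self_nonneg (Q 2)
    linarith
  have hNnn : 0 ≤ N := ip_self_nonneg g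
  -- first Cauchy-Schwarz
  have h3 : ip g (Q 0 + Q 1 + Q 2) = S0 := by
    rw [ip_add_right, ip_add_right, h1, h1, h1]
  have h4 := ip_cauchy g (Q 0 + Q 1 + Q 2)
  rw [h3] at h4
  have h5 : S0 ≤ 2 * N := by
    by_contra hcon
    push Not at hcon
    have hS0pos : 0 < S0 := lt_of_le_of_lt (by positivity) hcon
    have h6 : S0 ^ 2 ≤ N * (2 * S0) := le_trans h4 (mul_le_mul_of_nonneg_left hTR hNnn)
    nlinarith
  set A := rem (ξ 0) g + rem (ξ 1) g + rem (ξ 2) g with hA
  have h7 : ip g A = 3 * N - S0 := by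
    rw [hA, ip_add_right, ip_add_right, ← ip_rem_self, ← ip_rem_self, ← ip_rem_self,
      h2, h2, h2]
    ring
  have h8 := ip_cauchy g A
  rw [h7] at h8
  rw [h2, h2, h2]
  have hAnn : 0 ≤ ip A A := ip_self_nonneg A
  have h9 : 3 * N - S0 ≥ N := by linarith
  have hgoal : 3 * N - S0 ≤ ip A A := by
    rcases hNnn.lt_or_eq with hpos | h0
    · by_contra hcon
      push Not at hcon
      have : (3 * N - S0) ^ 2 ≤ N * ip A A := h8
      nlinarith
    · have : 3 * N - S0 ≤ 0 := by rw [← h0]; linarith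
      linarith
  linarith

end Abstract

section Triple

variable {V : Type*} [Fintype V] [DecidableEq V]

/-- The vertices outside the triple. -/
def outT (t : Fin 3 → V) : Finset V := univ.filter fun y => ∀ i, y ≠ t i

@[simp] lemma mem_outT {t : Fin 3 → V} {y : V} : y ∈ outT t ↔ ∀ i, y ≠ t i := by simp [outT]

lemma outT_ne {t : Fin 3 → V} {y : V} (h : y ∈ outT t) (i : Fin 3) : y ≠ t i := mem_outT.1 h i

lemma not_outT_iff {t : Fin 3 → V} {y : V} : y ∉ outT t ↔ ∃ i, y = t i := by simp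

/-- Splitting a sum over the vertices along the triple. -/
lemma sum_split {t : Fin 3 → V} (ht : Function.Injective t) (g : V → ℤ) :
    ∑ z, g z = ∑ z ∈ outT t, g z + ∑ j, g (t j) := by
  have h1 : (univ : Finset V) = outT t ∪ univ.image t := by
    ext z
    simp only [mem_univ, mem_union, mem_outT, mem_image, true_and, true_iff]
    by_cases h : ∀ i, z ≠ t i
    · exact Or.inl h
    · push Not at h
      obtain ⟨i, hi⟩ := h
      exact Or.inr ⟨i, hi.symm⟩
  have h2 : Disjoint (outT t) (univ.image t) := by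
    rw [Finset.disjoint_left]
    intro z hz hz'
    obtain ⟨i, _, hi⟩ := mem_image.1 hz'
    exact outT_ne hz i hi.symm
  rw [h1, Finset.sum_union h2, Finset.sum_image (fun x _ y _ h => ht h)]

/-- The pairs of `G` not touching the triple. -/
def clG (t : Fin 3 → V) (G : Finset (Sym2 V)) : Finset (Sym2 V) :=
  G.filter fun e => ∀ i, t i ∉ e

lemma mk_mem_clG {t : Fin 3 → V} {G : Finset (Sym2 V)} {p q : V} :
    s(p, q) ∈ clG t G ↔ s(p, q) ∈ G ∧ p ∈ outT t ∧ q ∈ outT t := by
  simp only [clG, mem_filter, Sym2.mem_iff, not_or, mem_outT]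
  constructor
  · rintro ⟨h1, h2⟩
    exact ⟨h1, fun i h => (h2 i).1 h.symm, fun i h => (h2 i).2 h.symm⟩
  · rintro ⟨h1, h2, h3⟩
    exact ⟨h1, fun i => ⟨fun h => h2 i h.symm, fun h => h3 i h.symm⟩⟩

/-- The row of the vertex `t i`: its neighbours outside the triple, and the virtual column `t 0` if
the opposite pair is absent. -/
def rowG (t : Fin 3 → V) (i : Fin 3) (G : Finset (Sym2 V)) : Finset V :=
  univ.filter fun y => (y ∈ outT t ∧ s(t i, y) ∈ G) ∨ (y = t 0 ∧ s(t (i + 1), t (i + 2)) ∉ G)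

lemma mem_rowG {t : Fin 3 → V} {i : Fin 3} {G : Finset (Sym2 V)} {y : V} :
    y ∈ rowG t i G ↔ (y ∈ outT t ∧ s(t i, y) ∈ G) ∨ (y = t 0 ∧ s(t (i + 1), t (i + 2)) ∉ G) := by
  simp [rowG]

/-- The indicator of a set, with values in `ℤ`. -/
def ri (S : Finset V) (y : V) : ℤ := if y ∈ S then 1 else 0

lemma card_eq_sum_ri (S : Finset V) : (S.card : ℤ) = ∑ y, ri S y := by
  simp only [ri]
  rw [Finset.sum_ite_mem]
  simp

/-- The shape of a graph `G` with class `κ` and rows `x`. -/
structure Fit (t : Fin 3 → V) (κ : Finset (Sym2 V)) (x : Fin 3 → Finset V)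
    (G : Finset (Sym2 V)) : Prop where
  h1 : ∀ p q, p ∈ outT t → q ∈ outT t → (s(p, q) ∈ G ↔ s(p, q) ∈ κ)
  h2 : ∀ i y, y ∈ outT t → (s(t i, y) ∈ G ↔ y ∈ x i)
  h3 : ∀ i, s(t (i + 1), t (i + 2)) ∈ G ↔ t 0 ∉ x i
  h4 : ∀ p, s(p, p) ∉ G
  h5 : ∀ i y, y ∈ x i → y ∈ outT t ∨ y = t 0

lemma fin3_a (i : Fin 3) : i + 2 + 1 = i := by revert i; decide
lemma fin3_b (i : Fin 3) : i + 2 + 2 = i + 1 := by revert i; decide
lemma fin3_c (i : Fin 3) : i + 1 + 1 = i + 2 := by revert i; decide
lemma fin3_d (i : Fin 3) : i + 1 + 2 = i := by revert i; decide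
lemma fin3_tri (i j : Fin 3) : j = i ∨ j = i + 1 ∨ j = i + 2 := by revert i j; decide
lemma fin3_ne1 (j : Fin 3) : j + 1 ≠ j := by revert j; decide
lemma fin3_ne2 (j : Fin 3) : j + 2 ≠ j := by revert j; decide
lemma fin3_ne (j : Fin 3) : j + 1 ≠ j + 2 := by revert j; decide
lemma fin3_swap (i j : Fin 3) : i + 1 = j + 2 → i + 2 = j + 1 → i = j := by revert i j; decide
lemma fin3_sum {β : Type*} [AddCommMonoid β] (g : Fin 3 → β) (i : Fin 3) :
    ∑ j, g j = g i + g (i + 1) + g (i + 2) := by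
  rw [Fin.sum_univ_three]
  revert i
  have h01 : g 0 + g 1 = g 1 + g 0 := add_comm _ _
  intro i
  fin_cases i
  · rfl
  · show g 0 + g 1 + g 2 = g 1 + g 2 + g 0
    rw [add_assoc, add_comm]
  · show g 0 + g 1 + g 2 = g 2 + g 0 + g 1
    rw [add_comm, add_assoc]

lemma ed_eq_ri_of_iff {G : Finset (Sym2 V)} {S : Finset V} {p y : V}
    (h : s(p, y) ∈ G ↔ y ∈ S) : ed G p y = ri S y := by
  simp [ed, ri, h]

lemma Fit.ed_cross {t : Fin 3 → V} {κ x G} (F : Fit t κ x G) (i : Fin 3) :
    ed G (t i) (t (i + 1)) = 1 - ri (x (i + 2)) (t 0) := by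
  have h := F.h3 (i + 2)
  rw [fin3_a, fin3_b] at h
  simp only [ed, ri]
  by_cases h' : t 0 ∈ x (i + 2)
  · rw [if_neg (fun hh => (h.1 hh) h'), if_pos h']; norm_num
  · rw [if_pos (h.2 h'), if_neg h']; norm_num

lemma Fit.ed_cross' {t : Fin 3 → V} {κ x G} (F : Fit t κ x G) (i : Fin 3) :
    ed G (t i) (t (i + 2)) = 1 - ri (x (i + 1)) (t 0) := by
  have h := F.h3 (i + 1)
  rw [fin3_c, fin3_d] at h
  rw [ed_comm]
  simp only [ed, ri]
  by_cases h' : t 0 ∈ x (i + 1)
  · rw [if_neg (fun hh => (h.1 hh) h'), if_pos h']; norm_num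
  · rw [if_pos (h.2 h'), if_neg h']; norm_num

lemma Fit.ed_loop {t : Fin 3 → V} {κ x G} (F : Fit t κ x G) (p : V) : ed G p p = 0 := by
  simp [ed, F.h4 p]

/-- The degree of a vertex outside the triple. -/
lemma Fit.deg_out {t : Fin 3 → V} (ht : Function.Injective t) {κ x G} (F : Fit t κ x G) {v : V}
    (hv : v ∈ outT t) : (deg G v : ℤ) = ∑ z ∈ outT t, ed κ v z + ∑ j, ri (x j) v := by
  rw [deg_eq_sum, sum_split ht]
  congr 1
  · refine Finset.sum_congr rfl fun z hz => ?_
    simp [ed, F.h1 v z hv hz]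
  · refine Finset.sum_congr rfl fun j _ => ?_
    rw [ed_comm]
    exact ed_eq_ri_of_iff (F.h2 j v hv)

/-- The size of a row. -/
lemma Fit.card_row {t : Fin 3 → V} (ht : Function.Injective t) {κ x G} (F : Fit t κ x G)
    (i : Fin 3) : ((x i).card : ℤ) = ∑ z ∈ outT t, ri (x i) z + ri (x i) (t 0) := by
  rw [card_eq_sum_ri, sum_split ht]
  congr 1
  rw [fin3_sum _ 0]
  have h0 : ∀ j : Fin 3, j ≠ 0 → ri (x i) (t j) = 0 := by
    intro j hj
    simp only [ri]
    rw [if_neg]
    intro hmem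
    rcases F.h5 i _ hmem with h | h
    · exact outT_ne h j rfl
    · exact hj (ht h)
  rw [h0 (0 + 1) (by decide), h0 (0 + 2) (by decide)]
  simp

/-- The degree of a vertex of the triple. -/
lemma Fit.deg_T {t : Fin 3 → V} (ht : Function.Injective t) {κ x G} (F : Fit t κ x G) (i : Fin 3) :
    (deg G (t i) : ℤ) = (x i).card + 2 - ∑ j, ri (x j) (t 0) := by
  rw [deg_eq_sum, sum_split ht, fin3_sum (fun j => ed G (t i) (t j)) i, F.card_row ht i,
    fin3_sum (fun j => ri (x j) (t 0)) i, F.ed_loop, F.ed_cross, F.ed_cross']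
  have : ∑ z ∈ outT t, ed G (t i) z = ∑ z ∈ outT t, ri (x i) z :=
    Finset.sum_congr rfl fun z hz => ed_eq_ri_of_iff (F.h2 i z hz)
  rw [this]
  ring

lemma Fit.ed_out {t : Fin 3 → V} {κ x G} (F : Fit t κ x G) (i : Fin 3) {z : V}
    (hz : z ∈ outT t) : ed G (t i) z = ri (x i) z := ed_eq_ri_of_iff (F.h2 i z hz)

/-- Two shapes with the same class and rows are the same graph. -/
lemma Fit.eq_of_fit {t : Fin 3 → V} (ht : Function.Injective t) {κ x G G'} (F : Fit t κ x G)
    (F' : Fit t κ x G') : G = G' := by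
  have hT : ∀ (i : Fin 3) (q : V), s(t i, q) ∈ G ↔ s(t i, q) ∈ G' := by
    intro i q
    by_cases hq : q ∈ outT t
    · rw [F.h2 i q hq, F'.h2 i q hq]
    · obtain ⟨j, rfl⟩ := not_outT_iff.1 hq
      have hj : j = i ∨ j = i + 1 ∨ j = i + 2 := fin3_tri i j
      rcases hj with rfl | rfl | rfl
      · simp [F.h4, F'.h4]
      · have h := F.h3 (i + 2)
        have h' := F'.h3 (i + 2)
        rw [fin3_a, fin3_b] at h h'
        rw [h, h']
      · have h := F.h3 (i + 1)
        have h' := F'.h3 (i + 1)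
        rw [fin3_c, fin3_d, Sym2.eq_swap] at h h'
        rw [h, h']
  ext e
  induction e using Sym2.ind with
  | _ p q =>
    by_cases hp : p ∈ outT t
    · by_cases hq : q ∈ outT t
      · rw [F.h1 p q hp hq, F'.h1 p q hp hq]
      · obtain ⟨j, rfl⟩ := not_outT_iff.1 hq
        rw [Sym2.eq_swap]
        exact hT j p
    · obtain ⟨j, rfl⟩ := not_outT_iff.1 hp
      exact hT j q

variable {d : V → ℕ}

lemma omega_loop {G : Finset (Sym2 V)} (hG : G ∈ Omega d) (p : V) : s(p, p) ∉ G := by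
  simp only [Omega, mem_filter, mem_univ, true_and] at hG
  exact fun h => hG.1 _ h (by simp)

lemma omega_deg {G : Finset (Sym2 V)} (hG : G ∈ Omega d) (v : V) : deg G v = d v := by
  simp only [Omega, mem_filter, mem_univ, true_and] at hG
  exact hG.2 v

/-- A graph fits its own class and rows. -/
lemma fit_self (t : Fin 3 → V) {G : Finset (Sym2 V)} (hG : G ∈ Omega d) :
    Fit t (clG t G) (fun i => rowG t i G) G where
  h1 := by
    intro p q hp hq
    rw [mk_mem_clG]
    exact ⟨fun h => ⟨h, hp, hq⟩, fun h => h.1⟩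
  h2 := by
    intro i y hy
    rw [mem_rowG]
    constructor
    · exact fun h => Or.inl ⟨hy, h⟩
    · rintro (h | h)
      · exact h.2
      · exact absurd h.1 (outT_ne hy 0)
  h3 := by
    intro i
    rw [mem_rowG]
    constructor
    · rintro h (h' | h')
      · exact outT_ne h'.1 0 rfl
      · exact h'.2 h
    · intro h
      by_contra hcon
      exact h (Or.inr ⟨rfl, hcon⟩)
  h4 := omega_loop hG
  h5 := by
    intro i y hy
    rw [mem_rowG] at hy
    rcases hy with h | h
    · exact Or.inl h.1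
    · exact Or.inr h.1

/-- The count of a column as an integer. -/
lemma col_count (x : Fin 3 → Finset V) (y : V) :
    (((univ.filter fun i => y ∈ x i).card : ℕ) : ℤ) = ∑ j, ri (x j) y := by
  rw [Finset.card_filter]
  push_cast
  rfl

/-- Two shapes with the same class and the same degrees have the same row sizes and column sums. -/
lemma fit_same {t : Fin 3 → V} (ht : Function.Injective t) {κ x x0 G G0} (F : Fit t κ x G)
    (F0 : Fit t κ x0 G0) (hdeg : ∀ v, deg G v = deg G0 v) :
    (∀ i, (x i).card = (x0 i).card) ∧ ∀ y, ∑ j, ri (x j) y = ∑ j, ri (x0 j) y := by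
  have hout : ∀ v ∈ outT t, ∑ j, ri (x j) v = ∑ j, ri (x0 j) v := by
    intro v hv
    have h1 := F.deg_out ht hv
    have h2 := F0.deg_out ht hv
    rw [hdeg v, h2] at h1
    linarith
  have hT : ∀ i, ((x i).card : ℤ) - ∑ j, ri (x j) (t 0) = (x0 i).card - ∑ j, ri (x0 j) (t 0) := by
    intro i
    have h1 := F.deg_T ht i
    have h2 := F0.deg_T ht i
    rw [hdeg (t i), h2] at h1
    linarith
  have htot : ∀ (y : Fin 3 → Finset V) (G1 : Finset (Sym2 V)), Fit t κ y G1 →
      ∑ i, ((y i).card : ℤ) = ∑ z ∈ outT t, ∑ j, ri (y j) z + ∑ j, ri (y j) (t 0) := by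
    intro y G1 F1
    rw [Finset.sum_congr rfl (fun i _ => F1.card_row ht i), Finset.sum_add_distrib, Finset.sum_comm]
  have h3 := htot x G F
  have h4 := htot x0 G0 F0
  have h5 : ∑ z ∈ outT t, ∑ j, ri (x j) z = ∑ z ∈ outT t, ∑ j, ri (x0 j) z :=
    Finset.sum_congr rfl hout
  have h6 : ∑ i, (((x i).card : ℤ) - ∑ j, ri (x j) (t 0))
      = ∑ i, (((x0 i).card : ℤ) - ∑ j, ri (x0 j) (t 0)) :=
    Finset.sum_congr rfl fun i _ => hT i
  simp only [Finset.sum_sub_distrib, Finset.sum_const, Finset.card_univ, Fintype.card_fin,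
    nsmul_eq_mul] at h6
  have hA : ∑ j, ri (x j) (t 0) = ∑ j, ri (x0 j) (t 0) := by
    push_cast at h6
    linarith
  constructor
  · intro i
    have := hT i
    rw [hA] at this
    have h7 : ((x i).card : ℤ) = (x0 i).card := by linarith
    exact_mod_cast h7
  · intro y
    by_cases hy : y ∈ outT t
    · exact hout y hy
    · obtain ⟨j, rfl⟩ := not_outT_iff.1 hy
      by_cases hj : j = 0
      · subst hj; exact hA
      · have hz : ∀ (y : Fin 3 → Finset V) (G1 : Finset (Sym2 V)), Fit t κ y G1 →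
            ∑ l, ri (y l) (t j) = 0 := by
          intro y G1 F1
          refine Finset.sum_eq_zero fun l _ => ?_
          simp only [ri]
          rw [if_neg]
          intro hmem
          rcases F1.h5 l _ hmem with h | h
          · exact outT_ne h j rfl
          · exact hj (ht h)
        rw [hz x G F, hz x0 G0 F0]

/-- The rows of a graph with a fit. -/
lemma Fit.row_eq {t : Fin 3 → V} {κ x G} (F : Fit t κ x G) (i : Fin 3) : rowG t i G = x i := by
  ext y
  rw [mem_rowG]
  constructor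
  · rintro (h | h)
    · exact (F.h2 i y h.1).1 h.2
    · rw [h.1]
      by_contra hcon
      exact h.2 ((F.h3 i).2 hcon)
  · intro h
    rcases F.h5 i y h with h' | h'
    · exact Or.inl ⟨h', (F.h2 i y h').2 h⟩
    · refine Or.inr ⟨h', fun h'' => ?_⟩
      exact (F.h3 i).1 h'' (h' ▸ h)

/-- The class of a graph with a fit. -/
lemma Fit.cl_eq {t : Fin 3 → V} {κ x G} (F : Fit t κ x G)
    (hκ : ∀ p q, s(p, q) ∈ κ → p ∈ outT t ∧ q ∈ outT t) : clG t G = κ := by
  ext e
  induction e using Sym2.ind with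
  | _ p q =>
    rw [mk_mem_clG]
    constructor
    · rintro ⟨h, hp, hq⟩
      exact (F.h1 p q hp hq).1 h
    · intro h
      obtain ⟨hp, hq⟩ := hκ p q h
      exact ⟨(F.h1 p q hp hq).2 h, hp, hq⟩

/-- The graph with class `κ` and rows `x`. -/
def buildG (t : Fin 3 → V) (κ : Finset (Sym2 V)) (x : Fin 3 → Finset V) : Finset (Sym2 V) :=
  univ.filter fun e => e ∈ κ ∨ (∃ i y, y ∈ outT t ∧ y ∈ x i ∧ e = s(t i, y)) ∨
    (∃ i, t 0 ∉ x i ∧ e = s(t (i + 1), t (i + 2)))

lemma fit_build {t : Fin 3 → V} (ht : Function.Injective t) {κ : Finset (Sym2 V)}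
    {x : Fin 3 → Finset V} (hκ : ∀ p q, s(p, q) ∈ κ → p ∈ outT t ∧ q ∈ outT t)
    (hκ' : ∀ p, s(p, p) ∉ κ) (hx : ∀ i y, y ∈ x i → y ∈ outT t ∨ y = t 0) :
    Fit t κ x (buildG t κ x) where
  h1 := by
    intro p q hp hq
    simp only [buildG, mem_filter, mem_univ, true_and]
    constructor
    · rintro (h | ⟨i, y, hy, hyx, h⟩ | ⟨i, _, h⟩)
      · exact h
      · rcases Sym2.eq_iff.1 h with ⟨h1, _⟩ | ⟨_, h1⟩
        · exact absurd h1 (outT_ne hp i)
        · exact absurd h1 (outT_ne hq i)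
      · rcases Sym2.eq_iff.1 h with ⟨h1, _⟩ | ⟨h1, _⟩
        · exact absurd h1 (outT_ne hp _)
        · exact absurd h1 (outT_ne hp _)
    · exact Or.inl
  h2 := by
    intro i y hy
    simp only [buildG, mem_filter, mem_univ, true_and]
    constructor
    · rintro (h | ⟨j, y', hy', hyx, h⟩ | ⟨j, _, h⟩)
      · exact absurd rfl (outT_ne (hκ _ _ h).1 i)
      · rcases Sym2.eq_iff.1 h with ⟨h1, h2⟩ | ⟨h1, h2⟩
        · rw [ht h1, h2]; exact hyx
        · exact absurd h2 (outT_ne hy j)
      · rcases Sym2.eq_iff.1 h with ⟨_, h2⟩ | ⟨_, h2⟩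
        · exact absurd h2 (outT_ne hy _)
        · exact absurd h2 (outT_ne hy _)
    · intro h
      exact Or.inr (Or.inl ⟨i, y, hy, h, rfl⟩)
  h3 := by
    intro i
    simp only [buildG, mem_filter, mem_univ, true_and]
    constructor
    · rintro (h | ⟨j, y', hy', hyx, h⟩ | ⟨j, hj, h⟩)
      · exact absurd rfl (outT_ne (hκ _ _ h).1 _)
      · rcases Sym2.eq_iff.1 h with ⟨_, h2⟩ | ⟨h2, _⟩
        · exact absurd h2.symm (outT_ne hy' _)
        · exact absurd h2.symm (outT_ne hy' _)
      · have hij : i = j := by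
          rcases Sym2.eq_iff.1 h with ⟨h1, _⟩ | ⟨h1, h2⟩
          · exact add_right_cancel (ht h1)
          · exact fin3_swap i j (ht h1) (ht h2)
        rw [hij]; exact hj
    · intro h
      exact Or.inr (Or.inr ⟨i, h, rfl⟩)
  h4 := by
    intro p
    simp only [buildG, mem_filter, mem_univ, true_and, not_or]
    refine ⟨hκ' p, ?_, ?_⟩
    · rintro ⟨j, y, hy, _, h⟩
      rcases Sym2.eq_iff.1 h with ⟨h1, h2⟩ | ⟨h1, h2⟩
      · exact outT_ne hy j (by rw [← h2, h1])
      · exact outT_ne hy j (by rw [← h1, h2])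
    · rintro ⟨j, _, h⟩
      have h5 : t (j + 1) = t (j + 2) := by
        rcases Sym2.eq_iff.1 h with ⟨h1, h2⟩ | ⟨h1, h2⟩
        · rw [← h1, ← h2]
        · rw [← h1, ← h2]
      exact fin3_ne j (ht h5)
  h5 := hx

/-- Row sizes of a reference graph. -/
def rSz (t : Fin 3 → V) (G : Finset (Sym2 V)) : Fin 3 → ℕ := fun i => (rowG t i G).card

/-- Column sums of a reference graph. -/
def cSz (t : Fin 3 → V) (G : Finset (Sym2 V)) : V → ℕ :=
  fun y => (univ.filter fun i => y ∈ rowG t i G).card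

lemma rows_mem {t : Fin 3 → V} (ht : Function.Injective t) {G G0 : Finset (Sym2 V)}
    (hG : G ∈ Omega d) (hG0 : G0 ∈ Omega d) (h : clG t G = clG t G0) :
    (fun i => rowG t i G) ∈ Rows3 (rSz t G0) (cSz t G0) := by
  have F := fit_self t hG
  have F0 := fit_self t hG0
  rw [h] at F
  obtain ⟨h1, h2⟩ := fit_same ht F F0 (fun v => by rw [omega_deg hG, omega_deg hG0])
  rw [mem_rows]
  refine ⟨h1, fun y => ?_⟩
  have := h2 y
  rw [← col_count, ← col_count] at this
  exact_mod_cast this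

lemma rows_surj {t : Fin 3 → V} (ht : Function.Injective t) {G0 : Finset (Sym2 V)}
    (hG0 : G0 ∈ Omega d) {x : Fin 3 → Finset V} (hx : x ∈ Rows3 (rSz t G0) (cSz t G0)) :
    ∃ G, G ∈ Omega d ∧ clG t G = clG t G0 ∧ ∀ i, rowG t i G = x i := by
  obtain ⟨hr, hc⟩ := mem_rows.1 hx
  have F0 := fit_self t hG0
  have hcol : ∀ y, ∑ j, ri (x j) y = ∑ j, ri (rowG t j G0) y := by
    intro y
    have := hc y
    rw [← col_count, ← col_count]
    exact_mod_cast this
  have hκ : ∀ p q, s(p, q) ∈ clG t G0 → p ∈ outT t ∧ q ∈ outT t := fun p q h =>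
    (mk_mem_clG.1 h).2
  have hκ' : ∀ p, s(p, p) ∉ clG t G0 := fun p h => omega_loop hG0 p (mk_mem_clG.1 h).1
  have hx5 : ∀ i y, y ∈ x i → y ∈ outT t ∨ y = t 0 := by
    intro i y hy
    by_contra hcon
    push Not at hcon
    have h1 : 0 < (univ.filter fun j => y ∈ x j).card :=
      Finset.card_pos.2 ⟨i, by simp [hy]⟩
    rw [hc y] at h1
    obtain ⟨j, hj⟩ := Finset.card_pos.1 h1
    have hj' : y ∈ rowG t j G0 := by simpa using hj
    rcases F0.h5 j y hj' with h | h
    · exact hcon.1 h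
    · exact hcon.2 h
  have F := fit_build ht hκ hκ' hx5
  refine ⟨buildG t (clG t G0) x, ?_, F.cl_eq hκ, fun i => F.row_eq i⟩
  simp only [Omega, mem_filter, mem_univ, true_and]
  constructor
  · intro e he
    induction e using Sym2.ind with
    | _ p q =>
      intro hd
      have hpq : p = q := by simpa using hd
      subst hpq
      exact F.h4 p he
  · intro v
    rw [← omega_deg hG0 v]
    have hz : ((deg (buildG t (clG t G0) x) v : ℕ) : ℤ) = deg G0 v := by
      by_cases hv : v ∈ outT t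
      · rw [F.deg_out ht hv, F0.deg_out ht hv, hcol]
      · obtain ⟨i, rfl⟩ := not_outT_iff.1 hv
        rw [F.deg_T ht i, F0.deg_T ht i, hcol, hr i]
        rfl
    exact_mod_cast hz

lemma rows_inj {t : Fin 3 → V} (ht : Function.Injective t) {G G' : Finset (Sym2 V)}
    (hG : G ∈ Omega d) (hG' : G' ∈ Omega d) (h : clG t G = clG t G')
    (hr : ∀ i, rowG t i G = rowG t i G') : G = G' := by
  have F := fit_self t hG
  have F' := fit_self t hG'
  rw [h, show (fun i => rowG t i G) = fun i => rowG t i G' from funext hr] at F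
  exact F.eq_of_fit ht F'

/-- Equal block key from equal class and row. -/
lemma blk_eq_of_row {t : Fin 3 → V} (ht : Function.Injective t) {G G' : Finset (Sym2 V)}
    (hG : G ∈ Omega d) (hG' : G' ∈ Omega d) (h : clG t G = clG t G') (i : Fin 3)
    (hr : rowG t i G = rowG t i G') :
    blkKey (t (i + 1)) (t (i + 2)) G = blkKey (t (i + 1)) (t (i + 2)) G' := by
  have F := fit_self t hG
  have F' := fit_self t hG'
  rw [h] at F
  have hout : ∀ p q, p ∈ outT t → q ∈ outT t → (s(p, q) ∈ G ↔ s(p, q) ∈ G') := by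
    intro p q hp hq
    rw [F.h1 p q hp hq, F'.h1 p q hp hq]
  have hrow : ∀ q, q ∈ outT t → (s(t i, q) ∈ G ↔ s(t i, q) ∈ G') := by
    intro q hq
    rw [F.h2 i q hq, F'.h2 i q hq]
    exact Iff.of_eq (by rw [hr])
  have hopp : s(t (i + 1), t (i + 2)) ∈ G ↔ s(t (i + 1), t (i + 2)) ∈ G' := by
    rw [F.h3 i, F'.h3 i]
    exact Iff.of_eq (by rw [hr])
  have hne1 : t (i + 1) ≠ t i := fun h => fin3_ne1 i (ht h)
  have hne2 : t (i + 2) ≠ t i := fun h => fin3_ne2 i (ht h)
  have hne3 : t (i + 1) ≠ t (i + 2) := fun h => fin3_ne i (ht h)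
  rw [blkKey_eq_iff]
  constructor
  · -- the pairs outside the stripe
    have key : ∀ p q, s(p, q) ∉ stripe (t (i + 1)) (t (i + 2)) (others (t (i + 1)) (t (i + 2))) →
        (p ∈ outT t ∨ p = t i) → (s(p, q) ∈ G ↔ s(p, q) ∈ G') := by
      intro p q hs hp
      by_cases hq : q ∈ outT t
      · rcases hp with hp | rfl
        · exact hout p q hp hq
        · exact hrow q hq
      · obtain ⟨j, rfl⟩ := not_outT_iff.1 hq
        rcases fin3_tri i j with rfl | rfl | rfl
        · rcases hp with hp | rfl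
          · rw [Sym2.eq_swap]; exact hrow p hp
          · simp [F.h4, F'.h4]
        · exfalso
          apply hs
          rw [mk_mem_stripe]
          refine Or.inr ⟨Or.inl rfl, ?_⟩
          rw [mem_others]
          rcases hp with hp | rfl
          · exact ⟨outT_ne hp _, outT_ne hp _⟩
          · exact ⟨hne1.symm, hne2.symm⟩
        · exfalso
          apply hs
          rw [mk_mem_stripe]
          refine Or.inr ⟨Or.inr rfl, ?_⟩
          rw [mem_others]
          rcases hp with hp | rfl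
          · exact ⟨outT_ne hp _, outT_ne hp _⟩
          · exact ⟨hne1.symm, hne2.symm⟩
    intro e he
    induction e using Sym2.ind with
    | _ p q =>
      by_cases hp : p ∈ outT t ∨ p = t i
      · exact key p q he hp
      · by_cases hq : q ∈ outT t ∨ q = t i
        · rw [Sym2.eq_swap] at he ⊢
          exact key q p he hq
        · -- both in the pair
          push Not at hp hq
          obtain ⟨j, rfl⟩ := not_outT_iff.1 hp.1
          obtain ⟨l, rfl⟩ := not_outT_iff.1 hq.1
          rcases fin3_tri i j with rfl | rfl | rfl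
          · exact absurd rfl hp.2
          · rcases fin3_tri i l with rfl | rfl | rfl
            · exact absurd rfl hq.2
            · simp [F.h4, F'.h4]
            · exact hopp
          · rcases fin3_tri i l with rfl | rfl | rfl
            · exact absurd rfl hq.2
            · rw [Sym2.eq_swap]; exact hopp
            · simp [F.h4, F'.h4]
  · intro y hy1 hy2
    have hG1 := omega_deg hG
    have hG1' := omega_deg hG'
    by_cases hy : y ∈ outT t
    · have e1 := deg_eq_sum G y
      have e2 := deg_eq_sum G' y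
      rw [sum_split ht, fin3_sum _ i] at e1 e2
      rw [hG1 y] at e1
      rw [hG1' y] at e2
      have e3 : ∑ z ∈ outT t, ed G y z = ∑ z ∈ outT t, ed G' y z :=
        Finset.sum_congr rfl fun z hz => ed_eq_of_mem_iff (hout y z hy hz)
      have e4 : ed G y (t i) = ed G' y (t i) := by
        rw [ed_comm, ed_comm G']
        exact ed_eq_of_mem_iff (hrow y hy)
      rw [ed_comm G (t (i + 1)), ed_comm G (t (i + 2)), ed_comm G' (t (i + 1)),
        ed_comm G' (t (i + 2))]
      linarith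
    · obtain ⟨j, rfl⟩ := not_outT_iff.1 hy
      have hji : j = i := by
        rcases fin3_tri i j with h | h | h
        · exact h
        · exact absurd (by rw [h]) hy1
        · exact absurd (by rw [h]) hy2
      subst hji
      have e1 := deg_eq_sum G (t j)
      have e2 := deg_eq_sum G' (t j)
      rw [sum_split ht, fin3_sum _ j] at e1 e2
      rw [hG1 (t j)] at e1
      rw [hG1' (t j)] at e2
      have e3 : ∑ z ∈ outT t, ed G (t j) z = ∑ z ∈ outT t, ed G' (t j) z :=
        Finset.sum_congr rfl fun z hz => ed_eq_of_mem_iff (hrow z hz)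
      rw [F.ed_loop] at e1
      rw [F'.ed_loop] at e2
      rw [ed_comm G (t (j + 1)), ed_comm G (t (j + 2)), ed_comm G' (t (j + 1)),
        ed_comm G' (t (j + 2))]
      linarith

/-- The block key refines the class. -/
lemma cl_eq_of_blk {t : Fin 3 → V} {G G' : Finset (Sym2 V)} (i : Fin 3)
    (h : blkKey (t (i + 1)) (t (i + 2)) G = blkKey (t (i + 1)) (t (i + 2)) G') :
    clG t G = clG t G' := by
  obtain ⟨h1, _⟩ := blkKey_eq_iff.1 h
  ext e
  induction e using Sym2.ind with
  | _ p q =>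
    rw [mk_mem_clG, mk_mem_clG]
    have key : p ∈ outT t → q ∈ outT t → (s(p, q) ∈ G ↔ s(p, q) ∈ G') := by
      intro hp hq
      apply h1
      rw [mk_mem_stripe]
      rintro (⟨h2 | h2, _⟩ | ⟨h2 | h2, _⟩)
      · exact outT_ne hp _ h2
      · exact outT_ne hp _ h2
      · exact outT_ne hq _ h2
      · exact outT_ne hq _ h2
    constructor
    · rintro ⟨a, b, c⟩
      exact ⟨(key b c).1 a, b, c⟩
    · rintro ⟨a, b, c⟩
      exact ⟨(key b c).2 a, b, c⟩

/-- The three-row inequality on one class. -/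
lemma class_ineq {t : Fin 3 → V} (ht : Function.Injective t) (κ0 : Finset (Sym2 V))
    (F : Fin 3 → State d → ℝ)
    (hF : ∀ i (x y : State d), blkKey (t (i + 1)) (t (i + 2)) x.1
      = blkKey (t (i + 1)) (t (i + 2)) y.1 → F i x = F i y)
    (hmean : ∀ i, ∑ G ∈ (univ : Finset (State d)).filter (fun G => clG t G.1 = κ0), F i G = 0) :
    ∑ G ∈ (univ : Finset (State d)).filter (fun G => clG t G.1 = κ0), (F 0 G + F 1 G + F 2 G) ^ 2
      ≤ 2 * (∑ G ∈ (univ : Finset (State d)).filter (fun G => clG t G.1 = κ0), (F 0 G) ^ 2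
        + ∑ G ∈ (univ : Finset (State d)).filter (fun G => clG t G.1 = κ0), (F 1 G) ^ 2
        + ∑ G ∈ (univ : Finset (State d)).filter (fun G => clG t G.1 = κ0), (F 2 G) ^ 2) := by
  classical
  set C := (univ : Finset (State d)).filter (fun G => clG t G.1 = κ0) with hC
  by_cases hne : C.Nonempty
  · obtain ⟨G0, hG0⟩ := hne
    have hG0' : clG t G0.1 = κ0 := (mem_filter.1 hG0).2
    -- the row functions
    let Ft : Fin 3 → Finset V → ℝ := fun i S =>
      if h : ∃ G ∈ C, rowG t i G.1 = S then F i h.choose else 0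
    have hFt : ∀ i, ∀ G ∈ C, Ft i (rowG t i G.1) = F i G := by
      intro i G hG
      have h : ∃ G' ∈ C, rowG t i G'.1 = rowG t i G.1 := ⟨G, hG, rfl⟩
      simp only [Ft]
      rw [dif_pos h]
      apply hF
      obtain ⟨h1, h2⟩ := h.choose_spec
      apply blk_eq_of_row ht h.choose.2 G.2
      · rw [(mem_filter.1 h1).2, (mem_filter.1 hG).2]
      · exact h2
    -- transfer of sums
    have htr : ∀ φ : (Fin 3 → Finset V) → ℝ, ∑ x ∈ Rows3 (rSz t G0.1) (cSz t G0.1), φ x
        = ∑ G ∈ C, φ (fun i => rowG t i G.1) := by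
      intro φ
      symm
      refine Finset.sum_nbij (fun G : State d => fun i => rowG t i G.1) ?_ ?_ ?_ ?_
      · intro G hG
        exact rows_mem ht G.2 G0.2 (by rw [(mem_filter.1 hG).2, hG0'])
      · intro G hG G' hG' h
        apply Subtype.ext
        apply rows_inj ht G.2 G'.2
        · rw [(mem_filter.1 (mem_coe.1 hG)).2, (mem_filter.1 (mem_coe.1 hG')).2]
        · exact fun i => congrFun h i
      · intro x hx
        obtain ⟨G, hG, h1, h2⟩ := rows_surj ht G0.2 (mem_coe.1 hx)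
        refine ⟨⟨G, hG⟩, ?_, funext h2⟩
        apply mem_coe.2
        exact mem_filter.2 ⟨mem_univ _, by simpa [hG0'] using h1⟩
      · intro G hG
        rfl
    have hmean' : ∀ a, ∑ x ∈ Rows3 (rSz t G0.1) (cSz t G0.1), Ft a (x a) = 0 := by
      intro a
      rw [htr (fun x => Ft a (x a))]
      rw [Finset.sum_congr rfl (fun G hG => hFt a G hG)]
      exact hmean a
    have key := three_row (rSz t G0.1) (cSz t G0.1) Ft hmean'
    rw [htr (fun x => (∑ a, Ft a (x a)) ^ 2)] at key
    have e1 : ∀ a, ∑ x ∈ Rows3 (rSz t G0.1) (cSz t G0.1), (Ft a (x a)) ^ 2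
        = ∑ G ∈ C, (F a G) ^ 2 := by
      intro a
      rw [htr (fun x => (Ft a (x a)) ^ 2)]
      exact Finset.sum_congr rfl fun G hG => by rw [hFt a G hG]
    rw [Fin.sum_univ_three, e1, e1, e1] at key
    have e2 : ∑ G ∈ C, (∑ a, Ft a (rowG t a G.1)) ^ 2 = ∑ G ∈ C, (F 0 G + F 1 G + F 2 G) ^ 2 := by
      refine Finset.sum_congr rfl fun G hG => ?_
      rw [Fin.sum_univ_three, hFt 0 G hG, hFt 1 G hG, hFt 2 G hG]
    rw [e2] at key
    exact key
  · rw [Finset.not_nonempty_iff_eq_empty] at hne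
    simp [hne]

/-- The inequality summed over the classes. -/
lemma sum_class_ineq {t : Fin 3 → V} (ht : Function.Injective t)
    (F : Fin 3 → State d → ℝ)
    (hF : ∀ i (x y : State d), blkKey (t (i + 1)) (t (i + 2)) x.1
      = blkKey (t (i + 1)) (t (i + 2)) y.1 → F i x = F i y)
    (hmean : ∀ i, cond (fun G : State d => clG t G.1) (F i) = 0) :
    ip (F 0 + F 1 + F 2) (F 0 + F 1 + F 2)
      ≤ 2 * (ip (F 0) (F 0) + ip (F 1) (F 1) + ip (F 2) (F 2)) := by
  have hmean' : ∀ (κ0 : Finset (Sym2 V)) i,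
      ∑ G ∈ (univ : Finset (State d)).filter (fun G => clG t G.1 = κ0), F i G = 0 := by
    intro κ0 i
    by_cases hne : ((univ : Finset (State d)).filter (fun G => clG t G.1 = κ0)).Nonempty
    · obtain ⟨G0, hG0⟩ := hne
      have h0 : clG t G0.1 = κ0 := (mem_filter.1 hG0).2
      have h1 := congrFun (hmean i) G0
      simp only [cond, Pi.zero_apply] at h1
      have h2 : ((fib (fun G : State d => clG t G.1) G0).card : ℝ) ≠ 0 := by
        exact_mod_cast (fib_card_pos _ G0).ne'
      have h3 := (div_eq_zero_iff.1 h1).resolve_right h2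
      have h4 : fib (fun G : State d => clG t G.1) G0
          = (univ : Finset (State d)).filter (fun G => clG t G.1 = κ0) := by
        simp only [fib, h0]
      rw [h4] at h3
      exact h3
    · rw [Finset.not_nonempty_iff_eq_empty] at hne
      rw [hne, Finset.sum_empty]
  have key := fun κ0 => class_ineq (d := d) ht κ0 F hF (fun i => hmean' κ0 i)
  have hs := Finset.sum_le_sum (s := (univ : Finset (Finset (Sym2 V)))) (fun κ0 _ => key κ0)
  simp only [← Finset.mul_sum, Finset.sum_add_distrib] at hs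
  have hfib : ∀ φ : State d → ℝ,
      ∑ κ0 : Finset (Sym2 V), ∑ G ∈ (univ : Finset (State d)).filter (fun G => clG t G.1 = κ0), φ G
        = ∑ G, φ G := fun φ =>
    Finset.sum_fiberwise univ (fun G : State d => clG t G.1) φ
  have h5 := hfib (fun G => (F 0 G + F 1 G + F 2 G) ^ 2)
  have h6 := hfib (fun G => (F 0 G) ^ 2)
  have h7 := hfib (fun G => (F 1 G) ^ 2)
  have h8 := hfib (fun G => (F 2 G) ^ 2)
  rw [h5, h6, h7, h8] at hs
  simp only [ip, Pi.add_apply, ← pow_two]
  exact hs

variable (d) in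
/-- The inequality for the three blocks of an injective triple. -/
theorem triple_ineq_fin {t : Fin 3 → V} (ht : Function.Injective t) (f : State d → ℝ) :
    ip (X (t 1) (t 2) f) (X (t 1) (t 2) f) + ip (X (t 2) (t 0) f) (X (t 2) (t 0) f)
        + ip (X (t 0) (t 1) f) (X (t 0) (t 1) f)
      ≤ ip (X (t 1) (t 2) f + X (t 2) (t 0) f + X (t 0) (t 1) f)
          (X (t 1) (t 2) f + X (t 2) (t 0) f + X (t 0) (t 1) f) := by
  have := op_step (fun i : Fin 3 => (xi (t (i + 1)) (t (i + 2)) : State d → _))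
    (fun G : State d => clG t G.1) (fun i x y h => cl_eq_of_blk i h)
    (fun F hF h0 => sum_class_ineq ht F hF h0) f
  exact this

/-- The inequality for the three pairs inside a triple of vertices. -/
theorem triple_ineq {a b c : V} (hab : a ≠ b) (hac : a ≠ c) (hbc : b ≠ c)
    (f : State d → ℝ) :
    ip (X a b f) (X a b f) + ip (X a c f) (X a c f) + ip (X b c f) (X b c f)
      ≤ ip (X a b f + X a c f + X b c f) (X a b f + X a c f + X b c f) := by
  have ht : Function.Injective ![a, b, c] := by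
    intro i j h
    fin_cases i <;> fin_cases j <;> simp_all
  have h := triple_ineq_fin d ht f
  simp only [Matrix.cons_val_zero, Matrix.cons_val_one, Matrix.cons_val] at h
  rw [X_swap c a] at h
  have e : X a b f + X a c f + X b c f = X b c f + X a c f + X a b f := by abel
  rw [e]
  linarith

end Triple

end Vale.Agent.Lib.P335
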