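import Mathlib
set_option linter.unusedSectionVars false

/-!
A symmetric stochastic matrix made lazy: contraction of mean zero functions from a Poincare
inequality, and the resulting bound on the distance of the rows of the powers to the uniform law.
-/

namespace Vale.Agent.Lib.P335.ChainSpectral

open Finset

variable {Ω : Type*} [Fintype Ω] [DecidableEq Ω]

/-- Symmetric stochastic matrices. -/
structure SymStoch (Q : Matrix Ω Ω ℝ) : Prop where
  nonneg : ∀ G H, 0 ≤ Q G H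
  symm : ∀ G H, Q G H = Q H G
  rowsum : ∀ G, ∑ H, Q G H = 1

/-- The lazy version. -/
noncomputable def lazy (Q : Matrix Ω Ω ℝ) : Matrix Ω Ω ℝ :=
  fun G H => (if G = H then 1 / 2 else 0) + (1 / 2) * Q G H

variable {Q : Matrix Ω Ω ℝ}

lemma SymStoch.colsum (hQ : SymStoch Q) (H : Ω) : ∑ G, Q G H = 1 := by
  simp_rw [hQ.symm _ H]
  exact hQ.rowsum H

lemma lazy_mulVec (f : Ω → ℝ) (G : Ω) :
    (lazy Q).mulVec f G = (1 / 2) * f G + (1 / 2) * Q.mulVec f G := by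
  simp only [Matrix.mulVec, dotProduct, lazy, add_mul, Finset.sum_add_distrib]
  congr 1
  · simp [ite_mul]
  · simp only [Finset.mul_sum, mul_assoc]

lemma sum_mulVec (hQ : SymStoch Q) (f : Ω → ℝ) : ∑ G, Q.mulVec f G = ∑ G, f G := by
  simp only [Matrix.mulVec, dotProduct]
  rw [Finset.sum_comm]
  refine Finset.sum_congr rfl fun H _ => ?_
  rw [← Finset.sum_mul, hQ.colsum H, one_mul]

lemma sum_lazy_mulVec (hQ : SymStoch Q) (f : Ω → ℝ) :
    ∑ G, (lazy Q).mulVec f G = ∑ G, f G := by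
  simp only [lazy_mulVec, Finset.sum_add_distrib, ← Finset.mul_sum, sum_mulVec hQ]
  ring

lemma nsq_mulVec_le (hQ : SymStoch Q) (f : Ω → ℝ) :
    ∑ G, (Q.mulVec f G) ^ 2 ≤ ∑ G, f G ^ 2 := by
  have h1 : ∀ G, (Q.mulVec f G) ^ 2 ≤ ∑ H, Q G H * f H ^ 2 := by
    intro G
    have h2 := Finset.sum_sq_le_sum_mul_sum_of_sq_le_mul (univ : Finset Ω)
      (r := fun H => Q G H * f H) (f := fun H => Q G H) (g := fun H => Q G H * f H ^ 2)
      (fun H _ => hQ.nonneg G H) (fun H _ => mul_nonneg (hQ.nonneg G H) (sq_nonneg _))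
      (fun H _ => le_of_eq (by ring))
    rw [hQ.rowsum G, one_mul] at h2
    simpa only [Matrix.mulVec, dotProduct] using h2
  calc ∑ G, (Q.mulVec f G) ^ 2 ≤ ∑ G, ∑ H, Q G H * f H ^ 2 :=
        Finset.sum_le_sum fun G _ => h1 G
    _ = ∑ H, ∑ G, Q G H * f H ^ 2 := Finset.sum_comm
    _ = ∑ H, f H ^ 2 := by
        refine Finset.sum_congr rfl fun H _ => ?_
        rw [← Finset.sum_mul, hQ.colsum H, one_mul]

lemma dirichlet_identity (hQ : SymStoch Q) (f : Ω → ℝ) :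
    ∑ G, ∑ H, Q G H * (f G - f H) ^ 2
      = 2 * ∑ G, f G ^ 2 - 2 * ∑ G, f G * Q.mulVec f G := by
  have h1 : ∑ G, ∑ H, Q G H * f G ^ 2 = ∑ G, f G ^ 2 := by
    refine Finset.sum_congr rfl fun G _ => ?_
    rw [← Finset.sum_mul, hQ.rowsum G, one_mul]
  have h2 : ∑ G, ∑ H, Q G H * f H ^ 2 = ∑ G, f G ^ 2 := by
    rw [Finset.sum_comm]
    refine Finset.sum_congr rfl fun H _ => ?_
    rw [← Finset.sum_mul, hQ.colsum H, one_mul]
  have h3 : ∑ G, f G * Q.mulVec f G = ∑ G, ∑ H, Q G H * (f G * f H) := by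
    refine Finset.sum_congr rfl fun G _ => ?_
    simp only [Matrix.mulVec, dotProduct, Finset.mul_sum]
    refine Finset.sum_congr rfl fun H _ => ?_
    ring
  have h4 : ∀ G H, Q G H * (f G - f H) ^ 2
      = Q G H * f G ^ 2 + Q G H * f H ^ 2 - 2 * (Q G H * (f G * f H)) := by
    intro G H; ring
  simp only [h4, Finset.sum_sub_distrib, Finset.sum_add_distrib, h1, h2, ← Finset.mul_sum]
  rw [h3]
  ring

lemma nsq_lazy_le (hQ : SymStoch Q) (f : Ω → ℝ) :
    ∑ G, ((lazy Q).mulVec f G) ^ 2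
      ≤ ∑ G, f G ^ 2 - (1 / 4) * ∑ G, ∑ H, Q G H * (f G - f H) ^ 2 := by
  have h0 : ∀ G, ((lazy Q).mulVec f G) ^ 2
      = (1 / 4) * f G ^ 2 + (1 / 2) * (f G * Q.mulVec f G) + (1 / 4) * (Q.mulVec f G) ^ 2 := by
    intro G; rw [lazy_mulVec]; ring
  simp only [h0, Finset.sum_add_distrib, ← Finset.mul_sum]
  rw [dirichlet_identity hQ f]
  have := nsq_mulVec_le hQ f
  linarith

lemma nsq_pow_le (hQ : SymStoch Q) {g : ℝ} (hg1 : g ≤ 1)
    (hP : ∀ f : Ω → ℝ, ∑ G, f G = 0 →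
      g * ∑ G, f G ^ 2 ≤ (1 / 4) * ∑ G, ∑ H, Q G H * (f G - f H) ^ 2)
    (f : Ω → ℝ) (hf : ∑ G, f G = 0) (t : ℕ) :
    ∑ G, ((lazy Q ^ t).mulVec f G) ^ 2 ≤ (1 - g) ^ t * ∑ G, f G ^ 2 := by
  have hmean : ∀ t : ℕ, ∑ G, (lazy Q ^ t).mulVec f G = 0 := by
    intro t
    induction t with
    | zero => simpa using hf
    | succ t ih =>
      rw [pow_succ', ← Matrix.mulVec_mulVec, sum_lazy_mulVec hQ]
      exact ih
  induction t with
  | zero => simp
  | succ t ih =>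
    rw [pow_succ', ← Matrix.mulVec_mulVec]
    have h1 := nsq_lazy_le hQ ((lazy Q ^ t).mulVec f)
    have h2 := hP ((lazy Q ^ t).mulVec f) (hmean t)
    have h3 : 0 ≤ 1 - g := by linarith
    calc ∑ G, ((lazy Q).mulVec ((lazy Q ^ t).mulVec f) G) ^ 2
        ≤ (1 - g) * ∑ G, ((lazy Q ^ t).mulVec f G) ^ 2 := by linarith
      _ ≤ (1 - g) * ((1 - g) ^ t * ∑ G, f G ^ 2) := mul_le_mul_of_nonneg_left ih h3
      _ = (1 - g) ^ (t + 1) * ∑ G, f G ^ 2 := by ring

lemma lazy_rowsum (hQ : SymStoch Q) (G : Ω) : ∑ H, lazy Q G H = 1 := by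
  simp only [lazy, Finset.sum_add_distrib, ← Finset.mul_sum, hQ.rowsum G]
  simp
  norm_num

lemma lazy_symm (hQ : SymStoch Q) : (lazy Q).IsSymm := by
  ext G H
  simp only [Matrix.transpose_apply, lazy, hQ.symm H G]
  congr 1
  by_cases h : G = H
  · subst h; rfl
  · rw [if_neg h, if_neg (fun h' => h h'.symm)]

lemma lazy_pow_rowsum (hQ : SymStoch Q) (t : ℕ) (G : Ω) : ∑ H, (lazy Q ^ t) G H = 1 := by
  induction t generalizing G with
  | zero =>
    simp [Matrix.one_apply]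
  | succ t ih =>
    rw [pow_succ]
    simp only [Matrix.mul_apply]
    rw [Finset.sum_comm]
    simp only [← Finset.mul_sum, lazy_rowsum hQ, mul_one]
    exact ih G

/-- The distance of a row of a power to the uniform law. -/
theorem row_l1_sq_le (hQ : SymStoch Q) {g : ℝ} (hg1 : g ≤ 1)
    (hP : ∀ f : Ω → ℝ, ∑ G, f G = 0 →
      g * ∑ G, f G ^ 2 ≤ (1 / 4) * ∑ G, ∑ H, Q G H * (f G - f H) ^ 2)
    (t : ℕ) (G : Ω) :
    (∑ H, |(lazy Q ^ t) G H - 1 / (Fintype.card Ω : ℝ)|) ^ 2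
      ≤ (Fintype.card Ω : ℝ) * (1 - g) ^ t := by
  set N : ℝ := (Fintype.card Ω : ℝ) with hN
  have hNpos : 0 < N := by
    have : 0 < Fintype.card Ω := Fintype.card_pos_iff.2 ⟨G⟩
    rw [hN]; exact_mod_cast this
  set f₀ : Ω → ℝ := fun H => (if H = G then 1 else 0) - 1 / N with hf₀
  have hsum : ∑ H, f₀ H = 0 := by
    simp only [hf₀, Finset.sum_sub_distrib, Finset.sum_ite_eq', Finset.mem_univ, if_true,
      Finset.sum_const, Finset.card_univ, nsmul_eq_mul]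
    rw [← hN]
    field_simp
    ring
  have hnorm : ∑ H, f₀ H ^ 2 ≤ 1 := by
    have h1 : ∀ H, f₀ H ^ 2
        = (if H = G then 1 else 0) - (2 / N) * (if H = G then 1 else 0) + 1 / N ^ 2 := by
      intro H
      simp only [hf₀]
      by_cases h : H = G
      · simp only [h, if_true]; field_simp; ring
      · simp only [h, if_false]; field_simp; ring
    simp only [h1, Finset.sum_add_distrib, Finset.sum_sub_distrib, ← Finset.mul_sum,
      Finset.sum_ite_eq', Finset.mem_univ, if_true, Finset.sum_const, Finset.card_univ,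
      nsmul_eq_mul]
    rw [← hN]
    have : N * (1 / N ^ 2) = 1 / N := by field_simp
    rw [this]
    have h2 : 0 ≤ 1 / N := by positivity
    have h3 : 1 - 2 / N * 1 + 1 / N = 1 - 1 / N := by
      field_simp; ring
    linarith
  have hrow : ∀ H, (lazy Q ^ t).mulVec f₀ H = (lazy Q ^ t) G H - 1 / N := by
    intro H
    simp only [Matrix.mulVec, dotProduct, hf₀, mul_sub, Finset.sum_sub_distrib]
    have hs : (lazy Q ^ t) H G = (lazy Q ^ t) G H := by
      have := (lazy_symm hQ).pow t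
      exact Matrix.IsSymm.apply this G H
    have e1 : ∑ K, (lazy Q ^ t) H K * (if K = G then 1 else 0) = (lazy Q ^ t) H G := by
      simp
    have e2 : ∑ K, (lazy Q ^ t) H K * (1 / N) = 1 / N := by
      rw [← Finset.sum_mul, lazy_pow_rowsum hQ, one_mul]
    rw [e1, e2, hs]
  have hdecay := nsq_pow_le hQ hg1 hP f₀ hsum t
  have hcs : (∑ H, |(lazy Q ^ t) G H - 1 / N|) ^ 2
      ≤ N * ∑ H, ((lazy Q ^ t) G H - 1 / N) ^ 2 := by
    have := sq_sum_le_card_mul_sum_sq (s := (univ : Finset Ω))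
      (f := fun H => |(lazy Q ^ t) G H - 1 / N|)
    simpa only [sq_abs, Finset.card_univ] using this
  have h5 : ∑ H, ((lazy Q ^ t) G H - 1 / N) ^ 2 ≤ (1 - g) ^ t := by
    have h6 : ∑ H, ((lazy Q ^ t) G H - 1 / N) ^ 2
        = ∑ H, ((lazy Q ^ t).mulVec f₀ H) ^ 2 := by
      simp only [hrow]
    rw [h6]
    have h7 : 0 ≤ (1 - g) ^ t := pow_nonneg (by linarith) t
    calc _ ≤ (1 - g) ^ t * ∑ H, f₀ H ^ 2 := hdecay
      _ ≤ (1 - g) ^ t * 1 := mul_le_mul_of_nonneg_left hnorm h7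
      _ = (1 - g) ^ t := mul_one _
  calc _ ≤ N * ∑ H, ((lazy Q ^ t) G H - 1 / N) ^ 2 := hcs
    _ ≤ N * (1 - g) ^ t := mul_le_mul_of_nonneg_left h5 hNpos.le

end Vale.Agent.Lib.P335.ChainSpectral
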