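import Vale.Agent.Lib.P335.ChainMoves
import Vale.Agent.Lib.P335.ChainSpectral
set_option linter.unusedSectionVars false

/-!
From the Poincare inequality to the mixing time bound.
-/

namespace Vale.Agent.Lib.P335

open Finset ChainSpectral

variable {n : ℕ}

open Classical in
/-- The number of moves from `G` to `H`. -/
noncomputable def aCount (d : Fin n → ℕ) (G H : State d) : ℕ :=
  ((moves n).filter fun t => applyMove G.1 t.2.1 t.2.2 = H.1).card

/-- The move part of the kernel. -/
noncomputable def qMat (d : Fin n → ℕ) : Matrix (State d) (State d) ℝ :=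
  fun G H => (aCount d G H : ℝ) / (6 * (n.choose 4 : ℝ))

lemma kernel_eq_lazy (d : Fin n → ℕ) : kernel d = lazy (qMat d) := by
  ext G H
  simp only [kernel, lazy, qMat, aCount, mul_div_assoc]

lemma applyMove_swap {G H F F' : Finset (Sym2 (Fin n))} (hne : G ≠ H)
    (h : applyMove G F F' = H) : applyMove H F' F = G := by
  unfold applyMove at h ⊢
  split_ifs at h with hc
  · obtain ⟨h1, h2⟩ := hc
    have h3 : F' ⊆ H := by
      rw [← h]; exact Finset.subset_union_right
    have h4 : Disjoint F H := by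
      rw [Finset.disjoint_left]
      intro e he he'
      rw [← h] at he'
      simp only [Finset.mem_union, Finset.mem_sdiff] at he'
      rcases he' with he' | he'
      · exact he'.2 he
      · exact Finset.disjoint_left.1 h2 he' (h1 he)
    rw [if_pos ⟨h3, h4⟩, ← h]
    ext e
    simp only [Finset.mem_union, Finset.mem_sdiff]
    constructor
    · rintro (⟨h5 | h5, h6⟩ | h5)
      · exact h5.1
      · exact absurd h5 h6
      · exact h1 h5
    · intro h5
      by_cases h6 : e ∈ F
      · exact Or.inr h6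
      · exact Or.inl ⟨Or.inl ⟨h5, h6⟩, fun h7 => Finset.disjoint_left.1 h2 h7 h5⟩
  · exact absurd h hne

lemma swap_mem_moves {t : Finset (Fin n) × Finset (Sym2 (Fin n)) × Finset (Sym2 (Fin n))}
    (ht : t ∈ moves n) : (t.1, t.2.2, t.2.1) ∈ moves n := by
  classical
  simp only [moves, Finset.mem_filter, Finset.mem_univ, true_and] at ht ⊢
  exact ⟨ht.1, ht.2.2.1, ht.2.1, ht.2.2.2.symm⟩

lemma aCount_le (d : Fin n → ℕ) {G H : State d} (h : G ≠ H) : aCount d G H ≤ aCount d H G := by
  classical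
  unfold aCount
  refine Finset.card_le_card_of_injOn (fun t => (t.1, t.2.2, t.2.1)) ?_ ?_
  · intro t ht
    simp only [Finset.mem_coe, Finset.mem_filter] at ht ⊢
    refine ⟨swap_mem_moves ht.1, ?_⟩
    exact applyMove_swap (fun h' => h (Subtype.ext h')) ht.2
  · rintro ⟨a, b, c⟩ _ ⟨a', b', c'⟩ _ h'
    simp only [Prod.mk.injEq] at h' ⊢
    tauto

lemma aCount_symm (d : Fin n → ℕ) (G H : State d) : aCount d G H = aCount d H G := by
  by_cases h : G = H
  · rw [h]
  · exact le_antisymm (aCount_le d h) (aCount_le d (fun h' => h h'.symm))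

lemma aCount_sum (d : Fin n → ℕ) (G : State d) : ∑ H, aCount d G H = 6 * n.choose 4 := by
  classical
  rw [← card_moves]
  have h1 := Finset.card_eq_sum_card_fiberwise (s := moves n) (t := Omega d)
    (f := fun t => applyMove G.1 t.2.1 t.2.2)
    (fun t ht => applyMove_mem G.2 (Finset.mem_coe.1 ht))
  rw [h1]
  unfold aCount
  rw [← Finset.sum_coe_sort (Omega d)]

lemma choose_pos_of (hn : 4 ≤ n) : (0 : ℝ) < (n.choose 4 : ℝ) := by
  exact_mod_cast Nat.choose_pos hn

lemma qMat_symStoch (hn : 4 ≤ n) (d : Fin n → ℕ) : SymStoch (qMat d) := by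
  have hc := choose_pos_of hn
  refine ⟨fun G H => ?_, fun G H => ?_, fun G => ?_⟩
  · unfold qMat; positivity
  · unfold qMat; rw [aCount_symm]
  · unfold qMat
    rw [← Finset.sum_div, ← Nat.cast_sum, aCount_sum]
    push_cast
    field_simp

/-! ### Dirichlet comparison -/

lemma applyMove_eq_swp {u v w z : Fin n} {G : Finset (Sym2 (Fin n))} (hp : Pat u v w z G) :
    applyMove G {s(u, w), s(v, z)} {s(u, z), s(v, w)} = swp u v w z G := by
  have hm := mem_swp_of_pat (u := u) (v := v) (w := w) (z := z) (G := G) (Or.inl hp)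
  obtain ⟨p1, p2, p3, p4⟩ := hp
  have hc : ({s(u, w), s(v, z)} : Finset (Sym2 (Fin n))) ⊆ G ∧
      Disjoint ({s(u, z), s(v, w)} : Finset (Sym2 (Fin n))) G := by
    constructor
    · intro e he
      simp only [Finset.mem_insert, Finset.mem_singleton] at he
      rcases he with rfl | rfl <;> assumption
    · rw [Finset.disjoint_left]
      intro e he
      simp only [Finset.mem_insert, Finset.mem_singleton] at he
      rcases he with rfl | rfl <;> assumption
  unfold applyMove
  rw [if_pos hc]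
  ext e
  rw [hm]
  simp only [cyc, Finset.mem_union, Finset.mem_sdiff, Finset.mem_insert, Finset.mem_singleton]
  constructor
  · rintro (⟨h1, h2⟩ | h1)
    · left
      refine ⟨h1, ?_⟩
      rintro (h3 | h3 | h3 | h3)
      · exact h2 (Or.inl h3)
      · exact h2 (Or.inr h3)
      · exact p3 (h3 ▸ h1)
      · exact p4 (h3 ▸ h1)
    · right
      rcases h1 with h1 | h1
      · subst h1; exact ⟨Or.inr (Or.inr (Or.inl rfl)), p3⟩
      · subst h1; exact ⟨Or.inr (Or.inr (Or.inr rfl)), p4⟩
  · rintro (⟨h1, h2⟩ | ⟨h1, h2⟩)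
    · left
      exact ⟨h1, fun h3 => h2 (Or.elim h3 Or.inl (fun h4 => Or.inr (Or.inl h4)))⟩
    · rcases h1 with h1 | h1 | h1 | h1
      · subst h1; exact absurd p1 h2
      · subst h1; exact absurd p2 h2
      · exact Or.inr (Or.inl h1)
      · exact Or.inr (Or.inr h1)

/-- The move associated with a tuple. -/
def tupleMove (x : Fin n × Fin n × Fin n × Fin n) :
    Finset (Fin n) × Finset (Sym2 (Fin n)) × Finset (Sym2 (Fin n)) :=
  ({x.1, x.2.1, x.2.2.1, x.2.2.2}, {s(x.1, x.2.2.1), s(x.2.1, x.2.2.2)},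
    {s(x.1, x.2.2.2), s(x.2.1, x.2.2.1)})

lemma tupleMove_mem {x : Fin n × Fin n × Fin n × Fin n}
    (h : Distinct4 x.1 x.2.1 x.2.2.1 x.2.2.2) : tupleMove x ∈ moves n := by
  classical
  obtain ⟨u, v, w, z⟩ := x
  simp only at h
  obtain ⟨h1, h2, h3, h4, h5, h6⟩ := id h
  simp only [moves, tupleMove, Finset.mem_filter, Finset.mem_univ, true_and]
  refine ⟨?_, ?_, ?_, ?_⟩
  · rw [Finset.card_insert_of_notMem, Finset.card_insert_of_notMem, Finset.card_pair h6]
    · simp [h4, h5]
    · simp [h1, h2, h3]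
  · refine isPM_pair (x := u) (y := w) (p := v) (q := z) ⟨h2, h1, h3, h4.symm, h6, h5⟩ ?_
    ext a; simp only [Finset.mem_insert, Finset.mem_singleton]; tauto
  · refine isPM_pair (x := u) (y := z) (p := v) (q := w) ⟨h3, h1, h2, h5.symm, h6.symm, h4⟩ ?_
    ext a; simp only [Finset.mem_insert, Finset.mem_singleton]; tauto
  · have := pair_ne_of_distinct (a := u) (b := w) (c := z) (d := v)
      ⟨h2, h3, h1, h6, h4.symm, h5.symm⟩
    rw [Sym2.eq_swap (a := z) (b := v), Sym2.eq_swap (a := w) (b := v)] at this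
    exact this

lemma tupleMove_inj {x x' : Fin n × Fin n × Fin n × Fin n}
    (h : Distinct4 x.1 x.2.1 x.2.2.1 x.2.2.2) (h' : Distinct4 x'.1 x'.2.1 x'.2.2.1 x'.2.2.2)
    (he : tupleMove x = tupleMove x') (h1 : x.1 = x'.1) : x = x' := by
  obtain ⟨u, v, w, z⟩ := x
  obtain ⟨u', v', w', z'⟩ := x'
  simp only at h h' h1
  subst h1
  simp only [tupleMove, Prod.mk.injEq] at he
  obtain ⟨-, hF, hF'⟩ := he
  obtain ⟨a1, a2, a3, a4, a5, a6⟩ := h
  obtain ⟨b1, b2, b3, b4, b5, b6⟩ := h'
  have hw : w = w' := by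
    have : s(u, w) ∈ ({s(u, w'), s(v', z')} : Finset (Sym2 (Fin n))) := by
      rw [← hF]; simp
    simp only [Finset.mem_insert, Finset.mem_singleton] at this
    rcases this with h2 | h2
    · exact Sym2.congr_right.1 h2
    · rcases Sym2.eq_iff.1 h2 with h3 | h3
      · exact absurd h3.1 b1
      · exact absurd h3.1 b3
  have hz : z = z' := by
    have : s(u, z) ∈ ({s(u, z'), s(v', w')} : Finset (Sym2 (Fin n))) := by
      rw [← hF']; simp
    simp only [Finset.mem_insert, Finset.mem_singleton] at this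
    rcases this with h2 | h2
    · exact Sym2.congr_right.1 h2
    · rcases Sym2.eq_iff.1 h2 with h3 | h3
      · exact absurd h3.1 b1
      · exact absurd h3.1 b2
  subst hw hz
  have hv : v = v' := by
    have : s(v, z) ∈ ({s(u, w), s(v', z)} : Finset (Sym2 (Fin n))) := by
      rw [← hF]; simp
    simp only [Finset.mem_insert, Finset.mem_singleton] at this
    rcases this with h2 | h2
    · rcases Sym2.eq_iff.1 h2 with h3 | h3
      · exact absurd h3.1.symm a1
      · exact absurd h3.1 a4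
    · exact Sym2.congr_left.1 h2
  subst hv
  rfl

/-- The tuples that can switch at `G`. -/
noncomputable def tuples (d : Fin n → ℕ) (G : State d) :
    Finset (Fin n × Fin n × Fin n × Fin n) :=
  univ.filter fun x => Distinct4 x.1 x.2.1 x.2.2.1 x.2.2.2 ∧ Pat x.1 x.2.1 x.2.2.1 x.2.2.2 G.1

lemma sum4_eq (d : Fin n → ℕ) (f : State d → ℝ) :
    sum4 (fun u v w z => Dsw u v w z f)
      = ∑ G : State d, ∑ x ∈ tuples d G, (f G - f (tau x.1 x.2.1 x.2.2.1 x.2.2.2 G)) ^ 2 := by
  have h1 : ∀ u v w z : Fin n, (if Distinct4 u v w z then Dsw u v w z f else 0)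
      = ∑ G : State d, if Distinct4 u v w z ∧ Pat u v w z G.1
          then (f G - f (tau u v w z G)) ^ 2 else 0 := by
    intro u v w z
    by_cases h : Distinct4 u v w z <;> simp [h, Dsw]
  unfold sum4
  simp_rw [h1]
  unfold tuples
  simp only [Finset.sum_filter]
  conv_rhs => rw [Finset.sum_comm]
  simp only [Fintype.sum_prod_type]

lemma tuples_fiber_le (d : Fin n → ℕ) (G H : State d) :
    ((tuples d G).filter fun x => tau x.1 x.2.1 x.2.2.1 x.2.2.2 G = H).card ≤ 4 * aCount d G H := by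
  classical
  unfold aCount
  refine Finset.card_le_mul_card_image_of_maps_to (f := tupleMove) ?_ 4 ?_
  · intro x hx
    simp only [tuples, Finset.mem_filter, Finset.mem_univ, true_and] at hx
    obtain ⟨⟨hd, hp⟩, hH⟩ := hx
    simp only [Finset.mem_filter]
    refine ⟨tupleMove_mem hd, ?_⟩
    have h2 := applyMove_eq_swp hp
    simp only [tupleMove]
    rw [h2, ← hH]
    simp [tau, hd]
  · intro t ht
    simp only [Finset.mem_filter] at ht
    have hS : t.1.card = 4 := by
      have := ht.1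
      simp only [moves, Finset.mem_filter, Finset.mem_univ, true_and] at this
      exact this.1
    rw [← hS]
    refine Finset.card_le_card_of_injOn (fun x => x.1) ?_ ?_
    · intro x hx
      simp only [Finset.mem_coe, Finset.mem_filter, tuples, Finset.mem_univ, true_and] at hx
      obtain ⟨⟨⟨hd, -⟩, -⟩, hm⟩ := hx
      simp only [Finset.mem_coe]
      rw [← hm]
      simp [tupleMove]
    · intro x hx x' hx' h1
      simp only [Finset.mem_coe, Finset.mem_filter, tuples, Finset.mem_univ, true_and] at hx hx'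
      exact tupleMove_inj hx.1.1.1 hx'.1.1.1 (hx.2.trans hx'.2.symm) h1

/-- The Dirichlet comparison. -/
lemma dirichlet_comparison (d : Fin n → ℕ) (f : State d → ℝ) :
    sum4 (fun u v w z => Dsw u v w z f)
      ≤ 4 * ∑ G : State d, ∑ H : State d, (aCount d G H : ℝ) * (f G - f H) ^ 2 := by
  rw [sum4_eq, Finset.mul_sum]
  refine Finset.sum_le_sum fun G _ => ?_
  rw [Finset.mul_sum,
    ← Finset.sum_fiberwise (tuples d G) (fun x => tau x.1 x.2.1 x.2.2.1 x.2.2.2 G)]
  refine Finset.sum_le_sum fun H _ => ?_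
  have h1 : ∑ x ∈ (tuples d G).filter (fun x => tau x.1 x.2.1 x.2.2.1 x.2.2.2 G = H),
      (f G - f (tau x.1 x.2.1 x.2.2.1 x.2.2.2 G)) ^ 2
      = (((tuples d G).filter (fun x => tau x.1 x.2.1 x.2.2.1 x.2.2.2 G = H)).card : ℝ)
        * (f G - f H) ^ 2 := by
    rw [← nsmul_eq_mul, ← Finset.sum_const]
    refine Finset.sum_congr rfl fun x hx => ?_
    rw [(Finset.mem_filter.1 hx).2]
  rw [h1, ← mul_assoc]
  refine mul_le_mul_of_nonneg_right ?_ (sq_nonneg _)
  exact_mod_cast tuples_fiber_le d G H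

/-! ### Numerics -/

lemma card_state_le (hn : 4 ≤ n) (d : Fin n → ℕ) :
    (Fintype.card (State d) : ℝ) ≤ 2 ^ (n ^ 2) := by
  have h1 : Fintype.card (State d) ≤ 2 ^ (n ^ 2) := by
    rw [Fintype.card_coe]
    calc (Omega d).card ≤ (univ : Finset (Finset (Sym2 (Fin n)))).card :=
          Finset.card_le_card (Finset.subset_univ _)
      _ = 2 ^ (Fintype.card (Sym2 (Fin n))) := by
          rw [Finset.card_univ, Fintype.card_finset]
      _ ≤ 2 ^ (n ^ 2) := by
          refine Nat.pow_le_pow_right (by norm_num) ?_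
          rw [Sym2.card, Fintype.card_fin, Nat.choose_two_right]
          have : (n + 1) * (n + 1 - 1) ≤ 2 * n ^ 2 := by
            simp only [Nat.add_sub_cancel]
            nlinarith
          exact Nat.div_le_of_le_mul this
  exact_mod_cast h1

lemma numerics (hn : 4 ≤ n) {N : ℝ} (hN : N ≤ 2 ^ (n ^ 2)) {t : ℕ} (ht : n ^ 6 ≤ t) :
    N * (1 - 1 / (6 * (n.choose 4 : ℝ))) ^ t ≤ 1 / 4 := by
  have hc := choose_pos_of hn
  set g : ℝ := 1 / (6 * (n.choose 4 : ℝ)) with hg
  have hn0 : (0 : ℝ) < n := by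
    have : 0 < n := by omega
    exact_mod_cast this
  have hc1 : (1 : ℝ) ≤ (n.choose 4 : ℝ) := by
    exact_mod_cast Nat.choose_pos hn
  have hg0 : 0 < g := by positivity
  have hg1 : g ≤ 1 := by
    rw [hg, div_le_one (by positivity)]
    linarith
  have h24 : (4 : ℝ) * (6 * (n.choose 4 : ℝ)) ≤ (n : ℝ) ^ 4 := by
    have h1 : n.descFactorial 4 ≤ n ^ 4 := Nat.descFactorial_le_pow n 4
    rw [Nat.descFactorial_eq_factorial_mul_choose] at h1
    have h2 : ((Nat.factorial 4 * n.choose 4 : ℕ) : ℝ) ≤ ((n ^ 4 : ℕ) : ℝ) := by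
      exact_mod_cast h1
    push_cast at h2
    have h3 : ((Nat.factorial 4 : ℕ) : ℝ) = 24 := by norm_num [Nat.factorial]
    rw [h3] at h2
    linarith
  have hgt : 4 * (n : ℝ) ^ 2 ≤ g * t := by
    have ht' : (n : ℝ) ^ 6 ≤ t := by exact_mod_cast ht
    have h6pos : (0 : ℝ) < 6 * (n.choose 4 : ℝ) := by positivity
    rw [hg, div_mul_eq_mul_div, one_mul, le_div_iff₀ h6pos]
    have h5 : 0 ≤ (n : ℝ) ^ 2 := by positivity
    calc 4 * (n : ℝ) ^ 2 * (6 * (n.choose 4 : ℝ))
        = (n : ℝ) ^ 2 * (4 * (6 * (n.choose 4 : ℝ))) := by ring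
      _ ≤ (n : ℝ) ^ 2 * (n : ℝ) ^ 4 := mul_le_mul_of_nonneg_left h24 h5
      _ = (n : ℝ) ^ 6 := by ring
      _ ≤ t := ht'
  have hpow : (1 - g) ^ t ≤ Real.exp (-(4 * (n : ℝ) ^ 2)) := by
    have h1 : 1 - g ≤ Real.exp (-g) := by
      have := Real.add_one_le_exp (-g)
      linarith
    have h2 : 0 ≤ 1 - g := by linarith
    calc (1 - g) ^ t ≤ Real.exp (-g) ^ t := pow_le_pow_left₀ h2 h1 t
      _ = Real.exp (-(g * t)) := by
          rw [← Real.exp_nat_mul]
          congr 1
          ring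
      _ ≤ Real.exp (-(4 * (n : ℝ) ^ 2)) := by
          apply Real.exp_le_exp.2
          linarith
  have hN2 : (2 : ℝ) ^ (n ^ 2) ≤ Real.exp ((n : ℝ) ^ 2) := by
    have h1 : (2 : ℝ) ≤ Real.exp 1 := by
      have := Real.add_one_le_exp (1 : ℝ)
      linarith
    calc (2 : ℝ) ^ (n ^ 2) ≤ Real.exp 1 ^ (n ^ 2) := pow_le_pow_left₀ (by norm_num) h1 _
      _ = Real.exp ((n : ℝ) ^ 2) := by
          rw [← Real.exp_nat_mul]
          congr 1
          push_cast
          ring
  have hpow0 : 0 ≤ (1 - g) ^ t := pow_nonneg (by linarith) t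
  have hn2 : (1 : ℝ) ≤ (n : ℝ) ^ 2 := by
    have : (4 : ℝ) ≤ n := by exact_mod_cast hn
    nlinarith
  calc N * (1 - g) ^ t ≤ Real.exp ((n : ℝ) ^ 2) * (1 - g) ^ t :=
        mul_le_mul_of_nonneg_right (hN.trans hN2) hpow0
    _ ≤ Real.exp ((n : ℝ) ^ 2) * Real.exp (-(4 * (n : ℝ) ^ 2)) :=
        mul_le_mul_of_nonneg_left hpow (Real.exp_pos _).le
    _ = Real.exp (-(3 * (n : ℝ) ^ 2)) := by
        rw [← Real.exp_add]
        congr 1
        ring
    _ ≤ Real.exp (-2) := Real.exp_le_exp.2 (by linarith)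
    _ ≤ 1 / 4 := by
        have h1 : (2 : ℝ) ≤ Real.exp 1 := by
          have := Real.add_one_le_exp (1 : ℝ)
          linarith
        have h2 : Real.exp 2 = Real.exp 1 * Real.exp 1 := by
          rw [← Real.exp_add]; norm_num
        have h3 : (4 : ℝ) ≤ Real.exp 2 := by
          rw [h2]; nlinarith
        rw [Real.exp_neg, one_div]
        exact inv_anti₀ (by norm_num) h3

open Classical in
/-- From the Poincare inequality to the mixing time bound: `(a)` the moves are counted, `(b)` the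
kernel is the lazy version of a symmetric stochastic matrix, `(c)` the Dirichlet form of the chain
dominates the sum over tuples, `(d)` the bound on the distance to the uniform law. -/
theorem final_of_poincare (hn : 4 ≤ n) (d : Fin n → ℕ) (hne : (Omega d).Nonempty)
    (hP : ∀ f : State d → ℝ,
      2 * ∑ G, (f G - (∑ H, f H) / (Fintype.card (State d) : ℝ)) ^ 2
        ≤ (1 / 8) * sum4 (fun u v w z => Dsw u v w z f)) :
    (∀ t, n ^ 6 ≤ t → ∀ G : State d, tv ((kernel d ^ t) G) (unif d) ≤ 1 / 4) ∧ tmix d ≤ n ^ 6 := by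
  have hc := choose_pos_of hn
  have hc1 : (1 : ℝ) ≤ (n.choose 4 : ℝ) := by
    exact_mod_cast Nat.choose_pos hn
  have hQ := qMat_symStoch hn d
  set g : ℝ := 1 / (6 * (n.choose 4 : ℝ)) with hg
  have hg1 : g ≤ 1 := by
    rw [hg, div_le_one (by positivity)]
    linarith
  have hPo : ∀ f : State d → ℝ, ∑ G, f G = 0 →
      g * ∑ G, f G ^ 2 ≤ (1 / 4) * ∑ G, ∑ H, qMat d G H * (f G - f H) ^ 2 := by
    intro f hf
    have h1 := hP f
    rw [hf] at h1
    simp only [zero_div, sub_zero] at h1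
    have h2 := dirichlet_comparison d f
    have h3 : ∑ G, ∑ H, qMat d G H * (f G - f H) ^ 2
        = g * ∑ G : State d, ∑ H : State d, (aCount d G H : ℝ) * (f G - f H) ^ 2 := by
      rw [Finset.mul_sum]
      refine Finset.sum_congr rfl fun G _ => ?_
      rw [Finset.mul_sum]
      refine Finset.sum_congr rfl fun H _ => ?_
      simp only [qMat, hg]
      ring
    rw [h3]
    have hg0 : 0 ≤ g := by positivity
    have h4 : ∑ G, f G ^ 2 ≤ (1 / 4) * ∑ G : State d, ∑ H : State d,
        (aCount d G H : ℝ) * (f G - f H) ^ 2 := by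
      linarith
    calc g * ∑ G, f G ^ 2 ≤ g * ((1 / 4) * ∑ G : State d, ∑ H : State d,
        (aCount d G H : ℝ) * (f G - f H) ^ 2) := mul_le_mul_of_nonneg_left h4 hg0
      _ = _ := by ring
  have main : ∀ t, n ^ 6 ≤ t → ∀ G : State d, tv ((kernel d ^ t) G) (unif d) ≤ 1 / 4 := by
    intro t ht G
    have h1 := row_l1_sq_le hQ hg1 hPo t G
    have h2 := numerics hn (card_state_le hn d) ht
    have h3 := h1.trans h2
    rw [← kernel_eq_lazy] at h3
    unfold tv unif
    set S : ℝ := ∑ H, |(kernel d ^ t) G H - 1 / (Fintype.card (State d) : ℝ)| with hS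
    have h4 : 0 ≤ S := Finset.sum_nonneg fun _ _ => abs_nonneg _
    have h5 : S ≤ 1 / 2 := by nlinarith
    linarith
  refine ⟨main, ?_⟩
  unfold tmix
  exact Nat.sInf_le (main (n ^ 6) le_rfl)

end Vale.Agent.Lib.P335
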