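import Vale.Agent.Lib.P335.Graph
set_option linter.unusedSectionVars false

/-!
Any two graphs with the same degrees are joined by switches.
-/

namespace Vale.Agent.Lib.P335

open Finset

variable {V : Type*} [Fintype V] [DecidableEq V]

lemma card_cyc {u v w z : V} (hd : Distinct4 u v w z) : (cyc u v w z).card = 4 := by
  obtain ⟨h1, h2, h3, h4, h5, h6⟩ := cyc_ne hd
  unfold cyc
  rw [card_insert_of_notMem, card_insert_of_notMem, card_insert_of_notMem, card_singleton]
  · simpa using h6
  · simp [h4, h5]
  · simp [h1, h2, h3]

/-- A switch on a cycle at least three of whose four edges lie in the symmetric difference lowers the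
size of the symmetric difference. -/
lemma symmDiff_swp_card_lt {u v w z : V} (hd : Distinct4 u v w z) {G H : Finset (Sym2 V)}
    (hp : Pat u v w z G) (e : Sym2 V)
    (h : ∀ e' ∈ cyc u v w z, e' ≠ e → e' ∈ symmDiff G H) :
    (symmDiff (swp u v w z G) H).card < (symmDiff G H).card := by
  have hs : swp u v w z G = symmDiff G (cyc u v w z) := by simp [swp, hp]
  rw [hs]
  have h4 := card_cyc hd
  generalize hC : cyc u v w z = C at *
  have e1 : symmDiff (symmDiff G C) H = symmDiff (symmDiff G H) C := by
    ext a
    simp only [mem_symmDiff]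
    tauto
  rw [e1]
  generalize hA : symmDiff G H = A at *
  have e2 : (symmDiff A C).card = (A \ C).card + (C \ A).card := by
    have : symmDiff A C = (A \ C) ∪ (C \ A) := rfl
    rw [this, card_union_of_disjoint]
    rw [disjoint_left]
    intro a ha hb
    simp only [mem_sdiff] at ha hb
    exact ha.2 hb.1
  have e3 : (A \ C).card + (A ∩ C).card = A.card := card_sdiff_add_card_inter A C
  have e4 : (C \ A).card + (C ∩ A).card = C.card := card_sdiff_add_card_inter C A
  have e5 : (C \ A).card ≤ 1 := by
    have : C \ A ⊆ {e} := by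
      intro a ha
      simp only [mem_sdiff] at ha
      by_contra hne
      exact ha.2 (h a ha.1 (by simpa using hne))
    simpa using card_le_card this
  have e6 : (C ∩ A) = (A ∩ C) := inter_comm _ _
  rw [e6] at e4
  omega

section Counting

variable (G H : Finset (Sym2 V))

/-- The neighbours of `x` along edges of `G` that are not edges of `H`. -/
def redN (x : V) : Finset V := univ.filter fun y => s(x, y) ∈ G ∧ s(x, y) ∉ H

/-- The neighbours of `x` along edges common to `G` and `H`. -/
def comN (x : V) : Finset V := univ.filter fun y => s(x, y) ∈ G ∧ s(x, y) ∈ H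

lemma deg_eq_red_add_com (x : V) : deg G x = (redN G H x).card + (comN G H x).card := by
  unfold deg redN comN
  rw [← card_union_of_disjoint]
  · congr 1
    ext y
    simp only [mem_filter, mem_univ, true_and, mem_union]
    tauto
  · rw [disjoint_left]
    intro y hy hy'
    simp only [mem_filter, mem_univ, true_and] at hy hy'
    exact hy.2 hy'.2

lemma comN_comm (x : V) : comN G H x = comN H G x := by
  ext y
  simp only [comN, mem_filter, mem_univ, true_and]
  tauto

lemma card_redN_eq {G H : Finset (Sym2 V)} (hdeg : ∀ x, deg G x = deg H x) (x : V) :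
    (redN G H x).card = (redN H G x).card := by
  have h1 := deg_eq_red_add_com G H x
  have h2 := deg_eq_red_add_com H G x
  rw [comN_comm H G x] at h2
  have := hdeg x
  omega

end Counting

section Core

variable {G H : Finset (Sym2 V)}

/-- A switch lowering the size of the symmetric difference of `G` and `H`, given an edge of `G` that
is not in `H`: the switch happens in `G` or in `H`. -/
lemma exists_switch (hG : ∀ e ∈ G, ¬ e.IsDiag) (hH : ∀ e ∈ H, ¬ e.IsDiag)
    (hdeg : ∀ x, deg G x = deg H x) {p c : V} (hpc : s(p, c) ∈ G) (hpc' : s(p, c) ∉ H) :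
    ∃ u v w z, Distinct4 u v w z ∧ ∃ e : Sym2 V,
      (∀ e' ∈ cyc u v w z, e' ≠ e → e' ∈ symmDiff G H) ∧
      (Pat u v w z G ∨ Pat u v w z H) := by
  have noloopG : ∀ a b : V, s(a, b) ∈ G → a ≠ b := by
    intro a b hab hEq
    subst hEq
    exact hG _ hab (by simp)
  have noloopH : ∀ a b : V, s(a, b) ∈ H → a ≠ b := by
    intro a b hab hEq
    subst hEq
    exact hH _ hab (by simp)
  have memA : ∀ a : Sym2 V, (a ∈ G ∧ a ∉ H) ∨ (a ∈ H ∧ a ∉ G) → a ∈ symmDiff G H := by
    intro a ha
    simpa [mem_symmDiff] using ha
  have hne_pc : p ≠ c := noloopG _ _ hpc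
  -- a blue edge at `c`
  have hcR : p ∈ redN G H c := by
    simp only [redN, mem_filter, mem_univ, true_and, Sym2.eq_swap (a := c) (b := p)]
    exact ⟨hpc, hpc'⟩
  have hcB : 0 < (redN H G c).card := by
    rw [← card_redN_eq hdeg c]
    exact card_pos.2 ⟨p, hcR⟩
  obtain ⟨r, hr⟩ := card_pos.1 hcB
  have hrc : s(r, c) ∈ H ∧ s(r, c) ∉ G := by
    simp only [redN, mem_filter, mem_univ, true_and, Sym2.eq_swap (a := c) (b := r)] at hr
    exact hr
  have hne_rc : r ≠ c := noloopH _ _ hrc.1
  have hne_pr : p ≠ r := by
    rintro rfl
    exact hrc.2 hpc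
  -- the cycle through `p, c, r, x`, for a red edge `r x`, with `x ≠ p`
  by_cases hx : ∃ x, x ∈ redN G H r ∧ x ≠ p ∧ (s(p, x) ∉ G ∨ s(p, x) ∈ H)
  · obtain ⟨x, hxr, hxp, hx3⟩ := hx
    have hrx : s(r, x) ∈ G ∧ s(r, x) ∉ H := by
      simpa [redN] using hxr
    have hne_rx : r ≠ x := noloopG _ _ hrx.1
    have hne_cx : c ≠ x := by
      rintro rfl
      exact hrc.2 hrx.1
    by_cases h1 : s(p, x) ∉ G
    · -- switch in `G`: remove `p c`, `r x`, add `p x`, `r c`
      refine ⟨p, r, c, x, ⟨hne_pr, hne_pc, hxp.symm, hne_rc, hne_rx, hne_cx⟩, s(p, x), ?_,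
        Or.inl ⟨hpc, hrx.1, h1, hrc.2⟩⟩
      intro e' he' hne
      simp only [cyc, mem_insert, mem_singleton] at he'
      rcases he' with rfl | rfl | rfl | rfl
      · exact memA _ (Or.inl ⟨hpc, hpc'⟩)
      · exact memA _ (Or.inl hrx)
      · exact absurd rfl hne
      · exact memA _ (Or.inr hrc)
    · have h1' : s(p, x) ∈ G := not_not.1 h1
      have h2 : s(p, x) ∈ H := hx3.resolve_left h1
      -- switch in `H`: remove `r c`, `p x`, add `r x`, `p c`
      refine ⟨r, p, c, x, ⟨hne_pr.symm, hne_rc, hne_rx, hne_pc, hxp.symm, hne_cx⟩, s(p, x), ?_,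
        Or.inr ⟨hrc.1, h2, hrx.2, hpc'⟩⟩
      intro e' he' hne
      simp only [cyc, mem_insert, mem_singleton] at he'
      rcases he' with rfl | rfl | rfl | rfl
      · exact memA _ (Or.inr hrc)
      · exact absurd rfl hne
      · exact memA _ (Or.inl hrx)
      · exact memA _ (Or.inl ⟨hpc, hpc'⟩)
  · -- every red neighbour of `r` other than `p` is a red neighbour of `p`
    have hsub : ∀ x, x ∈ redN G H r → x ≠ p → x ∈ redN G H p := by
      intro x hxr hxp
      by_contra hcon
      refine hx ⟨x, hxr, hxp, ?_⟩
      by_contra hc2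
      simp only [not_or, not_not] at hc2
      exact hcon (by simp [redN, hc2.1, hc2.2])
    -- counting: fewer red edges at `r` than at `p`
    have hcount : (redN G H r).card < (redN G H p).card := by
      have hcp : c ∈ redN G H p := by simp [redN, hpc, hpc']
      have hcr : c ∉ redN G H r := by
        simp only [redN, mem_filter, mem_univ, true_and, not_and]
        intro h
        exact absurd h hrc.2
      by_cases hpr : p ∈ redN G H r
      · -- then `r` is also a red neighbour of `p`
        have hrp : r ∈ redN G H p := by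
          simp only [redN, mem_filter, mem_univ, true_and, Sym2.eq_swap (a := r) (b := p)] at hpr
          simp only [redN, mem_filter, mem_univ, true_and]
          exact hpr
        have hle : ((redN G H r).erase p).card ≤ (((redN G H p).erase c).erase r).card := by
          apply card_le_card
          intro x hxx
          simp only [mem_erase] at hxx ⊢
          refine ⟨?_, ?_, hsub x hxx.2 hxx.1⟩
          · rintro rfl
            have := noloopG _ _ (by simpa [redN] using hxx.2 : s(x, x) ∈ G ∧ s(x, x) ∉ H).1
            exact this rfl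
          · rintro rfl
            exact hcr hxx.2
        rw [card_erase_of_mem hpr, card_erase_of_mem, card_erase_of_mem hcp] at hle
        · have : 0 < (redN G H r).card := card_pos.2 ⟨p, hpr⟩
          have : 2 ≤ (redN G H p).card := by
            have : 1 < (redN G H p).card := one_lt_card.2 ⟨c, hcp, r, hrp, hne_rc.symm⟩
            omega
          omega
        · simp only [mem_erase]
          exact ⟨hne_rc, hrp⟩
      · have hle : (redN G H r).card ≤ ((redN G H p).erase c).card := by
          apply card_le_card
          intro x hxx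
          simp only [mem_erase]
          refine ⟨?_, hsub x hxx ?_⟩
          · rintro rfl
            exact hcr hxx
          · rintro rfl
            exact hpr hxx
        rw [card_erase_of_mem hcp] at hle
        have : 0 < (redN G H p).card := card_pos.2 ⟨c, hcp⟩
        omega
    -- so more blue edges at `p` than at `r`
    have hcount2 : (redN H G r).card < (redN H G p).card := by
      rw [← card_redN_eq hdeg r, ← card_redN_eq hdeg p]
      exact hcount
    have hcrB : c ∈ redN H G r := by simp [redN, hrc.1, hrc.2]
    have hcpB : c ∉ redN H G p := by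
      simp only [redN, mem_filter, mem_univ, true_and, not_and]
      intro h
      exact absurd h hpc'
    -- a blue neighbour `x` of `p` which is not a blue neighbour of `r`, with `x ≠ r`
    have hex : ∃ x, x ∈ redN H G p ∧ x ∉ redN H G r ∧ x ≠ r := by
      by_contra hcon
      push Not at hcon
      have hle : ((redN H G p).erase r).card ≤ ((redN H G r).erase c).card := by
        apply card_le_card
        intro x hxx
        simp only [mem_erase] at hxx ⊢
        refine ⟨?_, ?_⟩
        · rintro rfl
          exact hcpB hxx.2
        · by_contra hnot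
          exact hxx.1 (hcon x hxx.2 hnot)
      rw [card_erase_of_mem hcrB] at hle
      have h3 : (redN H G p).card - 1 ≤ ((redN H G p).erase r).card := pred_card_le_card_erase
      have : 0 < (redN H G r).card := card_pos.2 ⟨c, hcrB⟩
      omega
    obtain ⟨x, hx1, hx2, hx3⟩ := hex
    have hpx : s(p, x) ∈ H ∧ s(p, x) ∉ G := by simpa [redN] using hx1
    have hne_px : p ≠ x := noloopH _ _ hpx.1
    have hne_cx : c ≠ x := by
      rintro rfl
      exact hcpB hx1
    by_cases h1 : s(r, x) ∉ H
    · -- switch in `H`: remove `r c`, `p x`, add `r x`, `p c`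
      refine ⟨r, p, c, x, ⟨hne_pr.symm, hne_rc, hx3.symm, hne_pc, hne_px, hne_cx⟩, s(r, x), ?_,
        Or.inr ⟨hrc.1, hpx.1, h1, hpc'⟩⟩
      intro e' he' hne
      simp only [cyc, mem_insert, mem_singleton] at he'
      rcases he' with rfl | rfl | rfl | rfl
      · exact memA _ (Or.inr hrc)
      · exact memA _ (Or.inr hpx)
      · exact absurd rfl hne
      · exact memA _ (Or.inl ⟨hpc, hpc'⟩)
    · have h1' : s(r, x) ∈ H := not_not.1 h1
      have h2 : s(r, x) ∈ G := by
        by_contra hc2
        exact hx2 (by simp [redN, h1', hc2])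
      -- switch in `G`: remove `p c`, `r x`, add `p x`, `r c`
      refine ⟨p, r, c, x, ⟨hne_pr, hne_pc, hne_px, hne_rc, hx3.symm, hne_cx⟩, s(r, x), ?_,
        Or.inl ⟨hpc, h2, hpx.2, hrc.2⟩⟩
      intro e' he' hne
      simp only [cyc, mem_insert, mem_singleton] at he'
      rcases he' with rfl | rfl | rfl | rfl
      · exact memA _ (Or.inl ⟨hpc, hpc'⟩)
      · exact absurd rfl hne
      · exact memA _ (Or.inr hpx)
      · exact memA _ (Or.inr hrc)

/-- Two distinct graphs with the same degrees: some edge of `G` is not in `H`. -/
lemma exists_red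
    (hdeg : ∀ x, deg G x = deg H x) (hne : G ≠ H) :
    ∃ p c : V, s(p, c) ∈ G ∧ s(p, c) ∉ H := by
  by_cases hsub : G ⊆ H
  · have hss : G ⊂ H := lt_of_le_of_ne hsub hne
    obtain ⟨e, heH, heG⟩ := exists_of_ssubset hss
    induction e using Sym2.ind with
    | _ a b =>
      have hblue : 0 < (redN H G a).card := card_pos.2 ⟨b, by simp [redN, heH, heG]⟩
      rw [← card_redN_eq hdeg a] at hblue
      obtain ⟨c, hc⟩ := card_pos.1 hblue
      exact ⟨a, c, by simpa [redN] using hc⟩
  · obtain ⟨e, heG, heH⟩ := not_subset.1 hsub
    induction e using Sym2.ind with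
    | _ a b => exact ⟨a, b, heG, heH⟩

end Core

/-- Any two graphs with the same degree vector are joined by switches: a function on `State d`
invariant under every switch is constant. -/
theorem const_of_tau_invariant {d : V → ℕ} (f : State d → ℝ)
    (hf : ∀ u v w z (G : State d), Distinct4 u v w z → f (tau u v w z G) = f G) (G H : State d) :
    f G = f H := by
  have key : ∀ n : ℕ, ∀ G H : State d, (symmDiff G.1 H.1).card = n → f G = f H := by
    intro n
    induction n using Nat.strong_induction_on with
    | _ n ih =>
      intro G H hn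
      by_cases hEq : G = H
      · rw [hEq]
      have hGm := G.2
      have hHm := H.2
      simp only [Omega, mem_filter, mem_univ, true_and] at hGm hHm
      have hdeg : ∀ x, deg G.1 x = deg H.1 x := fun x => by rw [hGm.2 x, hHm.2 x]
      have hne : G.1 ≠ H.1 := fun h => hEq (Subtype.ext h)
      obtain ⟨p, c, h1, h2⟩ := exists_red hdeg hne
      obtain ⟨u, v, w, z, hd, e, hgood, hp⟩ := exists_switch hGm.1 hHm.1 hdeg h1 h2
      rcases hp with hp | hp
      · have hlt := symmDiff_swp_card_lt hd hp e hgood
        have hτ : (tau u v w z G).1 = swp u v w z G.1 := by simp [tau, hd]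
        have := ih _ (hn ▸ (by rw [hτ]; exact hlt) : (symmDiff (tau u v w z G).1 H.1).card < n)
          (tau u v w z G) H rfl
        rw [← this, hf u v w z G hd]
      · have hgood' : ∀ e' ∈ cyc u v w z, e' ≠ e → e' ∈ symmDiff H.1 G.1 := by
          intro e' he' hne'
          rw [symmDiff_comm]
          exact hgood e' he' hne'
        have hlt := symmDiff_swp_card_lt hd hp e hgood'
        have hτ : (tau u v w z H).1 = swp u v w z H.1 := by simp [tau, hd]
        have hcomm : (symmDiff H.1 G.1).card = n := by rw [symmDiff_comm]; exact hn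
        have := ih _ (hcomm ▸ (by rw [hτ]; exact hlt) : (symmDiff (tau u v w z H).1 G.1).card < n)
          (tau u v w z H) G rfl
        rw [← this, hf u v w z H hd]
  exact key _ G H rfl

end Vale.Agent.Lib.P335
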