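import Vale.Agent.Lib.P335.Commute
set_option linter.unusedSectionVars false
set_option linter.unusedVariables false
set_option linter.unusedSimpArgs false

/-!
The per-tuple inequality for two disjoint pairs.
-/

namespace Vale.Agent.Lib.P335

open Finset

variable {V : Type*} [Fintype V] [DecidableEq V] {u v w z : V} {d : V → ℕ}

/-- A graph contains exactly one perfect matching of the 4-cycle `u w v z`. -/
def Sep (u v w z : V) (G : State d) : Prop := Pat u v w z G.1 ∨ Pat u v z w G.1

instance (u v w z : V) : DecidablePred (Sep u v w z : State d → Prop) := by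
  intro G; unfold Sep; infer_instance

/-- The correction term of the pair `u, v` for the switch on `w, z`. -/
noncomputable def Zq (u v w z : V) (f : State d → ℝ) : ℝ := ZZ (xi u v) (Sep u v w z) f

lemma pat_iff_ed {G : Finset (Sym2 V)} :
    Pat u v w z G ↔ ed G u w = 1 ∧ ed G v z = 1 ∧ ed G u z = 0 ∧ ed G v w = 0 := by
  simp only [Pat, ed]
  constructor
  · rintro ⟨h1, h2, h3, h5⟩
    simp [h1, h2, h3, h5]
  · rintro ⟨h1, h2, h3, h5⟩
    refine ⟨?_, ?_, ?_, ?_⟩
    · by_contra h; simp [h] at h1
    · by_contra h; simp [h] at h2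
    · intro h; simp [h] at h3
    · intro h; simp [h] at h5

lemma cyc_sub_cell {e : Sym2 V} (h : e ∈ cyc u v w z) : e ∈ cellE u v w z := by
  simp only [cyc, mem_insert, mem_singleton] at h
  rcases h with rfl | rfl | rfl | rfl
  · exact cell_of_left (Or.inl rfl) (Or.inl rfl)
  · exact cell_of_left (Or.inr rfl) (Or.inr rfl)
  · exact cell_of_left (Or.inl rfl) (Or.inr rfl)
  · exact cell_of_left (Or.inr rfl) (Or.inl rfl)

lemma pat_swap_pairs {G : Finset (Sym2 V)} : Pat w z u v G ↔ Pat u v w z G := by
  simp only [Pat, Sym2.eq_swap (a := w) (b := u), Sym2.eq_swap (a := z) (b := v),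
    Sym2.eq_swap (a := w) (b := v), Sym2.eq_swap (a := z) (b := u)]
  tauto

lemma pat_swap_pairs' {G : Finset (Sym2 V)} : Pat w z v u G ↔ Pat u v z w G := by
  simp only [Pat, Sym2.eq_swap (a := w) (b := u), Sym2.eq_swap (a := z) (b := v),
    Sym2.eq_swap (a := w) (b := v), Sym2.eq_swap (a := z) (b := u)]
  tauto

lemma cyc_symm : cyc w z u v = cyc u v w z := by
  ext e
  simp only [cyc, mem_insert, mem_singleton, Sym2.eq_swap (a := w) (b := u),
    Sym2.eq_swap (a := z) (b := v), Sym2.eq_swap (a := w) (b := v), Sym2.eq_swap (a := z) (b := u)]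
  tauto

lemma swp_symm (G : Finset (Sym2 V)) : swp w z u v G = swp u v w z G := by
  unfold swp
  rw [cyc_symm]
  simp only [pat_swap_pairs (u := u) (v := v) (w := w) (z := z),
    pat_swap_pairs' (u := u) (v := v) (w := w) (z := z)]

lemma tau_symm (h4 : Distinct4 u v w z) (G : State d) : tau w z u v G = tau u v w z G := by
  apply Subtype.ext
  simp [tau, h4, h4.symm, swp_symm]

lemma sep_symm (G : State d) : Sep w z u v G ↔ Sep u v w z G := by
  simp only [Sep, pat_swap_pairs (u := u) (v := v) (w := w) (z := z),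
    pat_swap_pairs' (u := u) (v := v) (w := w) (z := z)]

lemma blkKey_swp (h4 : Distinct4 u v w z) (G : Finset (Sym2 V)) :
    blkKey u v (swp u v w z G) = blkKey u v G := by
  have main : ∀ (w z : V), Distinct4 u v w z → Pat u v w z G →
      blkKey u v (swp u v w z G) = blkKey u v G := by
    intro w z h4 hp
    rw [blkKey_eq_iff]
    constructor
    · intro e he
      have h1 : e ∉ cyc u v w z := fun h => he (by
        rw [mem_stripe_others h4]; exact Or.inr (cyc_sub_cell h))
      rw [mem_swp_of_pat (Or.inl hp)]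
      simp [h1]
    · intro c hc1 hc2
      rw [ed_swp_pat h4 hp, ed_swp_pat h4 hp]
      obtain ⟨h1, h2, h3, h5, h6, h7⟩ := h4
      have e1 : s(u, c) ≠ s(v, z) := by
        intro h; rcases Sym2.eq_iff.1 h with h | h
        · exact h1 h.1
        · exact h3 h.1
      have e2 : s(u, c) ≠ s(v, w) := by
        intro h; rcases Sym2.eq_iff.1 h with h | h
        · exact h1 h.1
        · exact h2 h.1
      have e3 : s(v, c) ≠ s(u, w) := by
        intro h; rcases Sym2.eq_iff.1 h with h | h
        · exact h1 h.1.symm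
        · exact h5 h.1
      have e4 : s(v, c) ≠ s(u, z) := by
        intro h; rcases Sym2.eq_iff.1 h with h | h
        · exact h1 h.1.symm
        · exact h6 h.1
      have e5 : (s(u, c) = s(u, w)) ↔ c = w := by
        constructor
        · intro h; rcases Sym2.eq_iff.1 h with h | h
          · exact h.2
          · exact absurd h.1 h2
        · rintro rfl; rfl
      have e6 : (s(u, c) = s(u, z)) ↔ c = z := by
        constructor
        · intro h; rcases Sym2.eq_iff.1 h with h | h
          · exact h.2
          · exact absurd h.1 h3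
        · rintro rfl; rfl
      have e7 : (s(v, c) = s(v, z)) ↔ c = z := by
        constructor
        · intro h; rcases Sym2.eq_iff.1 h with h | h
          · exact h.2
          · exact absurd h.1 h6
        · rintro rfl; rfl
      have e8 : (s(v, c) = s(v, w)) ↔ c = w := by
        constructor
        · intro h; rcases Sym2.eq_iff.1 h with h | h
          · exact h.2
          · exact absurd h.1 h5
        · rintro rfl; rfl
      simp only [e1, e2, e3, e4, e5, e6, e7, e8, if_false]
      ring
  by_cases h1 : Pat u v w z G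
  · exact main w z h4 h1
  by_cases h2 : Pat u v z w G
  · rw [swp_swap_wz]; exact main z w h4.swap_wz h2
  · simp [swp, h1, h2]

lemma xi_tau (h4 : Distinct4 u v w z) (G : State d) : xi u v (tau u v w z G) = xi u v G := by
  show blkKey u v (tau u v w z G).1 = blkKey u v G.1
  simp only [tau, h4, dite_true]
  exact blkKey_swp h4 G.1

lemma xi_tau' (h4 : Distinct4 u v w z) (G : State d) : xi w z (tau u v w z G) = xi w z G := by
  rw [← tau_symm h4]
  exact xi_tau h4.symm G

lemma pat_inter {G : Finset (Sym2 V)} : Pat u v w z (G ∩ cellE u v w z) ↔ Pat u v w z G := by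
  have h1 : s(u, w) ∈ cellE u v w z := cell_of_left (Or.inl rfl) (Or.inl rfl)
  have h2 : s(v, z) ∈ cellE u v w z := cell_of_left (Or.inr rfl) (Or.inr rfl)
  have h3 : s(u, z) ∈ cellE u v w z := cell_of_left (Or.inl rfl) (Or.inr rfl)
  have h5 : s(v, w) ∈ cellE u v w z := cell_of_left (Or.inr rfl) (Or.inl rfl)
  simp only [Pat, mem_inter, h1, h2, h3, h5, and_true]

lemma cell_swap : cellE u v z w = cellE u v w z := by
  ext e
  induction e using Sym2.ind with
  | _ a b =>
    rw [mk_mem_cellE, mk_mem_cellE]
    tauto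

lemma pat_inter' {G : Finset (Sym2 V)} : Pat u v z w (G ∩ cellE u v w z) ↔ Pat u v z w G := by
  rw [← cell_swap]; exact pat_inter

lemma swp_inter (G : Finset (Sym2 V)) :
    swp u v w z G ∩ cellE u v w z = swp u v w z (G ∩ cellE u v w z) := by
  unfold swp
  by_cases h : Pat u v w z G ∨ Pat u v z w G
  · have h' : Pat u v w z (G ∩ cellE u v w z) ∨ Pat u v z w (G ∩ cellE u v w z) := by
      rwa [pat_inter, pat_inter']
    rw [if_pos h, if_pos h']
    ext e
    simp only [mem_inter, Finset.mem_symmDiff]
    have h2 : e ∈ cyc u v w z → e ∈ cellE u v w z := cyc_sub_cell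
    tauto
  · have h' : ¬ (Pat u v w z (G ∩ cellE u v w z) ∨ Pat u v z w (G ∩ cellE u v w z)) := by
      rwa [pat_inter, pat_inter']
    rw [if_neg h, if_neg h']

lemma cellsOf_tau (h4 : Distinct4 u v w z) (G : State d) :
    cellsOf u v w z (tau u v w z G) = swp u v w z (cellsOf u v w z G) := by
  simp only [cellsOf, tau, h4, dite_true]
  exact swp_inter G.1

lemma sep_of_tau (h4 : Distinct4 u v w z) (G : State d) (h : Sep u v w z G) :
    Sep u v w z (tau u v w z G) := by
  simp only [Sep, tau, h4, dite_true]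
  rcases h with h | h
  · exact Or.inr (pat_swp h4 h)
  · rw [swp_swap_wz]
    exact Or.inl (pat_swp h4.swap_wz h)

lemma sep_tau (h4 : Distinct4 u v w z) (G : State d) :
    Sep u v w z (tau u v w z G) ↔ Sep u v w z G := by
  constructor
  · intro h
    have := sep_of_tau h4 _ h
    rwa [tau_tau] at this
  · exact sep_of_tau h4 G

lemma tau_fix (h4 : Distinct4 u v w z) (G : State d) (h : ¬ Sep u v w z G) :
    tau u v w z G = G := by
  apply Subtype.ext
  simp only [Sep] at h
  simp [tau, h4, swp, h]

lemma sep_of_cells (a b : State d) (h : cellsOf u v w z a = cellsOf u v w z b) :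
    Sep u v w z a ↔ Sep u v w z b := by
  have e : ∀ G : State d, Sep u v w z G ↔
      (Pat u v w z (G.1 ∩ cellE u v w z) ∨ Pat u v z w (G.1 ∩ cellE u v w z)) := by
    intro G
    simp only [Sep, pat_inter, pat_inter']
  rw [e a, e b]
  simp only [cellsOf] at h
  rw [h]

lemma sigma_of_sep (G : State d) (h : Sep u v w z G) : sigma u v w z G.1 = 2 := by
  unfold sigma
  rcases h with h | h
  · obtain ⟨h1, h2, h3, h5⟩ := pat_iff_ed.1 h
    rw [h1, h2, h3, h5]; norm_num
  · obtain ⟨h1, h2, h3, h5⟩ := pat_iff_ed.1 h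
    rw [h1, h2, h3, h5]; norm_num

lemma cells_of_ed (a b : State d) (h1 : ed a.1 u w = ed b.1 u w) (h2 : ed a.1 u z = ed b.1 u z)
    (h3 : ed a.1 v w = ed b.1 v w) (h5 : ed a.1 v z = ed b.1 v z) :
    cellsOf u v w z a = cellsOf u v w z b :=
  cellsOf_eq_iff.2 (cell_agree h1 h2 h3 h5)

lemma cells_of_pat (a b : State d) (ha : Pat u v w z a.1) (hb : Pat u v w z b.1) :
    cellsOf u v w z a = cellsOf u v w z b := by
  obtain ⟨h1, h2, h3, h5⟩ := pat_iff_ed.1 ha
  obtain ⟨h1', h2', h3', h5'⟩ := pat_iff_ed.1 hb
  exact cells_of_ed a b (by rw [h1, h1']) (by rw [h3, h3']) (by rw [h5, h5']) (by rw [h2, h2'])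

lemma cells_of_pat' (a b : State d) (ha : Pat u v z w a.1) (hb : Pat u v z w b.1) :
    cellsOf u v w z a = cellsOf u v w z b := by
  obtain ⟨h1, h2, h3, h5⟩ := pat_iff_ed.1 ha
  obtain ⟨h1', h2', h3', h5'⟩ := pat_iff_ed.1 hb
  exact cells_of_ed a b (by rw [h3, h3']) (by rw [h1, h1']) (by rw [h2, h2']) (by rw [h5, h5'])

lemma sep_cases (h4 : Distinct4 u v w z) (a b : State d) (ha : Sep u v w z a) (hb : Sep u v w z b) :
    cellsOf u v w z a = cellsOf u v w z b ∨ cellsOf u v w z (tau u v w z a) = cellsOf u v w z b := by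
  rcases ha with ha | ha <;> rcases hb with hb | hb
  · exact Or.inl (cells_of_pat a b ha hb)
  · right
    apply cells_of_pat'
    · simp only [tau, h4, dite_true]
      exact pat_swp h4 ha
    · exact hb
  · right
    apply cells_of_pat
    · simp only [tau, h4, dite_true]
      rw [swp_swap_wz]
      exact pat_swp h4.swap_wz ha
    · exact hb
  · exact Or.inl (cells_of_pat' a b ha hb)

lemma ed_01 (G : Finset (Sym2 V)) (a b : V) : ed G a b = 0 ∨ ed G a b = 1 := by
  unfold ed; split_ifs <;> simp

lemma non_sep (h4 : Distinct4 u v w z) (x : State d) (hs : sigma u v w z x.1 = 2)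
    (hn : ¬ Sep u v w z x) :
    (∀ y : State d, xi w z y = xi w z x → cellsOf u v w z y = cellsOf u v w z x) ∨
      (∀ y : State d, xi u v y = xi u v x → cellsOf u v w z y = cellsOf u v w z x) := by
  obtain ⟨h1, h2, h3, h5, h6, h7⟩ := h4
  unfold sigma at hs
  have hP : ¬ (ed x.1 u w = 1 ∧ ed x.1 v z = 1 ∧ ed x.1 u z = 0 ∧ ed x.1 v w = 0) := fun h =>
    hn (Or.inl (pat_iff_ed.2 h))
  have hQ : ¬ (ed x.1 u z = 1 ∧ ed x.1 v w = 1 ∧ ed x.1 u w = 0 ∧ ed x.1 v z = 0) := fun h =>
    hn (Or.inr (pat_iff_ed.2 h))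
  have a1 := ed_nonneg x.1 u w; have a2 := ed_le_one x.1 u w
  have a3 := ed_nonneg x.1 u z; have a4 := ed_le_one x.1 u z
  have a5 := ed_nonneg x.1 v w; have a6 := ed_le_one x.1 v w
  have a7 := ed_nonneg x.1 v z; have a8 := ed_le_one x.1 v z
  by_cases hc : ed x.1 u w + ed x.1 u z = 1
  · right
    intro y hy
    have e1 : ed y.1 u w + ed y.1 v w = ed x.1 u w + ed x.1 v w := blkKey_sum hy h2.symm h5.symm
    have e2 : ed y.1 u z + ed y.1 v z = ed x.1 u z + ed x.1 v z := blkKey_sum hy h3.symm h6.symm
    have b1 := ed_nonneg y.1 u w; have b2 := ed_le_one y.1 u w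
    have b3 := ed_nonneg y.1 u z; have b4 := ed_le_one y.1 u z
    have b5 := ed_nonneg y.1 v w; have b6 := ed_le_one y.1 v w
    have b7 := ed_nonneg y.1 v z; have b8 := ed_le_one y.1 v z
    apply cells_of_ed <;> omega
  · left
    intro y hy
    have e1 : ed y.1 w u + ed y.1 z u = ed x.1 w u + ed x.1 z u := blkKey_sum hy h2 h3
    have e2 : ed y.1 w v + ed y.1 z v = ed x.1 w v + ed x.1 z v := blkKey_sum hy h5 h6
    rw [ed_comm y.1 w, ed_comm y.1 z, ed_comm x.1 w, ed_comm x.1 z] at e1 e2
    have b1 := ed_nonneg y.1 u w; have b2 := ed_le_one y.1 u w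
    have b3 := ed_nonneg y.1 u z; have b4 := ed_le_one y.1 u z
    have b5 := ed_nonneg y.1 v w; have b6 := ed_le_one y.1 v w
    have b7 := ed_nonneg y.1 v z; have b8 := ed_le_one y.1 v z
    apply cells_of_ed <;> omega

/-- The flag of a set of cells. -/
def sepFlag (u v w z : V) (m : Finset (Sym2 V)) : Bool := decide (Pat u v w z m ∨ Pat u v z w m)

lemma sepFlag_cells (G : State d) : sepFlag u v w z (cellsOf u v w z G) = decide (Sep u v w z G) := by
  simp only [sepFlag, cellsOf, Sep, pat_inter, pat_inter']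

lemma sepFlag_cells' (G : State d) : sepFlag u v w z (cellsOf w z u v G) = decide (Sep u v w z G) := by
  rw [cellsOf_symm]; exact sepFlag_cells G

/-- The key of the sector. -/
def Sec (u v w z : V) (G : State d) : Prop := sigma u v w z G.1 = 2

instance (u v w z : V) : DecidablePred (Sec u v w z : State d → Prop) := by
  intro G; unfold Sec; infer_instance

/-- All the facts on the two blocks. -/
theorem pairHyp (h4 : Distinct4 u v w z) :
    PairHyp (xi u v) (xi w z) (cellsOf u v w z) (tau u v w z) (Sep u v w z) (Sec u v w z : State d → Prop) where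
  ττ := tau_tau
  τξ := xi_tau h4
  τζ := xi_tau' h4
  τM := by
    intro x y
    rw [cellsOf_tau h4, cellsOf_tau h4]
    constructor
    · intro h
      have := congrArg (swp u v w z) h
      rwa [swp_swp h4, swp_swp h4] at this
    · intro h; rw [h]
  τfix := tau_fix h4
  τSep := sep_tau h4
  SepM := sep_of_cells
  Secξ := by
    intro x y h
    simp only [Sec, sigma_of_xi h4 h]
  Secζ := by
    intro x y h
    simp only [Sec, sigma_of_xi' h4 h]
  SepSec := sigma_of_sep
  SepCases := sep_cases h4
  nonSep := non_sep h4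
  c1 := by
    intro f
    have := comm_ref h4.symm (xi w z) (fun _ => ()) (by simp) f
    rw [cellsOf_symm] at this
    exact this.symm
  c2 := by
    intro f
    have := comm_ref h4 (xi u v) (fun _ => ()) (by simp) f
    exact this.symm
  c3 := by
    intro f
    exact comm_ref h4 (refK (xi u v) (cellsOf u v w z)) id (by simp [refK]) f
  c4 := by
    intro f
    have := comm_ref h4 (sepK (xi u v) (Sep u v w z)) (sepFlag u v w z)
      (by simp [sepK, sepFlag_cells]) f
    exact this.symm
  c4' := by
    intro f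
    have := comm_ref h4.symm (sepK (xi w z) (Sep u v w z)) (sepFlag u v w z)
      (by simp [sepK, sepFlag_cells']) f
    rw [cellsOf_symm] at this
    exact this.symm
  c5 := fun f x hx => comm_sector h4 x hx f

lemma ZZ_congr {Ω : Type*} [Fintype Ω] {Y : Type*} [DecidableEq Y] (ξ : Ω → Y) (S S' : Ω → Prop)
    [DecidablePred S] [DecidablePred S'] (h : ∀ x, S x ↔ S' x) (f : Ω → ℝ) :
    ZZ ξ S f = ZZ ξ S' f := by
  have hk : sepK ξ S = sepK ξ S' := funext fun x => by simp [sepK, h x]
  have hl : lam ξ S f = lam ξ S' f := by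
    funext x
    simp only [lam, hk, h x]
  unfold ZZ
  rw [hl]

/-- The sum over all graphs of the squared difference along the switch. -/
lemma sum_tau_eq_Dsw (h4 : Distinct4 u v w z) (f : State d → ℝ) :
    (1 / 2) * ∑ G, (f G - f (tau u v w z G)) ^ 2 = Dsw u v w z f := by
  have h1 : ∀ G : State d, (f G - f (tau u v w z G)) ^ 2
      = (if Pat u v w z G.1 then (f G - f (tau u v w z G)) ^ 2 else 0)
        + (if Pat u v z w G.1 then (f G - f (tau u v w z G)) ^ 2 else 0) := by
    intro G
    by_cases h2 : Pat u v w z G.1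
    · have h3 : ¬ Pat u v z w G.1 := fun h => h.1 |> fun _ => h.2.2.1 h2.1
      simp [h2, h3]
    · by_cases h3 : Pat u v z w G.1
      · simp [h2, h3]
      · have : tau u v w z G = G := tau_fix h4 G (by simp [Sep, h2, h3])
        simp [h2, h3, this]
  have h2 : ∑ G : State d, (if Pat u v z w G.1 then (f G - f (tau u v w z G)) ^ 2 else 0)
      = Dsw u v w z f := by
    unfold Dsw
    refine Finset.sum_nbij' (tau u v w z) (tau u v w z) ?_ ?_ ?_ ?_ ?_
    · intro _ _; exact mem_univ _
    · intro _ _; exact mem_univ _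
    · intro G _; exact tau_tau G
    · intro G _; exact tau_tau G
    · intro G _
      rw [tau_tau]
      have e : Pat u v w z (tau u v w z G).1 ↔ Pat u v z w G.1 := by
        simp only [tau, h4, dite_true]
        constructor
        · intro h
          have := pat_swp h4 h
          rwa [swp_swp h4] at this
        · intro h
          have := pat_swp h4.swap_wz h
          rwa [← swp_swap_wz] at this
      simp only [e]
      split_ifs
      · ring
      · rfl
  rw [Finset.sum_congr rfl (fun G _ => h1 G), Finset.sum_add_distrib, h2]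
  unfold Dsw
  ring

/-- The per-tuple inequality. -/
theorem starB (h4 : Distinct4 u v w z) (f : State d → ℝ) :
    Dsw u v w z f - Zq u v w z f - Zq w z u v f ≤ 2 * ip (X u v f) (X w z f) := by
  have h := star_abs (pairHyp (d := d) h4) f
  rw [sum_tau_eq_Dsw h4] at h
  have e : Zq w z u v f = ZZ (xi w z) (Sep u v w z) f :=
    ZZ_congr _ _ _ (sep_symm) f
  rw [e]
  exact h

end Vale.Agent.Lib.P335
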