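import Mathlib
set_option linter.unusedSectionVars false

/-!
The Johnson scheme lemma: for a function `h` on the `k`-subsets of `U`, the Dirichlet form dominates
the Gram terms of the indicators of the pairs separated by the subset.
-/

namespace Vale.Agent.Lib.P335

open Finset

variable {α : Type*} [DecidableEq α]

/-- Sum over the `k`-subsets `A` of `U` of `(h A - mean of h) ^ 2`. -/
noncomputable def johnsonVar (U : Finset α) (k : ℕ) (h : Finset α → ℝ) : ℝ :=
  ∑ A ∈ U.powersetCard k, (h A - (∑ B ∈ U.powersetCard k, h B) / (U.powersetCard k).card) ^ 2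

/-- The sets in `J(U,k)` separating `w` from `z` (containing exactly one of them). -/
def sepSets (U : Finset α) (k : ℕ) (w z : α) : Finset (Finset α) :=
  (U.powersetCard k).filter fun A => (w ∈ A ∧ z ∉ A) ∨ (w ∉ A ∧ z ∈ A)

/-- `t ^ 2 / C` where `t` is the sum of `h - mean h` over the sets separating `w,z`, and `C` is
their number (the value is `0` when `C = 0`). -/
noncomputable def johnsonZ (U : Finset α) (k : ℕ) (h : Finset α → ℝ) (w z : α) : ℝ :=
  (∑ A ∈ sepSets U k w z,
      (h A - (∑ B ∈ U.powersetCard k, h B) / (U.powersetCard k).card)) ^ 2 / (sepSets U k w z).card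

/-- The Dirichlet sum of the exchange of `w` (in the set) with `z` (outside the set). -/
noncomputable def johnsonD (U : Finset α) (k : ℕ) (h : Finset α → ℝ) (w z : α) : ℝ :=
  ∑ A ∈ (U.powersetCard k).filter (fun A => w ∈ A ∧ z ∉ A), (h A - h (insert z (A.erase w))) ^ 2

/-! ### Up and down -/

/-- The squared norm at level `k`. -/
noncomputable def jNrm (U : Finset α) (k : ℕ) (g : Finset α → ℝ) : ℝ :=
  ∑ A ∈ U.powersetCard k, g A ^ 2

/-- The adjacency form at level `k`. -/
noncomputable def jAdj (U : Finset α) (k : ℕ) (g : Finset α → ℝ) : ℝ :=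
  ∑ A ∈ U.powersetCard k, ∑ w ∈ A, ∑ z ∈ U \ A, g A * g (insert z (A.erase w))

/-- The down operator. -/
noncomputable def jDn (U : Finset α) (g : Finset α → ℝ) (B : Finset α) : ℝ :=
  ∑ a ∈ U \ B, g (insert a B)

/-- The up operator. -/
noncomputable def jUp (f : Finset α → ℝ) (C : Finset α) : ℝ :=
  ∑ a ∈ C, f (C.erase a)

lemma sum_up_down (U : Finset α) (k : ℕ) (F : Finset α → α → ℝ) :
    ∑ B ∈ U.powersetCard k, ∑ a ∈ U \ B, F B a =
      ∑ A ∈ U.powersetCard (k + 1), ∑ a ∈ A, F (A.erase a) a := by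
  rw [Finset.sum_sigma', Finset.sum_sigma']
  refine Finset.sum_bij' (fun p _ => ⟨insert p.2 p.1, p.2⟩) (fun p _ => ⟨p.1.erase p.2, p.2⟩)
    ?_ ?_ ?_ ?_ ?_
  · rintro ⟨B, a⟩ h
    simp only [Finset.mem_sigma, Finset.mem_powersetCard, Finset.mem_sdiff] at h ⊢
    obtain ⟨⟨h1, h2⟩, h3, h4⟩ := h
    refine ⟨⟨Finset.insert_subset h3 h1, ?_⟩, Finset.mem_insert_self _ _⟩
    rw [Finset.card_insert_of_notMem h4, h2]
  · rintro ⟨A, a⟩ h
    simp only [Finset.mem_sigma, Finset.mem_powersetCard, Finset.mem_sdiff] at h ⊢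
    obtain ⟨⟨h1, h2⟩, h3⟩ := h
    refine ⟨⟨(Finset.erase_subset _ _).trans h1, ?_⟩, h1 h3, Finset.notMem_erase _ _⟩
    rw [Finset.card_erase_of_mem h3, h2]; rfl
  · rintro ⟨B, a⟩ h
    simp only [Finset.mem_sigma, Finset.mem_powersetCard, Finset.mem_sdiff] at h
    obtain ⟨⟨h1, h2⟩, h3, h4⟩ := h
    simp [Finset.erase_insert h4]
  · rintro ⟨A, a⟩ h
    simp only [Finset.mem_sigma, Finset.mem_powersetCard] at h
    simp [Finset.insert_erase h.2]
  · rintro ⟨B, a⟩ h
    simp only [Finset.mem_sigma, Finset.mem_powersetCard, Finset.mem_sdiff] at h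
    obtain ⟨⟨h1, h2⟩, h3, h4⟩ := h
    simp [Finset.erase_insert h4]

lemma jDn_norm (U : Finset α) (k : ℕ) (g : Finset α → ℝ) :
    ∑ B ∈ U.powersetCard k, jDn U g B ^ 2 =
      ((k : ℝ) + 1) * jNrm U (k + 1) g + jAdj U (k + 1) g := by
  have h1 : ∑ B ∈ U.powersetCard k, jDn U g B ^ 2 =
      ∑ B ∈ U.powersetCard k, ∑ a ∈ U \ B, g (insert a B) * jDn U g B := by
    refine Finset.sum_congr rfl fun B _ => ?_
    rw [← Finset.sum_mul, sq]; rfl
  rw [h1, sum_up_down U k (fun B a => g (insert a B) * jDn U g B), jNrm, jAdj, Finset.mul_sum,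
    ← Finset.sum_add_distrib]
  refine Finset.sum_congr rfl fun A hA => ?_
  rw [Finset.mem_powersetCard] at hA
  have h2 : ∀ a ∈ A, g (insert a (A.erase a)) * jDn U g (A.erase a) =
      g A ^ 2 + ∑ z ∈ U \ A, g A * g (insert z (A.erase a)) := by
    intro a ha
    rw [Finset.insert_erase ha, jDn, Finset.mul_sum]
    have h3 : U \ A.erase a = insert a (U \ A) := by
      ext x
      simp only [Finset.mem_sdiff, Finset.mem_erase, Finset.mem_insert]
      constructor
      · rintro ⟨h4, h5⟩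
        by_cases h6 : x = a
        · exact Or.inl h6
        · exact Or.inr ⟨h4, fun h7 => h5 ⟨h6, h7⟩⟩
      · rintro (rfl | ⟨h4, h5⟩)
        · exact ⟨hA.1 ha, fun h => h.1 rfl⟩
        · exact ⟨h4, fun h => h5 h.2⟩
    rw [h3, Finset.sum_insert (by simp [ha]), Finset.insert_erase ha, sq]
  rw [Finset.sum_congr rfl h2, Finset.sum_add_distrib, Finset.sum_const, hA.2]
  simp only [nsmul_eq_mul]
  push_cast
  ring

lemma jUp_norm (U : Finset α) (k : ℕ) (f : Finset α → ℝ) :
    ∑ C ∈ U.powersetCard (k + 1), jUp f C ^ 2 =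
      ((U.card : ℝ) - k) * jNrm U k f + jAdj U k f := by
  have h1 : ∑ C ∈ U.powersetCard (k + 1), jUp f C ^ 2 =
      ∑ C ∈ U.powersetCard (k + 1), ∑ a ∈ C, f (C.erase a) * jUp f (insert a (C.erase a)) := by
    refine Finset.sum_congr rfl fun C _ => ?_
    have : ∀ a ∈ C, f (C.erase a) * jUp f (insert a (C.erase a)) = f (C.erase a) * jUp f C := by
      intro a ha; rw [Finset.insert_erase ha]
    rw [Finset.sum_congr rfl this, ← Finset.sum_mul, sq]; rfl
  rw [h1, ← sum_up_down U k (fun B a => f B * jUp f (insert a B)), jNrm, jAdj, Finset.mul_sum,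
    ← Finset.sum_add_distrib]
  refine Finset.sum_congr rfl fun B hB => ?_
  rw [Finset.mem_powersetCard] at hB
  have h2 : ∀ a ∈ U \ B, f B * jUp f (insert a B) =
      f B ^ 2 + ∑ w ∈ B, f B * f (insert a (B.erase w)) := by
    intro a ha
    have ha' : a ∉ B := (Finset.mem_sdiff.1 ha).2
    rw [jUp, Finset.sum_insert ha', Finset.erase_insert ha', mul_add, sq, Finset.mul_sum]
    congr 1
    refine Finset.sum_congr rfl fun w hw => ?_
    have : a ≠ w := fun h => ha' (h ▸ hw)
    rw [Finset.erase_insert_of_ne this]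
  rw [Finset.sum_congr rfl h2, Finset.sum_add_distrib, Finset.sum_const, Finset.sum_comm,
    Finset.card_sdiff_of_subset hB.1, hB.2]
  simp only [nsmul_eq_mul]
  by_cases hk : k ≤ U.card
  · rw [Nat.cast_sub hk]
  · have := Finset.card_le_card hB.1
    omega

lemma jDn_adjoint (U : Finset α) (k : ℕ) (g f : Finset α → ℝ) :
    ∑ B ∈ U.powersetCard k, jDn U g B * f B =
      ∑ A ∈ U.powersetCard (k + 1), g A * jUp f A := by
  have h1 : ∑ B ∈ U.powersetCard k, jDn U g B * f B =
      ∑ B ∈ U.powersetCard k, ∑ a ∈ U \ B, g (insert a B) * f B := by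
    refine Finset.sum_congr rfl fun B _ => ?_
    rw [jDn, Finset.sum_mul]
  rw [h1, sum_up_down U k (fun B a => g (insert a B) * f B)]
  refine Finset.sum_congr rfl fun A _ => ?_
  rw [jUp, Finset.mul_sum]
  refine Finset.sum_congr rfl fun a ha => ?_
  rw [Finset.insert_erase ha]

lemma jNrm_nonneg (U : Finset α) (k : ℕ) (g : Finset α → ℝ) : 0 ≤ jNrm U k g :=
  Finset.sum_nonneg fun _ _ => sq_nonneg _

/-- The key spectral bound for mean zero functions. -/
lemma jAdj_bound (U : Finset α) (k : ℕ) (g : Finset α → ℝ)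
    (hg : ∑ A ∈ U.powersetCard k, g A = 0) :
    (k : ℝ) * jNrm U k g + jAdj U k g ≤ ((k : ℝ) - 1) * ((U.card : ℝ) - k) * jNrm U k g := by
  induction k generalizing g with
  | zero =>
    have h0 : g ∅ = 0 := by simpa using hg
    simp [jNrm, jAdj, h0]
  | succ k ih =>
    set f : Finset α → ℝ := jDn U g with hf
    have hfmean : ∑ B ∈ U.powersetCard k, f B = 0 := by
      have h1 := jDn_adjoint U k g (fun _ => 1)
      simp only [mul_one] at h1
      rw [hf, h1]
      have h2 : ∀ A ∈ U.powersetCard (k + 1), g A * jUp (fun _ => (1 : ℝ)) A =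
          ((k : ℝ) + 1) * g A := by
        intro A hA
        rw [Finset.mem_powersetCard] at hA
        simp only [jUp, Finset.sum_const, nsmul_eq_mul, mul_one, hA.2]
        push_cast
        ring
      rw [Finset.sum_congr rfl h2, ← Finset.mul_sum, hg, mul_zero]
    have hih := ih f hfmean
    have hb : jNrm U k f = ((k : ℝ) + 1) * jNrm U (k + 1) g + jAdj U (k + 1) g := by
      rw [jNrm, hf, jDn_norm]
    have hc := jUp_norm U k f
    have hcs : (∑ A ∈ U.powersetCard (k + 1), g A * jUp f A) ^ 2 ≤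
        jNrm U (k + 1) g * ∑ A ∈ U.powersetCard (k + 1), jUp f A ^ 2 :=
      Finset.sum_mul_sq_le_sq_mul_sq _ _ _
    have hadj : jNrm U k f = ∑ A ∈ U.powersetCard (k + 1), g A * jUp f A := by
      rw [← jDn_adjoint, jNrm]
      refine Finset.sum_congr rfl fun B _ => ?_
      rw [sq]
    rw [← hadj, hc] at hcs
    have hb0 := jNrm_nonneg U k f
    have ha0 := jNrm_nonneg U (k + 1) g
    -- the goal
    have hgoal : jNrm U k f ≤ (k : ℝ) * ((U.card : ℝ) - k - 1) * jNrm U (k + 1) g := by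
      have hcoef : ((U.card : ℝ) - k) * jNrm U k f + jAdj U k f ≤
          (k : ℝ) * ((U.card : ℝ) - k - 1) * jNrm U k f := by nlinarith
      have h3 : jNrm U k f ^ 2 ≤
          jNrm U (k + 1) g * ((k : ℝ) * ((U.card : ℝ) - k - 1) * jNrm U k f) :=
        hcs.trans (mul_le_mul_of_nonneg_left hcoef ha0)
      by_cases hzero : jNrm U k f = 0
      · rw [hzero]
        by_cases hk : k + 1 ≤ U.card
        · have : (0 : ℝ) ≤ (U.card : ℝ) - k - 1 := by
            have : ((k + 1 : ℕ) : ℝ) ≤ U.card := by exact_mod_cast hk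
            push_cast at this
            linarith
          positivity
        · have : U.powersetCard (k + 1) = ∅ := Finset.powersetCard_eq_empty.2 (by omega)
          simp [jNrm, this]
      · have hpos : 0 < jNrm U k f := lt_of_le_of_ne hb0 (Ne.symm hzero)
        have : jNrm U k f * jNrm U k f ≤
            ((k : ℝ) * ((U.card : ℝ) - k - 1) * jNrm U (k + 1) g) * jNrm U k f := by
          nlinarith
        exact le_of_mul_le_mul_right this hpos
    push_cast
    rw [hb] at hgoal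
    nlinarith


/-! ### The Dirichlet form -/

lemma sum_swap3 (U : Finset α) (k : ℕ) (Φ : Finset α → α → α → ℝ) :
    ∑ A ∈ U.powersetCard k, ∑ w ∈ A, ∑ z ∈ U \ A, Φ A w z =
      ∑ A ∈ U.powersetCard k, ∑ w ∈ A, ∑ z ∈ U \ A, Φ (insert z (A.erase w)) z w := by
  simp only [← Finset.sum_product']
  rw [Finset.sum_sigma', Finset.sum_sigma']
  have key : ∀ y ∈ (U.powersetCard k).sigma fun A => A ×ˢ (U \ A),
      (⟨insert y.2.2 (y.1.erase y.2.1), (y.2.2, y.2.1)⟩ :
        Σ _ : Finset α, α × α) ∈ (U.powersetCard k).sigma fun A => A ×ˢ (U \ A) := by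
    rintro ⟨A, w, z⟩ h
    simp only [Finset.mem_sigma, Finset.mem_powersetCard, Finset.mem_product, Finset.mem_sdiff]
      at h ⊢
    obtain ⟨⟨h1, h2⟩, h3, h4, h5⟩ := h
    have hzw : z ≠ w := fun h => h5 (h ▸ h3)
    have hz' : z ∉ A.erase w := fun h => h5 (Finset.mem_of_mem_erase h)
    refine ⟨⟨Finset.insert_subset h4 ((Finset.erase_subset _ _).trans h1), ?_⟩,
      Finset.mem_insert_self _ _, h1 h3, ?_⟩
    · rw [Finset.card_insert_of_notMem hz', Finset.card_erase_of_mem h3, h2]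
      have : 0 < A.card := Finset.card_pos.2 ⟨w, h3⟩
      omega
    · simp [hzw.symm]
  have key2 : ∀ y ∈ (U.powersetCard k).sigma fun A => A ×ˢ (U \ A),
      ((⟨insert y.2.2 (y.1.erase y.2.1), (y.2.2, y.2.1)⟩ : Σ _ : Finset α, α × α) :
        Σ _ : Finset α, α × α) = ⟨insert y.2.2 (y.1.erase y.2.1), (y.2.2, y.2.1)⟩ :=
    fun _ _ => rfl
  refine Finset.sum_bij' (fun y _ => ⟨insert y.2.2 (y.1.erase y.2.1), (y.2.2, y.2.1)⟩)
    (fun y _ => ⟨insert y.2.2 (y.1.erase y.2.1), (y.2.2, y.2.1)⟩) key key ?_ ?_ ?_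
  · rintro ⟨A, w, z⟩ h
    simp only [Finset.mem_sigma, Finset.mem_powersetCard, Finset.mem_product, Finset.mem_sdiff]
      at h
    obtain ⟨⟨h1, h2⟩, h3, h4, h5⟩ := h
    have hz' : z ∉ A.erase w := fun h => h5 (Finset.mem_of_mem_erase h)
    simp [Finset.erase_insert hz', Finset.insert_erase h3]
  · rintro ⟨A, w, z⟩ h
    simp only [Finset.mem_sigma, Finset.mem_powersetCard, Finset.mem_product, Finset.mem_sdiff]
      at h
    obtain ⟨⟨h1, h2⟩, h3, h4, h5⟩ := h
    have hz' : z ∉ A.erase w := fun h => h5 (Finset.mem_of_mem_erase h)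
    simp [Finset.erase_insert hz', Finset.insert_erase h3]
  · rintro ⟨A, w, z⟩ h
    simp only [Finset.mem_sigma, Finset.mem_powersetCard, Finset.mem_product, Finset.mem_sdiff]
      at h
    obtain ⟨⟨h1, h2⟩, h3, h4, h5⟩ := h
    have hz' : z ∉ A.erase w := fun h => h5 (Finset.mem_of_mem_erase h)
    simp [Finset.erase_insert hz', Finset.insert_erase h3]

/-- The off-diagonal sum of the `johnsonD` as a sum over sets and exchanges. -/
lemma sum_johnsonD (U : Finset α) (k : ℕ) (h : Finset α → ℝ) :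
    ∑ w ∈ U, ∑ z ∈ U, (if w = z then 0 else johnsonD U k h w z) =
      ∑ A ∈ U.powersetCard k, ∑ w ∈ A, ∑ z ∈ U \ A, (h A - h (insert z (A.erase w))) ^ 2 := by
  have h1 : ∀ w ∈ U, ∀ z ∈ U, (if w = z then 0 else johnsonD U k h w z) =
      ∑ A ∈ U.powersetCard k, if w ∈ A ∧ z ∉ A then (h A - h (insert z (A.erase w))) ^ 2 else 0 := by
    intro w _ z _
    by_cases hwz : w = z
    · subst hwz
      simp
    · rw [if_neg hwz, johnsonD, Finset.sum_filter]
  rw [Finset.sum_congr rfl fun w hw => Finset.sum_congr rfl fun z hz => h1 w hw z hz]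
  simp_rw [Finset.sum_comm (s := U) (t := U.powersetCard k)]
  refine Finset.sum_congr rfl fun A hA => ?_
  rw [Finset.mem_powersetCard] at hA
  have h2 : ∀ w ∈ U, ∑ z ∈ U, (if w ∈ A ∧ z ∉ A then (h A - h (insert z (A.erase w))) ^ 2 else 0) =
      if w ∈ A then ∑ z ∈ U \ A, (h A - h (insert z (A.erase w))) ^ 2 else 0 := by
    intro w _
    by_cases hw : w ∈ A
    · simp only [hw, true_and, if_true]
      rw [Finset.sdiff_eq_filter, Finset.sum_filter]
    · simp [hw]
  rw [Finset.sum_congr rfl h2, ← Finset.sum_filter, Finset.filter_mem_eq_inter,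
    Finset.inter_eq_right.2 hA.1]

lemma mean_zero (U : Finset α) (k : ℕ) (h : Finset α → ℝ) :
    ∑ A ∈ U.powersetCard k,
      (h A - (∑ B ∈ U.powersetCard k, h B) / (U.powersetCard k).card) = 0 := by
  by_cases hP : (U.powersetCard k).card = 0
  · rw [Finset.card_eq_zero] at hP
    simp [hP]
  · rw [Finset.sum_sub_distrib, Finset.sum_const, nsmul_eq_mul]
    have : ((U.powersetCard k).card : ℝ) ≠ 0 := by exact_mod_cast hP
    field_simp
    ring

/-- (J1): the spectral gap of the Johnson graph. -/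
theorem johnson_gap (U : Finset α) (k : ℕ) (h : Finset α → ℝ) :
    (U.card : ℝ) * johnsonVar U k h ≤
      (1 / 2) * ∑ w ∈ U, ∑ z ∈ U, if w = z then 0 else johnsonD U k h w z := by
  rw [sum_johnsonD]
  set μ : ℝ := (∑ B ∈ U.powersetCard k, h B) / (U.powersetCard k).card with hμ
  set g : Finset α → ℝ := fun A => h A - μ with hg
  have hgm : ∑ A ∈ U.powersetCard k, g A = 0 := mean_zero U k h
  have hb := jAdj_bound U k g hgm
  have hV : johnsonVar U k h = jNrm U k g := rfl
  rw [hV]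
  have e1 : ∑ A ∈ U.powersetCard k, ∑ w ∈ A, ∑ z ∈ U \ A, (h A - h (insert z (A.erase w))) ^ 2 =
      ∑ A ∈ U.powersetCard k, ∑ w ∈ A, ∑ z ∈ U \ A, g A ^ 2 +
      ∑ A ∈ U.powersetCard k, ∑ w ∈ A, ∑ z ∈ U \ A, g (insert z (A.erase w)) ^ 2 -
      2 * jAdj U k g := by
    rw [jAdj, Finset.mul_sum, ← Finset.sum_add_distrib, ← Finset.sum_sub_distrib]
    refine Finset.sum_congr rfl fun A _ => ?_
    rw [Finset.mul_sum, ← Finset.sum_add_distrib, ← Finset.sum_sub_distrib]
    refine Finset.sum_congr rfl fun w _ => ?_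
    rw [Finset.mul_sum, ← Finset.sum_add_distrib, ← Finset.sum_sub_distrib]
    refine Finset.sum_congr rfl fun z _ => ?_
    simp only [hg]
    ring
  have e2 : ∑ A ∈ U.powersetCard k, ∑ w ∈ A, ∑ z ∈ U \ A, g (insert z (A.erase w)) ^ 2 =
      ∑ A ∈ U.powersetCard k, ∑ w ∈ A, ∑ z ∈ U \ A, g A ^ 2 :=
    (sum_swap3 U k (fun A _ _ => g A ^ 2)).symm
  have e3 : ∑ A ∈ U.powersetCard k, ∑ w ∈ A, ∑ z ∈ U \ A, g A ^ 2 =
      (k : ℝ) * ((U.card : ℝ) - k) * jNrm U k g := by
    rw [jNrm, Finset.mul_sum]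
    refine Finset.sum_congr rfl fun A hA => ?_
    rw [Finset.mem_powersetCard] at hA
    have hk : k ≤ U.card := hA.2 ▸ Finset.card_le_card hA.1
    simp only [Finset.sum_const, nsmul_eq_mul, Finset.card_sdiff_of_subset hA.1, hA.2]
    rw [Nat.cast_sub hk]
    ring
  rw [e1, e2, e3]
  nlinarith

/-! ### Counting -/

/-- Number of `k`-subsets containing a given `j`-subset. -/
noncomputable def jc (U : Finset α) (k j : ℕ) : ℝ :=
  if j ≤ k then (((U.card - j).choose (k - j) : ℕ) : ℝ) else 0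

lemma jc_spec (U X : Finset α) (k : ℕ) (hX : X ⊆ U) :
    ∑ A ∈ U.powersetCard k, (if X ⊆ A then (1 : ℝ) else 0) = jc U k X.card := by
  rw [Finset.sum_boole, jc]
  by_cases hk : X.card ≤ k
  · rw [if_pos hk]
    congr 1
    rw [← Finset.card_sdiff_of_subset hX, ← Finset.card_powersetCard]
    refine Finset.card_bij' (fun A _ => A \ X) (fun B _ => B ∪ X) ?_ ?_ ?_ ?_
    · intro A hA
      rw [Finset.mem_filter, Finset.mem_powersetCard] at hA
      rw [Finset.mem_powersetCard]
      refine ⟨Finset.sdiff_subset_sdiff hA.1.1 (Finset.Subset.refl _), ?_⟩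
      rw [Finset.card_sdiff_of_subset hA.2, hA.1.2]
    · intro B hB
      rw [Finset.mem_powersetCard] at hB
      rw [Finset.mem_filter, Finset.mem_powersetCard]
      have hd : Disjoint B X :=
        Finset.disjoint_of_subset_left hB.1 Finset.sdiff_disjoint
      refine ⟨⟨Finset.union_subset (hB.1.trans Finset.sdiff_subset) hX, ?_⟩,
        Finset.subset_union_right⟩
      rw [Finset.card_union_of_disjoint hd, hB.2]
      omega
    · intro A hA
      rw [Finset.mem_filter] at hA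
      exact Finset.sdiff_union_of_subset hA.2
    · intro B hB
      rw [Finset.mem_powersetCard] at hB
      have hd : Disjoint B X :=
        Finset.disjoint_of_subset_left hB.1 Finset.sdiff_disjoint
      exact Finset.union_sdiff_cancel_right hd
  · rw [if_neg hk]
    have : (U.powersetCard k).filter (fun A => X ⊆ A) = ∅ := by
      rw [Finset.filter_eq_empty_iff]
      intro A hA hXA
      rw [Finset.mem_powersetCard] at hA
      exact hk (hA.2 ▸ Finset.card_le_card hXA)
    simp [this]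


/-- Membership indicator. -/
noncomputable def jx (A : Finset α) (a : α) : ℝ := if a ∈ A then 1 else 0

/-- Separation indicator. -/
noncomputable def jphi (A : Finset α) (a b : α) : ℝ := jx A a + jx A b - 2 * jx A a * jx A b

/-- Kronecker delta. -/
noncomputable def jd (a c : α) : ℝ := if a = c then 1 else 0

lemma jphi_comm (A : Finset α) (a b : α) : jphi A a b = jphi A b a := by
  unfold jphi; ring

lemma jphi_self (A : Finset α) (a : α) : jphi A a a = 0 := by
  unfold jphi jx; split_ifs <;> norm_num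

lemma jphi_mul_self (A : Finset α) (a b : α) : jphi A a b * jphi A a b = jphi A a b := by
  unfold jphi jx; split_ifs <;> norm_num

lemma jphi_nonneg (A : Finset α) (a b : α) : 0 ≤ jphi A a b := by
  unfold jphi jx; split_ifs <;> norm_num

lemma jphi_eq_sep (A : Finset α) (w z : α) :
    (if (w ∈ A ∧ z ∉ A) ∨ (w ∉ A ∧ z ∈ A) then (1 : ℝ) else 0) = jphi A w z := by
  unfold jphi jx
  by_cases h1 : w ∈ A <;> by_cases h2 : z ∈ A <;> simp [h1, h2]
  norm_num

lemma sum_x1 (U : Finset α) (k : ℕ) {a : α} (ha : a ∈ U) :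
    ∑ A ∈ U.powersetCard k, jx A a = jc U k 1 := by
  have := jc_spec U {a} k (by simpa using ha)
  rw [Finset.card_singleton] at this
  rw [← this]
  refine Finset.sum_congr rfl fun A _ => ?_
  simp [jx]

lemma sum_x2 (U : Finset α) (k : ℕ) {a b : α} (ha : a ∈ U) (hb : b ∈ U) (hab : a ≠ b) :
    ∑ A ∈ U.powersetCard k, jx A a * jx A b = jc U k 2 := by
  have := jc_spec U {a, b} k (by
    intro x hx; simp only [Finset.mem_insert, Finset.mem_singleton] at hx
    rcases hx with rfl | rfl <;> assumption)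
  rw [Finset.card_pair hab] at this
  rw [← this]
  refine Finset.sum_congr rfl fun A _ => ?_
  by_cases h1 : a ∈ A <;> by_cases h2 : b ∈ A <;>
    simp [jx, h1, h2, Finset.insert_subset_iff]

lemma sum_x3 (U : Finset α) (k : ℕ) {a b c : α} (ha : a ∈ U) (hb : b ∈ U) (hc : c ∈ U)
    (hab : a ≠ b) (hac : a ≠ c) (hbc : b ≠ c) :
    ∑ A ∈ U.powersetCard k, jx A a * jx A b * jx A c = jc U k 3 := by
  have := jc_spec U {a, b, c} k (by
    intro x hx; simp only [Finset.mem_insert, Finset.mem_singleton] at hx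
    rcases hx with rfl | rfl | rfl <;> assumption)
  rw [Finset.card_eq_three.2 ⟨a, b, c, hab, hac, hbc, rfl⟩] at this
  rw [← this]
  refine Finset.sum_congr rfl fun A _ => ?_
  by_cases h1 : a ∈ A <;> by_cases h2 : b ∈ A <;> by_cases h3 : c ∈ A <;>
    simp [jx, h1, h2, h3, Finset.insert_subset_iff]

lemma sum_x4 (U : Finset α) (k : ℕ) {a b c d : α} (ha : a ∈ U) (hb : b ∈ U) (hc : c ∈ U)
    (hd : d ∈ U) (hab : a ≠ b) (hac : a ≠ c) (had : a ≠ d) (hbc : b ≠ c) (hbd : b ≠ d)
    (hcd : c ≠ d) :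
    ∑ A ∈ U.powersetCard k, jx A a * jx A b * jx A c * jx A d = jc U k 4 := by
  have := jc_spec U {a, b, c, d} k (by
    intro x hx; simp only [Finset.mem_insert, Finset.mem_singleton] at hx
    rcases hx with rfl | rfl | rfl | rfl <;> assumption)
  have hcard : ({a, b, c, d} : Finset α).card = 4 := by
    rw [Finset.card_insert_of_notMem (by simp [hab, hac, had]),
      Finset.card_eq_three.2 ⟨b, c, d, hbc, hbd, hcd, rfl⟩]
  rw [hcard] at this
  rw [← this]
  refine Finset.sum_congr rfl fun A _ => ?_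
  by_cases h1 : a ∈ A <;> by_cases h2 : b ∈ A <;> by_cases h3 : c ∈ A <;> by_cases h4 : d ∈ A <;>
    simp [jx, h1, h2, h3, h4, Finset.insert_subset_iff]

/-- The size of the sets separating a pair. -/
noncomputable def jS (U : Finset α) (k : ℕ) : ℝ := 2 * jc U k 1 - 2 * jc U k 2

/-- The size of the sets separating two disjoint pairs. -/
noncomputable def jR (U : Finset α) (k : ℕ) : ℝ :=
  if 4 ≤ U.card then 4 * jc U k 2 - 8 * jc U k 3 + 4 * jc U k 4 else 0

lemma N_same (U : Finset α) (k : ℕ) {a b : α} (ha : a ∈ U) (hb : b ∈ U) (hab : a ≠ b) :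
    ∑ A ∈ U.powersetCard k, jphi A a b = jS U k := by
  simp only [jphi, Finset.sum_sub_distrib, Finset.sum_add_distrib, mul_assoc, ← Finset.mul_sum]
  rw [sum_x1 U k ha, sum_x1 U k hb, sum_x2 U k ha hb hab, jS]
  ring

lemma N_share (U : Finset α) (k : ℕ) {a b d : α} (ha : a ∈ U) (hb : b ∈ U) (hd : d ∈ U)
    (hab : a ≠ b) (had : a ≠ d) (hbd : b ≠ d) :
    ∑ A ∈ U.powersetCard k, jphi A a b * jphi A a d = jS U k / 2 := by
  have h1 : ∀ A ∈ U.powersetCard k, jphi A a b * jphi A a d =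
      jx A a - jx A a * jx A d - jx A a * jx A b + jx A b * jx A d := by
    intro A _
    unfold jphi jx
    split_ifs <;> norm_num
  rw [Finset.sum_congr rfl h1]
  simp only [Finset.sum_sub_distrib, Finset.sum_add_distrib]
  rw [sum_x1 U k ha, sum_x2 U k ha hd had, sum_x2 U k ha hb hab, sum_x2 U k hb hd hbd, jS]
  ring

lemma N_disj (U : Finset α) (k : ℕ) {a b c d : α} (ha : a ∈ U) (hb : b ∈ U) (hc : c ∈ U)
    (hd : d ∈ U) (hab : a ≠ b) (hac : a ≠ c) (had : a ≠ d) (hbc : b ≠ c) (hbd : b ≠ d)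
    (hcd : c ≠ d) :
    ∑ A ∈ U.powersetCard k, jphi A a b * jphi A c d = jR U k := by
  have hcard : 4 ≤ U.card := by
    have hsub : ({a, b, c, d} : Finset α) ⊆ U := by
      intro x hx; simp only [Finset.mem_insert, Finset.mem_singleton] at hx
      rcases hx with rfl | rfl | rfl | rfl <;> assumption
    have hc4 : ({a, b, c, d} : Finset α).card = 4 := by
      rw [Finset.card_insert_of_notMem (by simp [hab, hac, had]),
        Finset.card_eq_three.2 ⟨b, c, d, hbc, hbd, hcd, rfl⟩]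
    exact hc4 ▸ Finset.card_le_card hsub
  have h1 : ∀ A ∈ U.powersetCard k, jphi A a b * jphi A c d =
      jx A a * jx A c + jx A a * jx A d + jx A b * jx A c + jx A b * jx A d
        - 2 * (jx A a * jx A c * jx A d) - 2 * (jx A b * jx A c * jx A d)
        - 2 * (jx A a * jx A b * jx A c) - 2 * (jx A a * jx A b * jx A d)
        + 4 * (jx A a * jx A b * jx A c * jx A d) := by
    intro A _
    unfold jphi
    ring
  rw [Finset.sum_congr rfl h1]
  simp only [Finset.sum_sub_distrib, Finset.sum_add_distrib, ← Finset.mul_sum]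
  rw [sum_x2 U k ha hc hac, sum_x2 U k ha hd had, sum_x2 U k hb hc hbc, sum_x2 U k hb hd hbd,
    sum_x3 U k ha hc hd hac had hcd, sum_x3 U k hb hc hd hbc hbd hcd,
    sum_x3 U k ha hb hc hab hac hbc, sum_x3 U k ha hb hd hab had hbd,
    sum_x4 U k ha hb hc hd hab hac had hbc hbd hcd, jR, if_pos hcard]
  ring

lemma N_formula (U : Finset α) (k : ℕ) {a b c d : α} (ha : a ∈ U) (hb : b ∈ U) (hc : c ∈ U)
    (hd : d ∈ U) (hab : a ≠ b) (hcd : c ≠ d) :
    ∑ A ∈ U.powersetCard k, jphi A a b * jphi A c d =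
      jR U k + (jS U k / 2 - jR U k) * (jd a c + jd a d + jd b c + jd b d)
        + jR U k * (jd a c * jd b d + jd a d * jd b c) := by
  by_cases h1 : a = c
  · subst h1
    by_cases h2 : b = d
    · subst h2
      have : ∀ A ∈ U.powersetCard k, jphi A a b * jphi A a b = jphi A a b :=
        fun A _ => jphi_mul_self A a b
      rw [Finset.sum_congr rfl this, N_same U k ha hb hab]
      simp [jd, hab, hab.symm]
      ring
    · rw [N_share U k ha hb hd hab hcd h2]
      simp [jd, hab, hab.symm, hcd, h2]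
  by_cases h3 : a = d
  · subst h3
    by_cases h2 : b = c
    · subst h2
      have : ∀ A ∈ U.powersetCard k, jphi A a b * jphi A b a = jphi A a b := by
        intro A _
        rw [jphi_comm A b a, jphi_mul_self]
      rw [Finset.sum_congr rfl this, N_same U k ha hb hab]
      simp [jd, hab, hab.symm]
      ring
    · have : ∀ A ∈ U.powersetCard k, jphi A a b * jphi A c a = jphi A a b * jphi A a c := by
        intro A _
        rw [jphi_comm A c a]
      rw [Finset.sum_congr rfl this, N_share U k ha hb hc hab h1 h2]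
      simp [jd, hab, hab.symm, h1, h2, hcd, Ne.symm hcd]
  by_cases h4 : b = c
  · subst h4
    have : ∀ A ∈ U.powersetCard k, jphi A a b * jphi A b d = jphi A b a * jphi A b d := by
      intro A _
      rw [jphi_comm A a b]
    rw [Finset.sum_congr rfl this, N_share U k hb ha hd hab.symm hcd h3]
    simp [jd, hab, hab.symm, h3, hcd]
  by_cases h5 : b = d
  · subst h5
    have : ∀ A ∈ U.powersetCard k, jphi A a b * jphi A c b = jphi A b a * jphi A b c := by
      intro A _
      rw [jphi_comm A a b, jphi_comm A c b]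
    rw [Finset.sum_congr rfl this, N_share U k hb ha hc hab.symm (Ne.symm hcd) h1]
    simp [jd, hab, hab.symm, h1, h4, hcd]
  rw [N_disj U k ha hb hc hd hab h1 h3 h4 h5 hcd]
  simp [jd, h1, h3, h4, h5]

lemma jS_nonneg (U : Finset α) (k : ℕ) (hU : 2 ≤ U.card) : 0 ≤ jS U k := by
  obtain ⟨a, ha⟩ : U.Nonempty := Finset.card_pos.1 (by omega)
  obtain ⟨b, hb⟩ : (U.erase a).Nonempty := Finset.card_pos.1 (by
    rw [Finset.card_erase_of_mem ha]; omega)
  have hb' := Finset.mem_erase.1 hb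
  rw [← N_same U k ha hb'.2 (Ne.symm hb'.1)]
  exact Finset.sum_nonneg fun A _ => jphi_nonneg A a b

lemma jR_bounds (U : Finset α) (k : ℕ) (hU : 2 ≤ U.card) : 0 ≤ jR U k ∧ jR U k ≤ jS U k := by
  by_cases h4 : 4 ≤ U.card
  · obtain ⟨a, ha⟩ : U.Nonempty := Finset.card_pos.1 (by omega)
    have c1 : (U.erase a).card = U.card - 1 := Finset.card_erase_of_mem ha
    obtain ⟨b, hb⟩ : (U.erase a).Nonempty := Finset.card_pos.1 (by omega)
    have c2 : ((U.erase a).erase b).card = U.card - 2 := by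
      rw [Finset.card_erase_of_mem hb, c1]; omega
    obtain ⟨c, hc⟩ : ((U.erase a).erase b).Nonempty := Finset.card_pos.1 (by omega)
    have c3 : (((U.erase a).erase b).erase c).card = U.card - 3 := by
      rw [Finset.card_erase_of_mem hc, c2]; omega
    obtain ⟨d, hd⟩ : (((U.erase a).erase b).erase c).Nonempty := Finset.card_pos.1 (by omega)
    simp only [Finset.mem_erase] at hb hc hd
    obtain ⟨hba, hbU⟩ := hb
    obtain ⟨hcb, hca, hcU⟩ := hc
    obtain ⟨hdc, hdb, hda, hdU⟩ := hd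
    have e := N_disj U k ha hbU hcU hdU (Ne.symm hba) (Ne.symm hca) (Ne.symm hda) (Ne.symm hcb)
      (Ne.symm hdb) (Ne.symm hdc)
    constructor
    · rw [← e]
      exact Finset.sum_nonneg fun A _ => mul_nonneg (jphi_nonneg A a b) (jphi_nonneg A c d)
    · have e1 := N_share U k ha hbU hcU (Ne.symm hba) (Ne.symm hca) (Ne.symm hcb)
      have e2 := N_share U k ha hbU hdU (Ne.symm hba) (Ne.symm hda) (Ne.symm hdb)
      have hle : ∑ A ∈ U.powersetCard k, jphi A a b * jphi A c d ≤
          ∑ A ∈ U.powersetCard k, (jphi A a b * jphi A a c + jphi A a b * jphi A a d) := by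
        refine Finset.sum_le_sum fun A _ => ?_
        unfold jphi jx
        split_ifs <;> norm_num
      rw [Finset.sum_add_distrib, e1, e2, e] at hle
      linarith
  · have : jR U k = 0 := by simp [jR, h4]
    rw [this]
    exact ⟨le_refl _, jS_nonneg U k hU⟩


/-! ### The Gram bound -/

lemma W_bound (U : Finset α) (T : α → α → ℝ) (hs : ∀ a b, T a b = T b a) (h0 : ∀ a, T a a = 0)
    (hsum : ∑ a ∈ U, ∑ b ∈ U, T a b = 0) (hm : 2 ≤ U.card) :
    2 * ∑ a ∈ U, (∑ b ∈ U, T a b) ^ 2 ≤ ((U.card : ℝ) - 2) * ∑ a ∈ U, ∑ b ∈ U, T a b ^ 2 := by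
  set u : α → ℝ := fun a => ∑ b ∈ U, T a b with hu
  set W : ℝ := ∑ a ∈ U, u a ^ 2 with hW
  set Q : ℝ := ∑ a ∈ U, ∑ b ∈ U, T a b ^ 2 with hQ
  have hm' : (2 : ℝ) ≤ U.card := by exact_mod_cast hm
  have hW0 : 0 ≤ W := Finset.sum_nonneg fun _ _ => sq_nonneg _
  have hQ0 : 0 ≤ Q := Finset.sum_nonneg fun _ _ => Finset.sum_nonneg fun _ _ => sq_nonneg _
  have hsumu : ∑ a ∈ U, u a = 0 := hsum
  -- the first moment
  have e1 : ∑ a ∈ U, ∑ b ∈ U, T a b * u a = W := by
    refine Finset.sum_congr rfl fun a _ => ?_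
    rw [← Finset.sum_mul, sq]
  have e2 : ∑ a ∈ U, ∑ b ∈ U, T a b * u b = W := by
    rw [Finset.sum_comm]
    refine Finset.sum_congr rfl fun b _ => ?_
    rw [← Finset.sum_mul, sq]
    congr 1
    exact Finset.sum_congr rfl fun a _ => hs a b
  set v : α × α → ℝ := fun p => if p.1 = p.2 then 0 else u p.1 + u p.2 with hv
  have e3 : ∑ p ∈ U ×ˢ U, T p.1 p.2 * v p = 2 * W := by
    rw [Finset.sum_product]
    have : ∀ a ∈ U, ∀ b ∈ U, T a b * v (a, b) = T a b * u a + T a b * u b := by
      intro a _ b _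
      by_cases hab : a = b
      · subst hab
        simp [h0]
      · simp [hv, hab]
        ring
    rw [Finset.sum_congr rfl fun a ha => Finset.sum_congr rfl fun b hb => this a ha b hb]
    simp only [Finset.sum_add_distrib]
    rw [e1, e2]
    ring
  have e4 : ∑ p ∈ U ×ˢ U, T p.1 p.2 ^ 2 = Q := Finset.sum_product _ _ _
  have e5 : ∑ p ∈ U ×ˢ U, v p ^ 2 = (2 * (U.card : ℝ) - 4) * W := by
    rw [Finset.sum_product]
    have : ∀ a ∈ U, ∑ b ∈ U, v (a, b) ^ 2 =
        (U.card : ℝ) * u a ^ 2 + 2 * u a * ∑ b ∈ U, u b + W - 4 * u a ^ 2 := by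
      intro a ha
      have h1 : ∀ b ∈ U, v (a, b) ^ 2 = (u a + u b) ^ 2 - if a = b then 4 * u a ^ 2 else 0 := by
        intro b _
        by_cases hab : a = b
        · subst hab
          simp [hv]
          ring
        · simp [hv, hab]
      rw [Finset.sum_congr rfl h1, Finset.sum_sub_distrib, Finset.sum_ite_eq, if_pos ha]
      have h2 : ∀ b ∈ U, (u a + u b) ^ 2 = u a ^ 2 + 2 * u a * u b + u b ^ 2 := by
        intro b _
        ring
      rw [Finset.sum_congr rfl h2, Finset.sum_add_distrib, Finset.sum_add_distrib,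
        Finset.sum_const, nsmul_eq_mul, ← Finset.mul_sum]
    rw [Finset.sum_congr rfl this, hsumu]
    simp only [mul_zero, add_zero, Finset.sum_sub_distrib, Finset.sum_add_distrib,
      Finset.sum_const, nsmul_eq_mul, ← Finset.mul_sum]
    rw [← hW]
    ring
  have hcs := Finset.sum_mul_sq_le_sq_mul_sq (U ×ˢ U) (fun p => T p.1 p.2) v
  rw [e3, e4, e5] at hcs
  by_cases hWz : W = 0
  · rw [hWz]
    have : 0 ≤ ((U.card : ℝ) - 2) * Q := mul_nonneg (by linarith) hQ0
    linarith
  · have hpos : 0 < W := lt_of_le_of_ne hW0 (Ne.symm hWz)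
    have : (2 * W) * W ≤ (((U.card : ℝ) - 2) * Q) * W := by nlinarith
    exact le_of_mul_le_mul_right this hpos

section Gram

variable (U : Finset α) (k : ℕ) (g : Finset α → ℝ)

/-- The separation sums. -/
noncomputable def jT (a b : α) : ℝ := ∑ A ∈ U.powersetCard k, g A * jphi A a b

lemma jT_comm (a b : α) : jT U k g a b = jT U k g b a := by
  unfold jT
  exact Finset.sum_congr rfl fun A _ => by rw [jphi_comm]

lemma jT_self (a : α) : jT U k g a a = 0 := by
  unfold jT
  exact Finset.sum_eq_zero fun A _ => by rw [jphi_self, mul_zero]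

lemma sum_jx (A : Finset α) (hA : A ⊆ U) : ∑ a ∈ U, jx A a = (A.card : ℝ) := by
  simp only [jx]
  rw [Finset.sum_boole, Finset.filter_mem_eq_inter, Finset.inter_eq_right.2 hA]

lemma jT_sum (hg : ∑ A ∈ U.powersetCard k, g A = 0) :
    ∑ a ∈ U, ∑ b ∈ U, jT U k g a b = 0 := by
  unfold jT
  have h1 : ∑ a ∈ U, ∑ b ∈ U, ∑ A ∈ U.powersetCard k, g A * jphi A a b =
      ∑ A ∈ U.powersetCard k, g A * ∑ a ∈ U, ∑ b ∈ U, jphi A a b := by
    simp only [Finset.mul_sum]
    calc ∑ a ∈ U, ∑ b ∈ U, ∑ A ∈ U.powersetCard k, g A * jphi A a b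
        = ∑ a ∈ U, ∑ A ∈ U.powersetCard k, ∑ b ∈ U, g A * jphi A a b :=
          Finset.sum_congr rfl fun a _ => Finset.sum_comm
      _ = ∑ A ∈ U.powersetCard k, ∑ a ∈ U, ∑ b ∈ U, g A * jphi A a b := Finset.sum_comm
  rw [h1]
  have h2 : ∀ A ∈ U.powersetCard k, g A * ∑ a ∈ U, ∑ b ∈ U, jphi A a b =
      (2 * (U.card : ℝ) * k - 2 * k ^ 2) * g A := by
    intro A hA
    rw [Finset.mem_powersetCard] at hA
    have hx := sum_jx U A hA.1
    rw [hA.2] at hx
    have : ∑ a ∈ U, ∑ b ∈ U, jphi A a b = 2 * (U.card : ℝ) * k - 2 * k ^ 2 := by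
      simp only [jphi, Finset.sum_sub_distrib, Finset.sum_add_distrib, Finset.sum_const,
        nsmul_eq_mul, mul_assoc, ← Finset.mul_sum, hx]
      rw [← Finset.sum_mul, hx]
      ring
    rw [this]
    ring
  rw [Finset.sum_congr rfl h2, ← Finset.mul_sum, hg, mul_zero]

/-- The dual function. -/
noncomputable def jG (A : Finset α) : ℝ := ∑ a ∈ U, ∑ b ∈ U, jT U k g a b * jphi A a b

lemma jQ_eq : ∑ a ∈ U, ∑ b ∈ U, jT U k g a b ^ 2 =
    ∑ A ∈ U.powersetCard k, g A * jG U k g A := by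
  unfold jG
  simp only [Finset.mul_sum]
  have : ∑ A ∈ U.powersetCard k, ∑ a ∈ U, ∑ b ∈ U, g A * (jT U k g a b * jphi A a b) =
      ∑ a ∈ U, ∑ b ∈ U, ∑ A ∈ U.powersetCard k, g A * (jT U k g a b * jphi A a b) := by
    calc _ = ∑ a ∈ U, ∑ A ∈ U.powersetCard k, ∑ b ∈ U, g A * (jT U k g a b * jphi A a b) :=
          Finset.sum_comm
      _ = _ := Finset.sum_congr rfl fun a _ => Finset.sum_comm
  rw [this]
  refine Finset.sum_congr rfl fun a _ => Finset.sum_congr rfl fun b _ => ?_
  have e : jT U k g a b ^ 2 = (∑ A ∈ U.powersetCard k, g A * jphi A a b) * jT U k g a b := by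
    rw [sq]
    rfl
  rw [e, Finset.sum_mul]
  refine Finset.sum_congr rfl fun A _ => ?_
  ring

lemma jG_norm (hg : ∑ A ∈ U.powersetCard k, g A = 0) :
    ∑ A ∈ U.powersetCard k, jG U k g A ^ 2 =
      (2 * jS U k - 4 * jR U k) * ∑ a ∈ U, (∑ b ∈ U, jT U k g a b) ^ 2 +
        2 * jR U k * ∑ a ∈ U, ∑ b ∈ U, jT U k g a b ^ 2 := by
  set T := jT U k g with hT
  set S := jS U k
  set R := jR U k
  set u : α → ℝ := fun a => ∑ b ∈ U, T a b with hu
  have hsum : ∑ a ∈ U, ∑ b ∈ U, T a b = 0 := jT_sum U k g hg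
  have hsym : ∀ a b, T a b = T b a := jT_comm U k g
  -- expansion
  have h1 : ∀ A ∈ U.powersetCard k, jG U k g A ^ 2 =
      ∑ a ∈ U, ∑ b ∈ U, ∑ c ∈ U, ∑ d ∈ U,
        T a b * T c d * (jphi A a b * jphi A c d) := by
    intro A _
    rw [sq]
    unfold jG
    rw [Finset.sum_mul]
    refine Finset.sum_congr rfl fun a _ => ?_
    rw [Finset.sum_mul]
    refine Finset.sum_congr rfl fun b _ => ?_
    rw [Finset.mul_sum]
    refine Finset.sum_congr rfl fun c _ => ?_
    rw [Finset.mul_sum]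
    refine Finset.sum_congr rfl fun d _ => ?_
    ring
  rw [Finset.sum_congr rfl h1]
  have h2 : ∑ A ∈ U.powersetCard k, ∑ a ∈ U, ∑ b ∈ U, ∑ c ∈ U, ∑ d ∈ U,
        T a b * T c d * (jphi A a b * jphi A c d) =
      ∑ a ∈ U, ∑ b ∈ U, ∑ c ∈ U, ∑ d ∈ U,
        T a b * T c d * ∑ A ∈ U.powersetCard k, jphi A a b * jphi A c d := by
    calc _ = ∑ a ∈ U, ∑ A ∈ U.powersetCard k, ∑ b ∈ U, ∑ c ∈ U, ∑ d ∈ U,
          T a b * T c d * (jphi A a b * jphi A c d) := Finset.sum_comm
      _ = ∑ a ∈ U, ∑ b ∈ U, ∑ A ∈ U.powersetCard k, ∑ c ∈ U, ∑ d ∈ U,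
          T a b * T c d * (jphi A a b * jphi A c d) :=
        Finset.sum_congr rfl fun a _ => Finset.sum_comm
      _ = ∑ a ∈ U, ∑ b ∈ U, ∑ c ∈ U, ∑ A ∈ U.powersetCard k, ∑ d ∈ U,
          T a b * T c d * (jphi A a b * jphi A c d) :=
        Finset.sum_congr rfl fun a _ => Finset.sum_congr rfl fun b _ => Finset.sum_comm
      _ = ∑ a ∈ U, ∑ b ∈ U, ∑ c ∈ U, ∑ d ∈ U, ∑ A ∈ U.powersetCard k,
          T a b * T c d * (jphi A a b * jphi A c d) :=
        Finset.sum_congr rfl fun a _ => Finset.sum_congr rfl fun b _ =>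
          Finset.sum_congr rfl fun c _ => Finset.sum_comm
      _ = _ := by
        refine Finset.sum_congr rfl fun a _ => Finset.sum_congr rfl fun b _ =>
          Finset.sum_congr rfl fun c _ => Finset.sum_congr rfl fun d _ => ?_
        rw [Finset.mul_sum]
  rw [h2]
  -- the inner sums
  have h3 : ∀ a ∈ U, ∀ b ∈ U, ∑ c ∈ U, ∑ d ∈ U,
      T a b * T c d * ∑ A ∈ U.powersetCard k, jphi A a b * jphi A c d =
      T a b * ((S / 2 - R) * (2 * (u a + u b)) + R * (2 * T a b)) := by
    intro a ha b hb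
    by_cases hab : a = b
    · subst hab
      simp [hT, jT_self]
    have h4 : ∀ c ∈ U, ∀ d ∈ U,
        T a b * T c d * ∑ A ∈ U.powersetCard k, jphi A a b * jphi A c d =
        T a b * (R * T c d + (S / 2 - R) *
          (T c d * jd a c + T c d * jd a d + T c d * jd b c + T c d * jd b d) +
          R * (T c d * (jd a c * jd b d) + T c d * (jd a d * jd b c))) := by
      intro c hc d hd
      by_cases hcd : c = d
      · subst hcd
        simp [hT, jT_self]
      · rw [N_formula U k ha hb hc hd hab hcd]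
        ring
    rw [Finset.sum_congr rfl fun c hc => Finset.sum_congr rfl fun d hd => h4 c hc d hd]
    simp only [← Finset.mul_sum]
    congr 1
    simp only [Finset.sum_add_distrib, ← Finset.mul_sum]
    have e0 := hsum
    have e1 : ∑ c ∈ U, ∑ d ∈ U, T c d * jd a c = u a := by
      simp only [← Finset.sum_mul]
      simp [jd, ha, hu]
    have e2 : ∑ c ∈ U, ∑ d ∈ U, T c d * jd a d = u a := by
      have : ∀ c ∈ U, ∑ d ∈ U, T c d * jd a d = T a c := by
        intro c _
        simp only [jd, mul_ite, mul_one, mul_zero, Finset.sum_ite_eq, ha, if_true]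
        exact hsym c a
      rw [Finset.sum_congr rfl this]
    have e3 : ∑ c ∈ U, ∑ d ∈ U, T c d * jd b c = u b := by
      simp only [← Finset.sum_mul]
      simp [jd, hb, hu]
    have e4 : ∑ c ∈ U, ∑ d ∈ U, T c d * jd b d = u b := by
      have : ∀ c ∈ U, ∑ d ∈ U, T c d * jd b d = T b c := by
        intro c _
        simp only [jd, mul_ite, mul_one, mul_zero, Finset.sum_ite_eq, hb, if_true]
        exact hsym c b
      rw [Finset.sum_congr rfl this]
    have e5 : ∑ c ∈ U, ∑ d ∈ U, T c d * (jd a c * jd b d) = T a b := by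
      have : ∀ c ∈ U, ∑ d ∈ U, T c d * (jd a c * jd b d) = T c b * jd a c := by
        intro c _
        simp only [jd, mul_ite, mul_one, mul_zero, Finset.sum_ite_eq, hb, if_true, ite_mul,
          zero_mul, one_mul]
      rw [Finset.sum_congr rfl this]
      simp [jd, ha]
    have e6 : ∑ c ∈ U, ∑ d ∈ U, T c d * (jd a d * jd b c) = T a b := by
      have : ∀ c ∈ U, ∑ d ∈ U, T c d * (jd a d * jd b c) = T c a * jd b c := by
        intro c _
        simp only [jd, mul_ite, mul_one, mul_zero, Finset.sum_ite_eq, ha, if_true, ite_mul,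
          zero_mul, one_mul]
        by_cases hbc : b = c <;> simp [hbc, ha]
      rw [Finset.sum_congr rfl this]
      simp [jd, hb]
      exact hsym b a
    rw [e0, e1, e2, e3, e4, e5, e6]
    ring
  rw [Finset.sum_congr rfl fun a ha => Finset.sum_congr rfl fun b hb => h3 a ha b hb]
  have e7 : ∑ a ∈ U, ∑ b ∈ U, T a b * u a = ∑ a ∈ U, u a ^ 2 := by
    refine Finset.sum_congr rfl fun a _ => ?_
    rw [← Finset.sum_mul, sq]
  have e8 : ∑ a ∈ U, ∑ b ∈ U, T a b * u b = ∑ a ∈ U, u a ^ 2 := by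
    rw [Finset.sum_comm]
    refine Finset.sum_congr rfl fun b _ => ?_
    rw [← Finset.sum_mul, sq]
    congr 1
    exact Finset.sum_congr rfl fun a _ => hsym a b
  have e9 : ∀ a ∈ U, ∀ b ∈ U, T a b * ((S / 2 - R) * (2 * (u a + u b)) + R * (2 * T a b)) =
      (S - 2 * R) * (T a b * u a) + (S - 2 * R) * (T a b * u b) + 2 * R * T a b ^ 2 := by
    intro a _ b _
    ring
  rw [Finset.sum_congr rfl fun a ha => Finset.sum_congr rfl fun b hb => e9 a ha b hb]
  simp only [Finset.sum_add_distrib, ← Finset.mul_sum]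
  rw [e7, e8]
  ring

/-- (J2) in the form `Q ≤ (m-2) S V`. -/
lemma jQ_le (hg : ∑ A ∈ U.powersetCard k, g A = 0) (hm : 2 ≤ U.card) :
    ∑ a ∈ U, ∑ b ∈ U, jT U k g a b ^ 2 ≤
      ((U.card : ℝ) - 2) * jS U k * ∑ A ∈ U.powersetCard k, g A ^ 2 := by
  set Q := ∑ a ∈ U, ∑ b ∈ U, jT U k g a b ^ 2 with hQ
  set V := ∑ A ∈ U.powersetCard k, g A ^ 2 with hV
  set W := ∑ a ∈ U, (∑ b ∈ U, jT U k g a b) ^ 2 with hW
  have hS := jS_nonneg U k hm
  obtain ⟨hR0, hRS⟩ := jR_bounds U k hm
  have hm' : (2 : ℝ) ≤ U.card := by exact_mod_cast hm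
  have hWb : 2 * W ≤ ((U.card : ℝ) - 2) * Q :=
    W_bound U (jT U k g) (jT_comm U k g) (jT_self U k g) (jT_sum U k g hg) hm
  have hQ0 : 0 ≤ Q := Finset.sum_nonneg fun _ _ => Finset.sum_nonneg fun _ _ => sq_nonneg _
  have hW0 : 0 ≤ W := Finset.sum_nonneg fun _ _ => sq_nonneg _
  have hV0 : 0 ≤ V := Finset.sum_nonneg fun _ _ => sq_nonneg _
  have hcs : Q ^ 2 ≤ V * ∑ A ∈ U.powersetCard k, jG U k g A ^ 2 := by
    rw [hQ, jQ_eq U k g]
    exact Finset.sum_mul_sq_le_sq_mul_sq _ _ _
  rw [jG_norm U k g hg] at hcs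
  have hG : (2 * jS U k - 4 * jR U k) * W + 2 * jR U k * Q ≤
      ((U.card : ℝ) - 2) * jS U k * Q := by
    by_cases hc : 0 ≤ 2 * jS U k - 4 * jR U k
    · have h1 : (2 * jS U k - 4 * jR U k) * (2 * W) ≤
          (2 * jS U k - 4 * jR U k) * (((U.card : ℝ) - 2) * Q) :=
        mul_le_mul_of_nonneg_left hWb hc
      by_cases h4 : 4 ≤ U.card
      · have h4' : (4 : ℝ) ≤ U.card := by exact_mod_cast h4
        have : 0 ≤ jR U k * (((U.card : ℝ) - 3) * Q) :=
          mul_nonneg hR0 (mul_nonneg (by linarith) hQ0)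
        nlinarith
      · have hz : jR U k = 0 := by simp [jR, h4]
        rw [hz] at h1 ⊢
        nlinarith
    · push Not at hc
      have h1 : (2 * jS U k - 4 * jR U k) * W ≤ 0 :=
        mul_nonpos_of_nonpos_of_nonneg hc.le hW0
      have hRpos : 0 < jR U k := by linarith
      have h4 : 4 ≤ U.card := by
        by_contra h4
        have hz : jR U k = 0 := by simp [jR, h4]
        linarith
      have h4' : (4 : ℝ) ≤ U.card := by exact_mod_cast h4
      have h2 : 2 * jR U k ≤ ((U.card : ℝ) - 2) * jS U k := by nlinarith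
      nlinarith [mul_le_mul_of_nonneg_right h2 hQ0]
  have hfin : Q * Q ≤ (((U.card : ℝ) - 2) * jS U k * V) * Q := by
    have := mul_le_mul_of_nonneg_left hG hV0
    nlinarith
  by_cases hQz : Q = 0
  · rw [hQz]
    exact mul_nonneg (mul_nonneg (by linarith) hS) hV0
  · have hpos : 0 < Q := lt_of_le_of_ne hQ0 (Ne.symm hQz)
    exact le_of_mul_le_mul_right hfin hpos

end Gram

/-- `johnsonZ` in terms of `jT`. -/
lemma johnsonZ_eq (U : Finset α) (k : ℕ) (h : Finset α → ℝ) {w z : α} (hw : w ∈ U) (hz : z ∈ U)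
    (hwz : w ≠ z) :
    johnsonZ U k h w z = jT U k (fun A => h A -
      (∑ B ∈ U.powersetCard k, h B) / (U.powersetCard k).card) w z ^ 2 / jS U k := by
  unfold johnsonZ jT
  have h1 : ((sepSets U k w z).card : ℝ) = jS U k := by
    rw [← N_same U k hw hz hwz, sepSets, Finset.card_filter]
    push_cast
    exact Finset.sum_congr rfl fun A _ => jphi_eq_sep A w z
  have h2 : ∑ A ∈ sepSets U k w z,
      (h A - (∑ B ∈ U.powersetCard k, h B) / (U.powersetCard k).card) =
      ∑ A ∈ U.powersetCard k,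
        (h A - (∑ B ∈ U.powersetCard k, h B) / (U.powersetCard k).card) * jphi A w z := by
    rw [sepSets, Finset.sum_filter]
    refine Finset.sum_congr rfl fun A _ => ?_
    rw [← jphi_eq_sep]
    split_ifs <;> simp
  rw [h1, h2]

/-- (J2) for the `johnsonZ`. -/
lemma sum_johnsonZ_le (U : Finset α) (k : ℕ) (h : Finset α → ℝ) (hm : 2 ≤ U.card) :
    ∑ w ∈ U, ∑ z ∈ U, (if w = z then 0 else johnsonZ U k h w z) ≤
      ((U.card : ℝ) - 2) * johnsonVar U k h := by
  set g : Finset α → ℝ := fun A => h A -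
      (∑ B ∈ U.powersetCard k, h B) / (U.powersetCard k).card with hg
  have hgm : ∑ A ∈ U.powersetCard k, g A = 0 := mean_zero U k h
  have hV : johnsonVar U k h = ∑ A ∈ U.powersetCard k, g A ^ 2 := rfl
  have hm' : (2 : ℝ) ≤ U.card := by exact_mod_cast hm
  have hV0 : 0 ≤ johnsonVar U k h := Finset.sum_nonneg fun _ _ => sq_nonneg _
  have hS := jS_nonneg U k hm
  have h1 : ∀ w ∈ U, ∀ z ∈ U, (if w = z then 0 else johnsonZ U k h w z) =
      jT U k g w z ^ 2 / jS U k := by
    intro w hw z hz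
    by_cases hwz : w = z
    · subst hwz
      simp [jT_self]
    · rw [if_neg hwz, johnsonZ_eq U k h hw hz hwz]
  rw [Finset.sum_congr rfl fun w hw => Finset.sum_congr rfl fun z hz => h1 w hw z hz]
  simp only [← Finset.sum_div]
  by_cases hS0 : jS U k = 0
  · rw [hS0]
    simp only [div_zero]
    exact mul_nonneg (by linarith) hV0
  · have hpos : 0 < jS U k := lt_of_le_of_ne hS (Ne.symm hS0)
    rw [div_le_iff₀ hpos]
    have := jQ_le U k g hgm hm
    rw [← hV] at this
    linarith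

/-- The key inequality: with `J1`: `(1/2) ∑_{w≠z} johnsonD ≥ m * johnsonVar`, and `J2`:
`∑_{w≠z} johnsonZ ≤ (m - 2) * johnsonVar`, so
`∑_{w≠z} (D - 2 Z) ≥ 2 m Var - 2 (m - 2) Var = 4 Var`. -/
theorem johnson_key (U : Finset α) (k : ℕ) (h : Finset α → ℝ) :
    4 * johnsonVar U k h ≤
      ∑ w ∈ U, ∑ z ∈ U, if w = z then 0 else johnsonD U k h w z - 2 * johnsonZ U k h w z := by
  by_cases hm : 2 ≤ U.card
  · have h1 := johnson_gap U k h
    have h2 := sum_johnsonZ_le U k h hm
    have h3 : ∑ w ∈ U, ∑ z ∈ U, (if w = z then 0 else johnsonD U k h w z - 2 * johnsonZ U k h w z) =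
        ∑ w ∈ U, ∑ z ∈ U, (if w = z then 0 else johnsonD U k h w z) -
          2 * ∑ w ∈ U, ∑ z ∈ U, (if w = z then 0 else johnsonZ U k h w z) := by
      rw [Finset.mul_sum, ← Finset.sum_sub_distrib]
      refine Finset.sum_congr rfl fun w _ => ?_
      rw [Finset.mul_sum, ← Finset.sum_sub_distrib]
      refine Finset.sum_congr rfl fun z _ => ?_
      by_cases hwz : w = z <;> simp [hwz]
    rw [h3]
    linarith
  · -- at most one element: the variance vanishes and there are no pairs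
    have hc : U.card ≤ 1 := by omega
    have h0 : ∑ w ∈ U, ∑ z ∈ U, (if w = z then (0 : ℝ) else
        johnsonD U k h w z - 2 * johnsonZ U k h w z) = 0 := by
      refine Finset.sum_eq_zero fun w hw => Finset.sum_eq_zero fun z hz => ?_
      rw [if_pos (Finset.card_le_one.1 hc w hw z hz)]
    rw [h0]
    have h1 := johnson_gap U k h
    have h2 : ∑ w ∈ U, ∑ z ∈ U, (if w = z then (0 : ℝ) else johnsonD U k h w z) = 0 := by
      refine Finset.sum_eq_zero fun w hw => Finset.sum_eq_zero fun z hz => ?_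
      rw [if_pos (Finset.card_le_one.1 hc w hw z hz)]
    rw [h2] at h1
    have hV0 : 0 ≤ johnsonVar U k h := Finset.sum_nonneg fun _ _ => sq_nonneg _
    -- variance is zero since there is at most one `k`-subset
    have hJ : (U.powersetCard k).card ≤ 1 := by
      rw [Finset.card_powersetCard]
      have hc01 : U.card = 0 ∨ U.card = 1 := by omega
      rcases hc01 with hc0 | hc1
      · rw [hc0]
        cases k <;> simp
      · rw [hc1]
        rcases k with _ | _ | k <;> simp [Nat.choose]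
    have hVz : johnsonVar U k h = 0 := by
      unfold johnsonVar
      refine Finset.sum_eq_zero fun A hA => ?_
      have hPc : U.powersetCard k = {A} := by
        rw [Finset.eq_singleton_iff_unique_mem]
        exact ⟨hA, fun B hB => Finset.card_le_one.1 hJ B hB A hA⟩
      rw [hPc]
      simp
    rw [hVz]
    norm_num

end Vale.Agent.Lib.P335
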