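import Vale.Agent.Lib.P335.Disj
import Vale.Agent.Lib.P335.Johnson
set_option linter.unusedSectionVars false
set_option linter.unusedVariables false
set_option linter.unusedSimpArgs false

/-!
The sum over the switches seen from one block: the fibers of a block are Johnson schemes.
-/

namespace Vale.Agent.Lib.P335

open Finset

variable {V : Type*} [Fintype V] [DecidableEq V]

section Fiber

variable (u v : V)

/-- The columns on which exactly one of `u, v` is adjacent. -/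
def uU (G : Finset (Sym2 V)) : Finset V :=
  univ.filter fun y => y ≠ u ∧ y ≠ v ∧ ed G u y + ed G v y = 1

/-- The columns of `U` adjacent to `u`. -/
def aOf (U : Finset V) (G : Finset (Sym2 V)) : Finset V := U.filter fun y => s(u, y) ∈ G

/-- The graph obtained from `G0` by prescribing the stripe of `U` through `A`. -/
def gA (U A : Finset V) (G0 : Finset (Sym2 V)) : Finset (Sym2 V) :=
  (G0 \ stripe u v U) ∪ (A.image fun y => s(u, y)) ∪ ((U \ A).image fun y => s(v, y))

variable {u v}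

lemma mem_uU {G : Finset (Sym2 V)} {y : V} :
    y ∈ uU u v G ↔ y ≠ u ∧ y ≠ v ∧ ed G u y + ed G v y = 1 := by
  simp [uU]

lemma mem_gA {U A : Finset V} {G0 : Finset (Sym2 V)} {e : Sym2 V} :
    e ∈ gA u v U A G0 ↔ (e ∈ G0 ∧ e ∉ stripe u v U) ∨ (∃ y ∈ A, s(u, y) = e) ∨
      (∃ y ∈ U \ A, s(v, y) = e) := by
  simp only [gA, mem_union, mem_sdiff, mem_image, or_assoc]

lemma mem_gA_off {U A : Finset V} (hA : A ⊆ U) {G0 : Finset (Sym2 V)} {e : Sym2 V}
    (he : e ∉ stripe u v U) : e ∈ gA u v U A G0 ↔ e ∈ G0 := by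
  rw [mem_gA]
  constructor
  · rintro (⟨h, -⟩ | ⟨y, hy, rfl⟩ | ⟨y, hy, rfl⟩)
    · exact h
    · exact absurd (mk_mem_stripe.2 (Or.inl ⟨Or.inl rfl, hA hy⟩)) he
    · exact absurd (mk_mem_stripe.2 (Or.inl ⟨Or.inr rfl, (mem_sdiff.1 hy).1⟩)) he
  · exact fun h => Or.inl ⟨h, he⟩

lemma mem_gA_u (huv : u ≠ v) {U A : Finset V} (hU : ∀ y ∈ U, y ≠ u ∧ y ≠ v) (hA : A ⊆ U)
    {G0 : Finset (Sym2 V)} {y : V} (hy : y ∈ U) : s(u, y) ∈ gA u v U A G0 ↔ y ∈ A := by
  rw [mem_gA]
  constructor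
  · rintro (⟨-, h⟩ | ⟨y', hy', h⟩ | ⟨y', hy', h⟩)
    · exact absurd (mk_mem_stripe.2 (Or.inl ⟨Or.inl rfl, hy⟩)) h
    · rcases Sym2.eq_iff.1 h with ⟨-, rfl⟩ | ⟨h1, h2⟩
      · exact hy'
      · exact absurd h1.symm (hU y hy).1
    · have hy2 := (mem_sdiff.1 hy').1
      rcases Sym2.eq_iff.1 h with ⟨h1, -⟩ | ⟨h1, h2⟩
      · exact absurd h1.symm huv
      · exact absurd h1.symm (hU y hy).2
  · exact fun h => Or.inr (Or.inl ⟨y, h, rfl⟩)

lemma mem_gA_v (huv : u ≠ v) {U A : Finset V} (hU : ∀ y ∈ U, y ≠ u ∧ y ≠ v) (hA : A ⊆ U)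
    {G0 : Finset (Sym2 V)} {y : V} (hy : y ∈ U) : s(v, y) ∈ gA u v U A G0 ↔ y ∉ A := by
  rw [mem_gA]
  constructor
  · rintro (⟨-, h⟩ | ⟨y', hy', h⟩ | ⟨y', hy', h⟩)
    · exact absurd (mk_mem_stripe.2 (Or.inl ⟨Or.inr rfl, hy⟩)) h
    · rcases Sym2.eq_iff.1 h with ⟨h1, -⟩ | ⟨h1, h2⟩
      · exact absurd h1 huv
      · exact absurd h1.symm (hU y hy).1
    · rcases Sym2.eq_iff.1 h with ⟨-, rfl⟩ | ⟨h1, h2⟩
      · exact (mem_sdiff.1 hy').2
      · exact absurd h1.symm (hU y hy).2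
  · exact fun h => Or.inr (Or.inr ⟨y, mem_sdiff.2 ⟨hy, h⟩, rfl⟩)

lemma ed_gA_u (huv : u ≠ v) {U A : Finset V} (hU : ∀ y ∈ U, y ≠ u ∧ y ≠ v) (hA : A ⊆ U)
    {G0 : Finset (Sym2 V)} {y : V} (hy : y ∈ U) :
    ed (gA u v U A G0) u y = if y ∈ A then 1 else 0 := by
  simp only [ed, mem_gA_u huv hU hA hy]

lemma ed_gA_v (huv : u ≠ v) {U A : Finset V} (hU : ∀ y ∈ U, y ≠ u ∧ y ≠ v) (hA : A ⊆ U)
    {G0 : Finset (Sym2 V)} {y : V} (hy : y ∈ U) :
    ed (gA u v U A G0) v y = if y ∈ A then 0 else 1 := by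
  simp only [ed, mem_gA_v huv hU hA hy]
  by_cases h : y ∈ A <;> simp [h]

lemma ed_gA_off {U A : Finset V} (hA : A ⊆ U) {G0 : Finset (Sym2 V)} {a b : V}
    (h : s(a, b) ∉ stripe u v U) : ed (gA u v U A G0) a b = ed G0 a b :=
  ed_eq_of_mem_iff (mem_gA_off hA h)

lemma uU_ne (G : Finset (Sym2 V)) : ∀ y ∈ uU u v G, y ≠ u ∧ y ≠ v := by
  intro y hy
  have := mem_uU.1 hy
  exact ⟨this.1, this.2.1⟩

lemma not_stripe_of {U : Finset V} (hU : ∀ y ∈ U, y ≠ u ∧ y ≠ v) {a b : V}
    (h1 : ¬ (a = u ∨ a = v) ∨ b ∉ U) (h2 : ¬ (b = u ∨ b = v) ∨ a ∉ U) :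
    s(a, b) ∉ stripe u v U := by
  rw [mk_mem_stripe]
  rintro (⟨h3, h4⟩ | ⟨h3, h4⟩)
  · rcases h1 with h1 | h1
    · exact h1 h3
    · exact h1 h4
  · rcases h2 with h2 | h2
    · exact h2 h3
    · exact h2 h4

lemma ed_sum_one {G : Finset (Sym2 V)} {y : V} (h : ed G u y + ed G v y = 1) :
    (s(u, y) ∈ G ∧ s(v, y) ∉ G) ∨ (s(u, y) ∉ G ∧ s(v, y) ∈ G) := by
  unfold ed at h
  by_cases h1 : s(u, y) ∈ G <;> by_cases h2 : s(v, y) ∈ G <;> simp [h1, h2] at h ⊢

/-- The degrees of `gA`. -/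
lemma deg_gA (huv : u ≠ v) {d : V → ℕ} {G0 : Finset (Sym2 V)} (hG0 : G0 ∈ Omega d) {A : Finset V}
    (hA : A ⊆ uU u v G0) (hc : A.card = (aOf u (uU u v G0) G0).card) (x : V) :
    deg (gA u v (uU u v G0) A G0) x = d x := by
  set U := uU u v G0 with hUdef
  have hU : ∀ y ∈ U, y ≠ u ∧ y ≠ v := uU_ne G0
  have hG0' := (Finset.mem_filter.1 hG0).2
  have hgoal : (deg (gA u v U A G0) x : ℤ) = deg G0 x := by
    rw [deg_eq_sum, deg_eq_sum]
    have huU : u ∉ U := fun h => (hU u h).1 rfl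
    have hvU : v ∉ U := fun h => (hU v h).2 rfl
    have hcount : ∑ y ∈ U, ((if y ∈ A then (1 : ℤ) else 0) - ed G0 u y) = 0 := by
      have e1 : ∑ y ∈ U, (if y ∈ A then (1 : ℤ) else 0) = A.card := by
        rw [Finset.sum_boole, Finset.filter_mem_eq_inter, Finset.inter_eq_right.2 hA]
      have e2 : ∑ y ∈ U, ed G0 u y = (aOf u U G0).card := by
        simp only [ed, aOf]
        rw [Finset.sum_boole]
      rw [Finset.sum_sub_distrib, e1, e2, hc]
      simp
    by_cases hxu : x = u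
    · subst hxu
      rw [← sub_eq_zero, ← Finset.sum_sub_distrib]
      rw [← hcount]
      symm
      refine Finset.sum_subset_zero_on_sdiff (Finset.subset_univ U) ?_ ?_
      · intro y hy
        have hyU : y ∉ U := (mem_sdiff.1 hy).2
        rw [ed_gA_off hA (not_stripe_of hU (Or.inr hyU) (Or.inr huU)), sub_self]
      · intro y hy
        rw [ed_gA_u huv hU hA hy]
    by_cases hxv : x = v
    · subst hxv
      rw [← sub_eq_zero, ← Finset.sum_sub_distrib]
      have h00 : ∑ y ∈ U, ((if y ∈ A then (0 : ℤ) else 1) - ed G0 x y) =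
          - ∑ y ∈ U, ((if y ∈ A then (1 : ℤ) else 0) - ed G0 u y) := by
        rw [← Finset.sum_neg_distrib]
        refine Finset.sum_congr rfl fun y hy => ?_
        have := (mem_uU.1 hy).2.2
        by_cases h : y ∈ A <;> simp [h] <;> linarith
      have h0 : ∑ y ∈ U, ((if y ∈ A then (0 : ℤ) else 1) - ed G0 x y) = 0 := by
        rw [h00, hcount, neg_zero]
      rw [← h0]
      symm
      refine Finset.sum_subset_zero_on_sdiff (Finset.subset_univ U) ?_ ?_
      · intro y hy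
        have hyU : y ∉ U := (mem_sdiff.1 hy).2
        rw [ed_gA_off hA (not_stripe_of hU (Or.inr hyU) (Or.inr hvU)), sub_self]
      · intro y hy
        rw [ed_gA_v huv hU hA hy]
    · have hkey := sum_diff_two (F := fun b => ed (gA u v U A G0) x b) (G := fun b => ed G0 x b)
        (p := u) (q := v) huv (fun b hb1 hb2 => by
          apply ed_gA_off hA
          exact not_stripe_of hU (Or.inl (by tauto)) (Or.inl (by tauto)))
      have h0 : (ed (gA u v U A G0) x u - ed G0 x u) + (ed (gA u v U A G0) x v - ed G0 x v) = 0 := by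
        by_cases hxU : x ∈ U
        · rw [ed_comm _ x u, ed_comm _ x v, ed_comm G0 x u, ed_comm G0 x v,
            ed_gA_u huv hU hA hxU, ed_gA_v huv hU hA hxU]
          have := (mem_uU.1 hxU).2.2
          by_cases h : x ∈ A <;> simp [h] <;> linarith
        · rw [ed_gA_off hA (not_stripe_of hU (Or.inl (by tauto)) (Or.inr hxU)),
            ed_gA_off hA (not_stripe_of hU (Or.inl (by tauto)) (Or.inr hxU))]
          ring
      linarith
  have : (deg (gA u v U A G0) x) = deg G0 x := by exact_mod_cast hgoal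
  rw [this, hG0'.2]

lemma gA_mem_Omega (huv : u ≠ v) {d : V → ℕ} {G0 : Finset (Sym2 V)} (hG0 : G0 ∈ Omega d)
    {A : Finset V} (hA : A ⊆ uU u v G0) (hc : A.card = (aOf u (uU u v G0) G0).card) :
    gA u v (uU u v G0) A G0 ∈ Omega d := by
  have hG0' := (Finset.mem_filter.1 hG0).2
  refine Finset.mem_filter.2 ⟨mem_univ _, ?_, deg_gA huv hG0 hA hc⟩
  intro e he
  rw [mem_gA] at he
  rcases he with ⟨h, -⟩ | ⟨y, hy, rfl⟩ | ⟨y, hy, rfl⟩
  · exact hG0'.1 e h
  · have := uU_ne G0 y (hA hy)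
    simpa [Sym2.mk_isDiag_iff] using this.1.symm
  · have := uU_ne G0 y (mem_sdiff.1 hy).1
    simpa [Sym2.mk_isDiag_iff] using this.2.symm

lemma stripe_sub_others {U : Finset V} (hU : ∀ y ∈ U, y ≠ u ∧ y ≠ v) {e : Sym2 V}
    (he : e ∈ stripe u v U) : e ∈ stripe u v (others u v) := by
  simp only [stripe, mem_filter, mem_univ, true_and] at he ⊢
  obtain ⟨c, hc, h⟩ := he
  exact ⟨c, mem_others.2 (hU c hc), h⟩

lemma blkKey_gA (huv : u ≠ v) {G0 : Finset (Sym2 V)} {A : Finset V} (hA : A ⊆ uU u v G0) :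
    blkKey u v (gA u v (uU u v G0) A G0) = blkKey u v G0 := by
  set U := uU u v G0 with hUdef
  have hU : ∀ y ∈ U, y ≠ u ∧ y ≠ v := uU_ne G0
  rw [blkKey_eq_iff]
  refine ⟨fun e he => mem_gA_off hA (fun h => he (stripe_sub_others hU h)), fun c h1 h2 => ?_⟩
  by_cases hc : c ∈ U
  · rw [ed_gA_u huv hU hA hc, ed_gA_v huv hU hA hc, (mem_uU.1 hc).2.2]
    by_cases h : c ∈ A <;> simp [h]
  · have huU : u ∉ U := fun h => (hU u h).1 rfl
    have hvU : v ∉ U := fun h => (hU v h).2 rfl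
    rw [ed_gA_off hA (not_stripe_of hU (Or.inr hc) (Or.inr huU)),
      ed_gA_off hA (not_stripe_of hU (Or.inr hc) (Or.inr hvU))]

/-- Membership in the fiber, in terms of edges off `U`. -/
lemma fiber_off {G G0 : Finset (Sym2 V)} (h : blkKey u v G = blkKey u v G0) {e : Sym2 V}
    (he : e ∉ stripe u v (uU u v G0)) : e ∈ G ↔ e ∈ G0 := by
  obtain ⟨h1, h2⟩ := blkKey_eq_iff.1 h
  by_cases he' : e ∈ stripe u v (others u v)
  · simp only [stripe, mem_filter, mem_univ, true_and] at he'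
    obtain ⟨c, hc, hc'⟩ := he'
    obtain ⟨hc1, hc2⟩ := mem_others.1 hc
    have hcU : c ∉ uU u v G0 := fun hh => he (by
      simp only [stripe, mem_filter, mem_univ, true_and]
      exact ⟨c, hh, hc'⟩)
    have hsum := h2 c hc1 hc2
    have hne : ed G0 u c + ed G0 v c ≠ 1 := fun hh => hcU (mem_uU.2 ⟨hc1, hc2, hh⟩)
    have key : (s(u, c) ∈ G ↔ s(u, c) ∈ G0) ∧ (s(v, c) ∈ G ↔ s(v, c) ∈ G0) := by
      unfold ed at hsum hne
      by_cases a1 : s(u, c) ∈ G <;> by_cases a2 : s(v, c) ∈ G <;>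
        by_cases a3 : s(u, c) ∈ G0 <;> by_cases a4 : s(v, c) ∈ G0 <;>
        simp [a1, a2, a3, a4] at hsum hne ⊢
    rcases hc' with rfl | rfl
    · exact key.1
    · exact key.2
  · exact h1 e he'

/-- The subset of a graph in the fiber has the right size. -/
lemma card_aOf {d : V → ℕ} {G G0 : Finset (Sym2 V)} (hG : G ∈ Omega d) (hG0 : G0 ∈ Omega d)
    (huv : u ≠ v) (h : blkKey u v G = blkKey u v G0) :
    (aOf u (uU u v G0) G).card = (aOf u (uU u v G0) G0).card := by
  set U := uU u v G0 with hUdef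
  have hU : ∀ y ∈ U, y ≠ u ∧ y ≠ v := uU_ne G0
  have huU : u ∉ U := fun h => (hU u h).1 rfl
  have hd : (deg G u : ℤ) = deg G0 u := by
    rw [(Finset.mem_filter.1 hG).2.2 u, (Finset.mem_filter.1 hG0).2.2 u]
  rw [deg_eq_sum, deg_eq_sum] at hd
  have e1 : ∑ y ∈ U, ed G u y = (aOf u U G).card := by
    simp only [ed, aOf]
    rw [Finset.sum_boole]
  have e2 : ∑ y ∈ U, ed G0 u y = (aOf u U G0).card := by
    simp only [ed, aOf]
    rw [Finset.sum_boole]
  have e3 : ∑ y ∈ U, (ed G u y - ed G0 u y) = ∑ y, (ed G u y - ed G0 u y) := by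
    refine Finset.sum_subset_zero_on_sdiff (Finset.subset_univ U) ?_ ?_
    · intro y hy
      have hyU : y ∉ U := (mem_sdiff.1 hy).2
      rw [ed_eq_of_mem_iff (fiber_off h (not_stripe_of hU (Or.inr hyU) (Or.inr huU))), sub_self]
    · intro y _
      rfl
  have e4 : (((aOf u U G).card : ℤ)) = (aOf u U G0).card := by
    rw [← e1, ← e2, ← sub_eq_zero, ← Finset.sum_sub_distrib, e3, Finset.sum_sub_distrib, hd,
      sub_self]
  exact_mod_cast e4

lemma gA_aOf (huv : u ≠ v) {G G0 : Finset (Sym2 V)} (h : blkKey u v G = blkKey u v G0) :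
    gA u v (uU u v G0) (aOf u (uU u v G0) G) G0 = G := by
  set U := uU u v G0 with hUdef
  have hU : ∀ y ∈ U, y ≠ u ∧ y ≠ v := uU_ne G0
  have hA : aOf u U G ⊆ U := Finset.filter_subset _ _
  ext e
  by_cases he : e ∈ stripe u v U
  · simp only [stripe, mem_filter, mem_univ, true_and] at he
    obtain ⟨c, hc, rfl | rfl⟩ := he
    · rw [mem_gA_u huv hU hA hc]
      simp [aOf, hc]
    · rw [mem_gA_v huv hU hA hc]
      have hsum := (blkKey_eq_iff.1 h).2 c (hU c hc).1 (hU c hc).2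
      rw [(mem_uU.1 hc).2.2] at hsum
      have := ed_sum_one hsum
      simp only [aOf, mem_filter, hc, true_and]
      tauto
  · rw [mem_gA_off hA he, fiber_off h he]

lemma aOf_gA (huv : u ≠ v) {U A : Finset V} (hU : ∀ y ∈ U, y ≠ u ∧ y ≠ v) (hA : A ⊆ U)
    {G0 : Finset (Sym2 V)} : aOf u U (gA u v U A G0) = A := by
  ext y
  simp only [aOf, mem_filter]
  constructor
  · rintro ⟨hy, h⟩
    exact (mem_gA_u huv hU hA hy).1 h
  · intro hy
    exact ⟨hA hy, (mem_gA_u huv hU hA (hA hy)).2 hy⟩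

end Fiber

section FiberSum

variable {d : V → ℕ} {u v w z : V}

/-- The map from the `k`-subsets of `U` to the fiber through `G0`. -/
noncomputable def Psi (huv : u ≠ v) (G0 : State d) (A : Finset V) : State d :=
  if h : A ∈ (uU u v G0.1).powersetCard (aOf u (uU u v G0.1) G0.1).card then
    ⟨gA u v (uU u v G0.1) A G0.1, gA_mem_Omega huv G0.2 (mem_powersetCard.1 h).1
      (mem_powersetCard.1 h).2⟩
  else G0

lemma psi_val (huv : u ≠ v) (G0 : State d) {A : Finset V}
    (h : A ∈ (uU u v G0.1).powersetCard (aOf u (uU u v G0.1) G0.1).card) :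
    (Psi huv G0 A).1 = gA u v (uU u v G0.1) A G0.1 := by
  simp only [Psi, dif_pos h]

lemma psi_fib (huv : u ≠ v) (G0 : State d) {A : Finset V}
    (h : A ∈ (uU u v G0.1).powersetCard (aOf u (uU u v G0.1) G0.1).card) :
    xi u v (Psi huv G0 A) = xi u v G0 := by
  unfold xi
  rw [psi_val huv G0 h]
  exact blkKey_gA huv (mem_powersetCard.1 h).1

lemma pb_sum_fib_eq (huv : u ≠ v) (G0 : State d) (Φ : State d → ℝ) :
    ∑ G ∈ fib (xi u v) G0, Φ G =
      ∑ A ∈ (uU u v G0.1).powersetCard (aOf u (uU u v G0.1) G0.1).card, Φ (Psi huv G0 A) := by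
  refine Finset.sum_nbij' (fun G => aOf u (uU u v G0.1) G.1) (Psi huv G0) ?_ ?_ ?_ ?_ ?_
  · intro G hG
    have hk : blkKey u v G.1 = blkKey u v G0.1 := (mem_fib (xi u v) G0 G).1 hG
    exact mem_powersetCard.2 ⟨Finset.filter_subset _ _, card_aOf G.2 G0.2 huv hk⟩
  · intro A hA
    exact (mem_fib _ _ _).2 (psi_fib huv G0 hA)
  · intro G hG
    have hk : blkKey u v G.1 = blkKey u v G0.1 := (mem_fib (xi u v) G0 G).1 hG
    have hmem : aOf u (uU u v G0.1) G.1 ∈
        (uU u v G0.1).powersetCard (aOf u (uU u v G0.1) G0.1).card :=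
      mem_powersetCard.2 ⟨Finset.filter_subset _ _, card_aOf G.2 G0.2 huv hk⟩
    apply Subtype.ext
    rw [psi_val huv G0 hmem]
    exact gA_aOf huv hk
  · intro A hA
    rw [psi_val huv G0 hA]
    exact aOf_gA huv (uU_ne _) (mem_powersetCard.1 hA).1
  · intro G hG
    have hk : blkKey u v G.1 = blkKey u v G0.1 := (mem_fib (xi u v) G0 G).1 hG
    have hmem : aOf u (uU u v G0.1) G.1 ∈
        (uU u v G0.1).powersetCard (aOf u (uU u v G0.1) G0.1).card :=
      mem_powersetCard.2 ⟨Finset.filter_subset _ _, card_aOf G.2 G0.2 huv hk⟩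
    congr 1
    apply Subtype.ext
    rw [psi_val huv G0 hmem]
    exact (gA_aOf huv hk).symm

/-- The function on the `k`-subsets given by `f`. -/
noncomputable def hOf (huv : u ≠ v) (G0 : State d) (f : State d → ℝ) (A : Finset V) : ℝ :=
  f (Psi huv G0 A)

lemma card_fib_eq (huv : u ≠ v) (G0 : State d) :
    ((fib (xi u v) G0).card : ℝ) =
      ((uU u v G0.1).powersetCard (aOf u (uU u v G0.1) G0.1).card).card := by
  have := pb_sum_fib_eq huv G0 (fun _ => (1 : ℝ))
  simpa using this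

lemma cond_fib_eq (huv : u ≠ v) (G0 : State d) (f : State d → ℝ) {G : State d}
    (hG : G ∈ fib (xi u v) G0) :
    cond (xi u v) f G =
      (∑ B ∈ (uU u v G0.1).powersetCard (aOf u (uU u v G0.1) G0.1).card, hOf huv G0 f B) /
        ((uU u v G0.1).powersetCard (aOf u (uU u v G0.1) G0.1).card).card := by
  rw [cond_congr (xi u v) f ((mem_fib _ _ _).1 hG)]
  unfold cond
  rw [pb_sum_fib_eq huv G0 f, card_fib_eq huv G0]
  rfl

lemma pat_psi (huv : u ≠ v) (G0 : State d) {A : Finset V}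
    (hA : A ∈ (uU u v G0.1).powersetCard (aOf u (uU u v G0.1) G0.1).card)
    (hw : w ∈ uU u v G0.1) (hz : z ∈ uU u v G0.1) :
    Pat u v w z (Psi huv G0 A).1 ↔ w ∈ A ∧ z ∉ A := by
  rw [psi_val huv G0 hA]
  have hA' := (mem_powersetCard.1 hA).1
  simp only [Pat, mem_gA_u huv (uU_ne _) hA' hw, mem_gA_u huv (uU_ne _) hA' hz,
    mem_gA_v huv (uU_ne _) hA' hw, mem_gA_v huv (uU_ne _) hA' hz]
  tauto

lemma sep_psi (huv : u ≠ v) (G0 : State d) {A : Finset V}
    (hA : A ∈ (uU u v G0.1).powersetCard (aOf u (uU u v G0.1) G0.1).card)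
    (hw : w ∈ uU u v G0.1) (hz : z ∈ uU u v G0.1) :
    Sep u v w z (Psi huv G0 A) ↔ (w ∈ A ∧ z ∉ A) ∨ (w ∉ A ∧ z ∈ A) := by
  unfold Sep
  rw [pat_psi huv G0 hA hw hz, pat_psi huv G0 hA hz hw]
  tauto

lemma exch_mem {U A : Finset V} {k : ℕ} (hA : A ∈ U.powersetCard k) (hw : w ∈ A) (hz : z ∈ U)
    (hzA : z ∉ A) : insert z (A.erase w) ∈ U.powersetCard k := by
  have h := mem_powersetCard.1 hA
  refine mem_powersetCard.2 ⟨?_, ?_⟩
  · intro y hy
    rcases mem_insert.1 hy with rfl | hy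
    · exact hz
    · exact h.1 (mem_of_mem_erase hy)
  · rw [card_insert_of_notMem (fun hh => hzA (mem_of_mem_erase hh)), card_erase_of_mem hw, h.2]
    have : 0 < A.card := Finset.card_pos.2 ⟨w, hw⟩
    omega

lemma cyc_mem_stripe {U : Finset V} (hw : w ∈ U) (hz : z ∈ U) {e : Sym2 V} (he : e ∈ cyc u v w z) :
    e ∈ stripe u v U := by
  simp only [cyc, mem_insert, mem_singleton] at he
  rcases he with rfl | rfl | rfl | rfl
  · exact mk_mem_stripe.2 (Or.inl ⟨Or.inl rfl, hw⟩)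
  · exact mk_mem_stripe.2 (Or.inl ⟨Or.inr rfl, hz⟩)
  · exact mk_mem_stripe.2 (Or.inl ⟨Or.inl rfl, hz⟩)
  · exact mk_mem_stripe.2 (Or.inl ⟨Or.inr rfl, hw⟩)

lemma tau_psi (huv : u ≠ v) (G0 : State d) (h4 : Distinct4 u v w z) {A : Finset V}
    (hA : A ∈ (uU u v G0.1).powersetCard (aOf u (uU u v G0.1) G0.1).card)
    (hw : w ∈ uU u v G0.1) (hz : z ∈ uU u v G0.1) (hwA : w ∈ A) (hzA : z ∉ A) :
    tau u v w z (Psi huv G0 A) = Psi huv G0 (insert z (A.erase w)) := by
  have hB := exch_mem hA hwA hz hzA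
  have hA' := (mem_powersetCard.1 hA).1
  have hB' := (mem_powersetCard.1 hB).1
  have hp : Pat u v w z (Psi huv G0 A).1 := (pat_psi huv G0 hA hw hz).2 ⟨hwA, hzA⟩
  apply Subtype.ext
  simp only [tau, dif_pos h4]
  rw [psi_val huv G0 hB]
  ext e
  rw [mem_swp_of_pat (Or.inl hp), psi_val huv G0 hA]
  by_cases he : e ∈ stripe u v (uU u v G0.1)
  · have he2 := he
    simp only [stripe, mem_filter, mem_univ, true_and] at he2
    obtain ⟨c, hc, rfl | rfl⟩ := he2
    · rw [mem_gA_u huv (uU_ne _) hA' hc, mem_gA_u huv (uU_ne _) hB' hc]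
      simp only [cyc, mem_insert, mem_singleton, mem_erase]
      obtain ⟨h1, h2, h3, h4', h5, h6⟩ := h4
      by_cases c1 : c = w
      · subst c1
        simp [hwA, h6]
      · by_cases c2 : c = z
        · subst c2
          simp [hzA]
        · have e1 : s(u, c) ≠ s(u, w) := by
            intro h; rcases Sym2.eq_iff.1 h with h | h
            · exact c1 h.2
            · exact h2 h.1
          have e2 : s(u, c) ≠ s(v, z) := by
            intro h; rcases Sym2.eq_iff.1 h with h | h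
            · exact huv h.1
            · exact h3 h.1
          have e3 : s(u, c) ≠ s(u, z) := by
            intro h; rcases Sym2.eq_iff.1 h with h | h
            · exact c2 h.2
            · exact h3 h.1
          have e4 : s(u, c) ≠ s(v, w) := by
            intro h; rcases Sym2.eq_iff.1 h with h | h
            · exact huv h.1
            · exact h2 h.1
          simp [e1, e2, e3, e4, c1, c2]
    · rw [mem_gA_v huv (uU_ne _) hA' hc, mem_gA_v huv (uU_ne _) hB' hc]
      simp only [cyc, mem_insert, mem_singleton, mem_erase]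
      obtain ⟨h1, h2, h3, h4', h5, h6⟩ := h4
      by_cases c1 : c = w
      · subst c1
        simp [hwA, h6]
      · by_cases c2 : c = z
        · subst c2
          simp [hzA]
        · have e1 : s(v, c) ≠ s(u, w) := by
            intro h; rcases Sym2.eq_iff.1 h with h | h
            · exact huv h.1.symm
            · exact h4' h.1
          have e2 : s(v, c) ≠ s(v, z) := by
            intro h; rcases Sym2.eq_iff.1 h with h | h
            · exact c2 h.2
            · exact h5 h.1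
          have e3 : s(v, c) ≠ s(u, z) := by
            intro h; rcases Sym2.eq_iff.1 h with h | h
            · exact huv h.1.symm
            · exact h5 h.1
          have e4 : s(v, c) ≠ s(v, w) := by
            intro h; rcases Sym2.eq_iff.1 h with h | h
            · exact c1 h.2
            · exact h4' h.1
          simp [e1, e2, e3, e4, c1, c2]
  · have hc : e ∉ cyc u v w z := fun h => he (cyc_mem_stripe hw hz h)
    rw [mem_gA_off hA' he, mem_gA_off hB' he]
    simp [hc]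

lemma fib_D (huv : u ≠ v) (G0 : State d) (f : State d → ℝ) (h4 : Distinct4 u v w z)
    (hw : w ∈ uU u v G0.1) (hz : z ∈ uU u v G0.1) :
    ∑ G ∈ fib (xi u v) G0, (if Pat u v w z G.1 then (f G - f (tau u v w z G)) ^ 2 else 0) =
      johnsonD (uU u v G0.1) (aOf u (uU u v G0.1) G0.1).card (hOf huv G0 f) w z := by
  rw [pb_sum_fib_eq huv G0]
  unfold johnsonD
  rw [Finset.sum_filter]
  refine Finset.sum_congr rfl fun A hA => ?_
  by_cases hc : w ∈ A ∧ z ∉ A
  · rw [if_pos ((pat_psi huv G0 hA hw hz).2 hc), if_pos hc, tau_psi huv G0 h4 hA hw hz hc.1 hc.2]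
    rfl
  · rw [if_neg (fun h => hc ((pat_psi huv G0 hA hw hz).1 h)), if_neg hc]

lemma fib_sepK_eq (G0 G : State d) (hG : G ∈ fib (xi u v) G0) (hS : Sep u v w z G) :
    fib (sepK (xi u v) (Sep u v w z)) G = (fib (xi u v) G0).filter (Sep u v w z) := by
  ext y
  simp only [fib, mem_filter, mem_univ, true_and, sepK, Prod.mk.injEq, decide_eq_decide]
  have hG' := (mem_fib _ _ _).1 hG
  rw [hG']
  constructor
  · rintro ⟨h1, h2⟩
    exact ⟨h1, h2.2 hS⟩
  · rintro ⟨h1, h2⟩
    exact ⟨h1, iff_of_true h2 hS⟩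

lemma rem_psi (huv : u ≠ v) (G0 : State d) (f : State d → ℝ) {A : Finset V}
    (hA : A ∈ (uU u v G0.1).powersetCard (aOf u (uU u v G0.1) G0.1).card) :
    rem (xi u v) f (Psi huv G0 A) = hOf huv G0 f A -
      (∑ B ∈ (uU u v G0.1).powersetCard (aOf u (uU u v G0.1) G0.1).card, hOf huv G0 f B) /
        ((uU u v G0.1).powersetCard (aOf u (uU u v G0.1) G0.1).card).card := by
  rw [rem_apply, cond_fib_eq huv G0 f ((mem_fib _ _ _).2 (psi_fib huv G0 hA))]
  rfl

lemma fib_X (huv : u ≠ v) (G0 : State d) (f : State d → ℝ) :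
    ∑ G ∈ fib (xi u v) G0, X u v f G * X u v f G =
      johnsonVar (uU u v G0.1) (aOf u (uU u v G0.1) G0.1).card (hOf huv G0 f) := by
  rw [pb_sum_fib_eq huv G0]
  unfold johnsonVar X
  refine Finset.sum_congr rfl fun A hA => ?_
  rw [rem_psi huv G0 f hA]
  ring

lemma fib_Z (huv : u ≠ v) (G0 : State d) (f : State d → ℝ) (hw : w ∈ uU u v G0.1)
    (hz : z ∈ uU u v G0.1) :
    ∑ G ∈ fib (xi u v) G0, lam (xi u v) (Sep u v w z) f G * lam (xi u v) (Sep u v w z) f G =
      johnsonZ (uU u v G0.1) (aOf u (uU u v G0.1) G0.1).card (hOf huv G0 f) w z := by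
  set U := uU u v G0.1 with hU
  set k := (aOf u (uU u v G0.1) G0.1).card with hk
  set μ := (∑ B ∈ U.powersetCard k, hOf huv G0 f B) / (U.powersetCard k).card with hμ
  set t := ∑ A ∈ sepSets U k w z, (hOf huv G0 f A - μ) with ht
  set C : ℝ := ((sepSets U k w z).card : ℝ) with hC
  have hsep : ∀ A ∈ U.powersetCard k, Sep u v w z (Psi huv G0 A) ↔
      (w ∈ A ∧ z ∉ A) ∨ (w ∉ A ∧ z ∈ A) := fun A hA => sep_psi huv G0 hA hw hz
  -- the value of `lam` on the fiber
  have hval : ∀ G ∈ fib (xi u v) G0, Sep u v w z G →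
      lam (xi u v) (Sep u v w z) f G = t / C := by
    intro G hG hS
    have e1 : ∑ y ∈ (fib (xi u v) G0).filter (Sep u v w z), rem (xi u v) f y = t := by
      rw [Finset.sum_filter, pb_sum_fib_eq huv G0, ht]
      unfold sepSets
      rw [Finset.sum_filter]
      refine Finset.sum_congr rfl fun A hA => ?_
      by_cases hc : (w ∈ A ∧ z ∉ A) ∨ (w ∉ A ∧ z ∈ A)
      · rw [if_pos ((hsep A hA).2 hc), if_pos hc, rem_psi huv G0 f hA]
      · rw [if_neg (fun h => hc ((hsep A hA).1 h)), if_neg hc]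
    have e2 : (((fib (xi u v) G0).filter (Sep u v w z)).card : ℝ) = C := by
      rw [hC]
      have a1 := pb_sum_fib_eq huv G0 (fun G => if Sep u v w z G then (1 : ℝ) else 0)
      have a2 : ∑ A ∈ U.powersetCard k, (if Sep u v w z (Psi huv G0 A) then (1 : ℝ) else 0) =
          ((sepSets U k w z).card : ℝ) := by
        unfold sepSets
        rw [Finset.card_filter]
        push_cast
        refine Finset.sum_congr rfl fun A hA => ?_
        by_cases hc : (w ∈ A ∧ z ∉ A) ∨ (w ∉ A ∧ z ∈ A)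
        · rw [if_pos ((hsep A hA).2 hc), if_pos hc]
        · rw [if_neg (fun h => hc ((hsep A hA).1 h)), if_neg hc]
      rw [← a2, ← a1, Finset.card_filter]
      push_cast
      rfl
    unfold lam
    rw [if_pos hS]
    unfold cond
    rw [fib_sepK_eq G0 G hG hS, e1, e2]
  have hval0 : ∀ G, ¬ Sep u v w z G → lam (xi u v) (Sep u v w z) f G = 0 := by
    intro G hS
    unfold lam
    rw [if_neg hS]
  have hsum : ∑ G ∈ fib (xi u v) G0, lam (xi u v) (Sep u v w z) f G *
      lam (xi u v) (Sep u v w z) f G =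
      ∑ G ∈ fib (xi u v) G0, (if Sep u v w z G then (t / C) * (t / C) else 0) := by
    refine Finset.sum_congr rfl fun G hG => ?_
    by_cases hS : Sep u v w z G
    · rw [if_pos hS, hval G hG hS]
    · rw [if_neg hS, hval0 G hS, mul_zero]
  rw [hsum, pb_sum_fib_eq huv G0]
  have h3 : ∑ A ∈ U.powersetCard k, (if Sep u v w z (Psi huv G0 A) then (t / C) * (t / C) else 0) =
      C * ((t / C) * (t / C)) := by
    rw [hC]
    unfold sepSets
    rw [Finset.card_filter]
    push_cast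
    rw [Finset.sum_mul]
    refine Finset.sum_congr rfl fun A hA => ?_
    by_cases hc : (w ∈ A ∧ z ∉ A) ∨ (w ∉ A ∧ z ∈ A)
    · rw [if_pos ((hsep A hA).2 hc), if_pos hc, one_mul]
    · rw [if_neg (fun h => hc ((hsep A hA).1 h)), if_neg hc, zero_mul]
  rw [h3]
  unfold johnsonZ
  by_cases hC0 : C = 0
  · rw [← hμ, ← ht, ← hC, hC0]
    simp
  · rw [← hμ, ← ht, ← hC]
    field_simp

lemma fib_mem_of_pat (G0 : State d) (h4 : Distinct4 u v w z) {G : State d}
    (hG : G ∈ fib (xi u v) G0) (hp : Pat u v w z G.1) :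
    w ∈ uU u v G0.1 ∧ z ∈ uU u v G0.1 := by
  have hk : blkKey u v G.1 = blkKey u v G0.1 := (mem_fib (xi u v) G0 G).1 hG
  obtain ⟨h1, h2, h3, h4', h5, h6⟩ := h4
  obtain ⟨p1, p2, p3, p4⟩ := hp
  have hs := (blkKey_eq_iff.1 hk).2
  refine ⟨mem_uU.2 ⟨h2.symm, h4'.symm, ?_⟩, mem_uU.2 ⟨h3.symm, h5.symm, ?_⟩⟩
  · rw [← hs w h2.symm h4'.symm]
    simp [ed, p1, p4]
  · rw [← hs z h3.symm h5.symm]
    simp [ed, p2, p3]

lemma fib_off_D (G0 : State d) (f : State d → ℝ) (h4 : Distinct4 u v w z)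
    (hc : ¬ (w ∈ uU u v G0.1 ∧ z ∈ uU u v G0.1)) :
    ∑ G ∈ fib (xi u v) G0, (if Pat u v w z G.1 then (f G - f (tau u v w z G)) ^ 2 else 0) = 0 := by
  refine Finset.sum_eq_zero fun G hG => ?_
  rw [if_neg (fun hp => hc (fib_mem_of_pat G0 h4 hG hp))]

lemma fib_off_Z (G0 : State d) (f : State d → ℝ) (h4 : Distinct4 u v w z)
    (hc : ¬ (w ∈ uU u v G0.1 ∧ z ∈ uU u v G0.1)) :
    ∑ G ∈ fib (xi u v) G0, lam (xi u v) (Sep u v w z) f G * lam (xi u v) (Sep u v w z) f G = 0 := by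
  refine Finset.sum_eq_zero fun G hG => ?_
  have : ¬ Sep u v w z G := by
    rintro (hp | hp)
    · exact hc (fib_mem_of_pat G0 h4 hG hp)
    · exact hc (fib_mem_of_pat G0 h4.swap_wz hG hp).symm
  unfold lam
  rw [if_neg this, mul_zero]

/-- The inequality on one fiber. -/
lemma fiber_ineq (huv : u ≠ v) (G0 : State d) (f : State d → ℝ) :
    4 * ∑ G ∈ fib (xi u v) G0, X u v f G * X u v f G ≤
      ∑ w, ∑ z, if Distinct4 u v w z then
        (∑ G ∈ fib (xi u v) G0, (if Pat u v w z G.1 then (f G - f (tau u v w z G)) ^ 2 else 0)) -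
          2 * ∑ G ∈ fib (xi u v) G0,
            lam (xi u v) (Sep u v w z) f G * lam (xi u v) (Sep u v w z) f G
      else 0 := by
  set U := uU u v G0.1 with hU
  set k := (aOf u (uU u v G0.1) G0.1).card with hk
  have hkey := johnson_key U k (hOf huv G0 f)
  rw [fib_X huv G0 f]
  refine hkey.trans (le_of_eq ?_)
  have hzero : ∀ w z, ¬ (w ∈ U ∧ z ∈ U) → (if Distinct4 u v w z then
        (∑ G ∈ fib (xi u v) G0, (if Pat u v w z G.1 then (f G - f (tau u v w z G)) ^ 2 else 0)) -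
          2 * ∑ G ∈ fib (xi u v) G0,
            lam (xi u v) (Sep u v w z) f G * lam (xi u v) (Sep u v w z) f G
      else 0) = 0 := by
    intro w z hc
    by_cases h4 : Distinct4 u v w z
    · rw [if_pos h4, fib_off_D G0 f h4 hc, fib_off_Z G0 f h4 hc]
      simp
    · rw [if_neg h4]
  symm
  calc _ = ∑ w ∈ U, ∑ z, (if Distinct4 u v w z then
        (∑ G ∈ fib (xi u v) G0, (if Pat u v w z G.1 then (f G - f (tau u v w z G)) ^ 2 else 0)) -
          2 * ∑ G ∈ fib (xi u v) G0,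
            lam (xi u v) (Sep u v w z) f G * lam (xi u v) (Sep u v w z) f G
      else 0) := by
        symm
        refine Finset.sum_subset (Finset.subset_univ U) fun w _ hw => ?_
        exact Finset.sum_eq_zero fun z _ => hzero w z (fun h => hw h.1)
    _ = ∑ w ∈ U, ∑ z ∈ U, (if Distinct4 u v w z then
        (∑ G ∈ fib (xi u v) G0, (if Pat u v w z G.1 then (f G - f (tau u v w z G)) ^ 2 else 0)) -
          2 * ∑ G ∈ fib (xi u v) G0,
            lam (xi u v) (Sep u v w z) f G * lam (xi u v) (Sep u v w z) f G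
      else 0) := by
        refine Finset.sum_congr rfl fun w hw => ?_
        symm
        refine Finset.sum_subset (Finset.subset_univ U) fun z _ hz => ?_
        exact hzero w z (fun h => hz h.2)
    _ = _ := by
        refine Finset.sum_congr rfl fun w hw => Finset.sum_congr rfl fun z hz => ?_
        obtain ⟨a1, a2⟩ := uU_ne G0.1 w hw
        obtain ⟨b1, b2⟩ := uU_ne G0.1 z hz
        by_cases hwz : w = z
        · rw [if_pos hwz, if_neg]
          rintro ⟨-, -, -, -, -, h6⟩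
          exact h6 hwz
        · have h4 : Distinct4 u v w z :=
            ⟨huv, a1.symm, b1.symm, a2.symm, b2.symm, hwz⟩
          rw [if_neg hwz, if_pos h4, fib_D huv G0 f h4 hw hz, fib_Z huv G0 f hw hz]

/-- Inequalities on all fibers add up. -/
lemma sum_le_of_fib {Ω Y : Type*} [Fintype Ω] [DecidableEq Y] (ξ : Ω → Y) (a b : Ω → ℝ)
    (h : ∀ x, ∑ y ∈ fib ξ x, a y ≤ ∑ y ∈ fib ξ x, b y) : ∑ x, a x ≤ ∑ x, b x := by
  have hm : ∀ x ∈ (univ : Finset Ω), ξ x ∈ (univ : Finset Ω).image ξ :=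
    fun x hx => mem_image_of_mem ξ hx
  rw [← Finset.sum_fiberwise_of_maps_to hm a, ← Finset.sum_fiberwise_of_maps_to hm b]
  refine Finset.sum_le_sum fun y hy => ?_
  obtain ⟨x, -, rfl⟩ := mem_image.1 hy
  exact h x

lemma sum3_comm {α β γ : Type*} (s : Finset α) (t : Finset β) (r : Finset γ) (T : α → β → γ → ℝ) :
    ∑ a ∈ s, ∑ b ∈ t, ∑ c ∈ r, T a b c = ∑ c ∈ r, ∑ a ∈ s, ∑ b ∈ t, T a b c := by
  calc ∑ a ∈ s, ∑ b ∈ t, ∑ c ∈ r, T a b c = ∑ a ∈ s, ∑ c ∈ r, ∑ b ∈ t, T a b c :=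
        Finset.sum_congr rfl fun a _ => Finset.sum_comm
    _ = _ := Finset.sum_comm

theorem pb_lemma {d : V → ℕ} {u v : V} (huv : u ≠ v) (f : State d → ℝ) :
    4 * ip (X u v f) (X u v f) ≤
      ∑ w, ∑ z, if Distinct4 u v w z then Dsw u v w z f - 2 * Zq u v w z f else 0 := by
  have hterm : ∀ w z, (if Distinct4 u v w z then Dsw u v w z f - 2 * Zq u v w z f else 0) =
      ∑ G : State d, if Distinct4 u v w z then
        (if Pat u v w z G.1 then (f G - f (tau u v w z G)) ^ 2 else 0) -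
          2 * (lam (xi u v) (Sep u v w z) f G * lam (xi u v) (Sep u v w z) f G) else 0 := by
    intro w z
    by_cases h4 : Distinct4 u v w z
    · simp only [if_pos h4]
      rw [Finset.sum_sub_distrib, ← Finset.mul_sum]
      rfl
    · simp [if_neg h4]
  have hR : (∑ w, ∑ z, if Distinct4 u v w z then Dsw u v w z f - 2 * Zq u v w z f else 0) =
      ∑ G : State d, ∑ w, ∑ z, if Distinct4 u v w z then
        (if Pat u v w z G.1 then (f G - f (tau u v w z G)) ^ 2 else 0) -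
          2 * (lam (xi u v) (Sep u v w z) f G * lam (xi u v) (Sep u v w z) f G) else 0 := by
    simp_rw [hterm]
    exact sum3_comm _ _ _ _
  rw [hR]
  have hL : 4 * ip (X u v f) (X u v f) = ∑ G : State d, 4 * (X u v f G * X u v f G) := by
    unfold ip
    rw [Finset.mul_sum]
  rw [hL]
  refine sum_le_of_fib (xi u v) _ _ fun G0 => ?_
  have := fiber_ineq huv G0 f
  rw [Finset.mul_sum] at this
  refine this.trans (le_of_eq ?_)
  rw [← sum3_comm (univ : Finset V) (univ : Finset V) (fib (xi u v) G0)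
    (fun w z G => if Distinct4 u v w z then
        (if Pat u v w z G.1 then (f G - f (tau u v w z G)) ^ 2 else 0) -
          2 * (lam (xi u v) (Sep u v w z) f G * lam (xi u v) (Sep u v w z) f G) else 0)]
  refine Finset.sum_congr rfl fun w _ => Finset.sum_congr rfl fun z _ => ?_
  by_cases h4 : Distinct4 u v w z
  · simp only [if_pos h4]
    rw [Finset.sum_sub_distrib, ← Finset.mul_sum]
  · simp [if_neg h4]

end FiberSum

end Vale.Agent.Lib.P335
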