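import Vale.Agent.Lib.P335.Basic
set_option linter.unusedSectionVars false

/-!
Spectral gap from a quadratic inequality.
-/

namespace Vale.Agent.Lib.P335

open Finset

/-- For a symmetric positive semidefinite `A` with `‖A f‖² ≥ κ ⟨f, A f⟩` whose kernel is the
constants, `⟨f, A f⟩ ≥ κ ‖f - mean f‖²`. Proof without eigenvectors: a mean zero `g` is `A h`
(`A` is injective on the mean zero functions, which it preserves); with `a_k = ⟨h, A^k h⟩`, the
hypothesis at `h` gives `κ a_1 ≤ a_2` and Cauchy-Schwarz for the form `⟨u, A v⟩` gives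
`a_2² ≤ a_1 a_3`, so `κ a_2 ≤ a_3`, which is the claim as `a_2 = ‖g‖²` and `a_3 = ⟨g, A g⟩`. -/
theorem spectral_gap {Ω : Type*} [Fintype Ω] [Nonempty Ω] (A : (Ω → ℝ) →ₗ[ℝ] (Ω → ℝ))
    (hsymm : ∀ f g, ip (A f) g = ip f (A g)) (hpsd : ∀ f, 0 ≤ ip f (A f))
    (κ : ℝ) (hκ : 0 < κ) (hsq : ∀ f, κ * ip f (A f) ≤ ip (A f) (A f))
    (hker : ∀ f, A f = 0 → ∀ x y, f x = f y) (hconst : A (fun _ => 1) = 0) (f : Ω → ℝ) :
    κ * ∑ x, (f x - (∑ y, f y) / (Fintype.card Ω : ℝ)) ^ 2 ≤ ip f (A f) := by
  classical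
  have hN : (0 : ℝ) < (Fintype.card Ω : ℝ) := by
    exact_mod_cast Fintype.card_pos
  -- the mean zero functions
  let s : (Ω → ℝ) →ₗ[ℝ] ℝ :=
    { toFun := fun g => ∑ x, g x
      map_add' := fun a b => by simp [Finset.sum_add_distrib]
      map_smul' := fun c a => by simp [Finset.mul_sum] }
  have hs : ∀ g, s g = ip g (fun _ => 1) := by
    intro g; simp [s, ip]
  let Z : Submodule ℝ (Ω → ℝ) := LinearMap.ker s
  have hZ : ∀ x ∈ Z, A x ∈ Z := by
    intro x _
    rw [LinearMap.mem_ker, hs, hsymm, hconst, ip_zero_right]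
  let A' : Z →ₗ[ℝ] Z := A.restrict hZ
  have hinj : Function.Injective A' := by
    rw [← LinearMap.ker_eq_bot, LinearMap.ker_eq_bot']
    rintro ⟨x, hx⟩ hx0
    have h1 : A x = 0 := congrArg Subtype.val hx0
    have h2 := hker x h1
    have h3 : s x = 0 := hx
    apply Subtype.ext
    funext y
    have h4 : s x = (Fintype.card Ω : ℝ) * x y := by
      simp only [s, LinearMap.coe_mk, AddHom.coe_mk]
      rw [Finset.sum_congr rfl (fun z _ => h2 z y), Finset.sum_const, Finset.card_univ,
        nsmul_eq_mul]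
    rw [h3] at h4
    have h5 : x y = 0 := by
      rcases mul_eq_zero.1 h4.symm with h6 | h6
      · exact absurd h6 hN.ne'
      · exact h6
    simpa using h5
  have hsurj : Function.Surjective A' := LinearMap.injective_iff_surjective.1 hinj
  -- the mean zero part of `f`
  set m : ℝ := (∑ y, f y) / (Fintype.card Ω : ℝ) with hm
  set g : Ω → ℝ := f - m • (fun _ => (1 : ℝ)) with hg
  have hgZ : g ∈ Z := by
    rw [LinearMap.mem_ker]
    simp only [s, hg, LinearMap.coe_mk, AddHom.coe_mk, Pi.sub_apply, Pi.smul_apply, smul_eq_mul,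
      mul_one, Finset.sum_sub_distrib, Finset.sum_const, Finset.card_univ, nsmul_eq_mul]
    rw [hm]
    field_simp
    ring
  obtain ⟨⟨h, hhZ⟩, hh⟩ := hsurj ⟨g, hgZ⟩
  have hAh : A h = g := congrArg Subtype.val hh
  have hAg : A g = A f := by
    rw [hg, map_sub, map_smul, hconst, smul_zero, sub_zero]
  have h1 : ip f (A f) = ip g (A g) := by
    rw [hAg, hg, ip_sub_left, ip_smul_left, ← hsymm (fun _ => 1) f, hconst, ip_zero_left]
    ring
  have h2 : ∑ x, (f x - m) ^ 2 = ip g g := by
    simp only [ip, hg, Pi.sub_apply, Pi.smul_apply, smul_eq_mul, mul_one]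
    exact Finset.sum_congr rfl fun x _ => by ring
  rw [h1, h2]
  -- the three quantities
  set a1 : ℝ := ip h g with ha1
  set a2 : ℝ := ip g g with ha2
  set a3 : ℝ := ip g (A g) with ha3
  have e1 : 0 ≤ a1 := by
    have := hpsd h
    rwa [hAh] at this
  have e2 : κ * a1 ≤ a2 := by
    have := hsq h
    rwa [hAh] at this
  have e3 : a2 ^ 2 ≤ a1 * a3 := by
    -- Cauchy-Schwarz for the positive semidefinite form `⟨u, A v⟩`
    have hhg : ip h (A g) = a2 := by
      rw [← hsymm h g, hAh]
    have key : ∀ t : ℝ, 0 ≤ a1 + 2 * t * a2 + t ^ 2 * a3 := by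
      intro t
      have h3 := hpsd (h + t • g)
      rw [map_add, map_smul, hAh, ip_add_left, ip_add_right, ip_add_right, ip_smul_left,
        ip_smul_left, ip_smul_right, ip_smul_right, hhg] at h3
      have h4 : a1 + 2 * t * a2 + t ^ 2 * a3
          = ip h g + t * a2 + (t * ip g g + t * (t * ip g (A g))) := by
        rw [← ha1, ← ha2, ← ha3]
        ring
      rw [h4]
      exact h3
    have ha30 : 0 ≤ a3 := hpsd g
    by_cases h30 : a3 = 0
    · have h5 : a2 = 0 := by
        by_contra h6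
        have h7 := key (-(a1 + 1) / (2 * a2))
        rw [h30] at h7
        have h8 : 2 * (-(a1 + 1) / (2 * a2)) * a2 = -(a1 + 1) := by
          field_simp
        rw [h8] at h7
        nlinarith
      rw [h5, h30]
      simp
    · have h31 : 0 < a3 := lt_of_le_of_ne ha30 (Ne.symm h30)
      have h7 := key (-a2 / a3)
      have h8 : a1 + 2 * (-a2 / a3) * a2 + (-a2 / a3) ^ 2 * a3 = (a1 * a3 - a2 ^ 2) / a3 := by
        field_simp
        ring
      rw [h8] at h7
      have h9 : 0 ≤ a1 * a3 - a2 ^ 2 := by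
        by_contra h10
        push Not at h10
        have := div_neg_of_neg_of_pos h10 h31
        linarith
      linarith
  by_cases h0 : a1 = 0
  · have h4 : a2 = 0 := by
      have : a2 ^ 2 ≤ 0 := by rw [h0] at e3; simpa using e3
      nlinarith [ip_self_nonneg g]
    rw [h4]
    simp only [mul_zero]
    exact hpsd g
  · have h5 : 0 < a1 := lt_of_le_of_ne e1 (Ne.symm h0)
    have h6 : a2 * (κ * a1) ≤ a2 * a2 := mul_le_mul_of_nonneg_left e2 (ip_self_nonneg g)
    have h7 : a1 * (κ * a2) ≤ a1 * a3 := by nlinarith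
    exact le_of_mul_le_mul_left h7 h5

end Vale.Agent.Lib.P335
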