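import Vale.Agent.Lib.P335.Combi
import Vale.Agent.Lib.P335.Disj
import Vale.Agent.Lib.P335.Adj
import Vale.Agent.Lib.P335.PB
import Vale.Agent.Lib.P335.Spectral
import Vale.Agent.Lib.P335.Connect
import Vale.Agent.Lib.P335.Chain
set_option linter.unusedSectionVars false
set_option linter.unusedVariables false
set_option linter.unusedSimpArgs false

/-!
The Poincare inequality for the switches, and the final bound on the mixing time.
-/

namespace Vale.Agent.Lib.P335

open Finset

section General

variable {V : Type*} [Fintype V] [DecidableEq V] {d : V → ℕ}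

/-- The Gram matrix of the remainders. -/
noncomputable def gram (f : State d → ℝ) (u v w z : V) : ℝ := ip (X u v f) (X w z f)

lemma gram_swap1 (f : State d → ℝ) (u v w z : V) : gram f u v w z = gram f v u w z := by
  unfold gram; rw [X_swap]

lemma gram_swap2 (f : State d → ℝ) (u v w z : V) : gram f u v w z = gram f u v z w := by
  unfold gram; rw [X_swap w z]

/-- The sum of the remainders. -/
noncomputable def SS (f : State d → ℝ) : State d → ℝ :=
  ∑ u, ∑ v, if u ≠ v then X u v f else 0

lemma ip_SS_SS (f : State d → ℝ) :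
    ip (SS f) (SS f) = ∑ u, ∑ v, ∑ w, ∑ z, if u ≠ v ∧ w ≠ z then gram f u v w z else 0 := by
  unfold SS
  rw [ip_sum_left]
  refine Finset.sum_congr rfl fun u _ => ?_
  rw [ip_sum_left]
  refine Finset.sum_congr rfl fun v _ => ?_
  rw [ip_sum_right]
  refine Finset.sum_congr rfl fun w _ => ?_
  rw [ip_sum_right]
  refine Finset.sum_congr rfl fun z _ => ?_
  unfold gram
  by_cases h1 : u = v
  · simp [h1, ip_zero_left]
  · by_cases h2 : w = z
    · simp [h2, ip_zero_right]
    · simp [h1, h2]

lemma adj_nonneg (f : State d → ℝ) : 0 ≤ adjSum (gram f) := by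
  have h := triple_sums (gram f) (gram_swap1 f) (gram_swap2 f)
  have h0 : 0 ≤ ∑ a, ∑ b, ∑ c,
      if a ≠ b ∧ a ≠ c ∧ b ≠ c then gram f a b a c + gram f a b b c + gram f a c b c else 0 := by
    refine Finset.sum_nonneg fun a _ => Finset.sum_nonneg fun b _ => Finset.sum_nonneg fun c _ => ?_
    split_ifs with hc
    · obtain ⟨h1, h2, h3⟩ := hc
      have t := triple_ineq h1 h2 h3 f
      simp only [ip_add_left, ip_add_right, gram] at t ⊢
      rw [ip_comm (X a c f) (X a b f), ip_comm (X b c f) (X a b f), ip_comm (X b c f) (X a c f)] at t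
      linarith
    · exact le_refl _
  rw [h] at h0
  linarith

/-- The disjoint part of the double sum dominates the sum of the Dirichlet terms. -/
lemma disj_bound (f : State d → ℝ) :
    sum4 (fun u v w z => Dsw u v w z f - 2 * Zq u v w z f) ≤ 2 * sum4 (gram f) := by
  have h1 : sum4 (fun u v w z => Dsw u v w z f - Zq u v w z f - Zq w z u v f)
      ≤ sum4 (fun u v w z => 2 * gram f u v w z) := by
    unfold sum4
    refine Finset.sum_le_sum fun u _ => Finset.sum_le_sum fun v _ =>
      Finset.sum_le_sum fun w _ => Finset.sum_le_sum fun z _ => ?_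
    split_ifs with h
    · exact starB h f
    · exact le_refl _
  have h2 : sum4 (fun u v w z => 2 * gram f u v w z) = 2 * sum4 (gram f) := by
    unfold sum4
    simp only [Finset.mul_sum]
    refine Finset.sum_congr rfl fun u _ => Finset.sum_congr rfl fun v _ =>
      Finset.sum_congr rfl fun w _ => Finset.sum_congr rfl fun z _ => ?_
    split_ifs <;> simp
  have h3 : sum4 (fun u v w z => Dsw u v w z f - Zq u v w z f - Zq w z u v f)
      = sum4 (fun u v w z => Dsw u v w z f - Zq u v w z f)
        - sum4 (fun u v w z => Zq w z u v f) := by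
    unfold sum4
    simp only [← Finset.sum_sub_distrib]
    refine Finset.sum_congr rfl fun u _ => Finset.sum_congr rfl fun v _ =>
      Finset.sum_congr rfl fun w _ => Finset.sum_congr rfl fun z _ => ?_
    split_ifs <;> simp
  have h4 : sum4 (fun u v w z => Dsw u v w z f - 2 * Zq u v w z f)
      = sum4 (fun u v w z => Dsw u v w z f - Zq u v w z f)
        - sum4 (fun u v w z => Zq u v w z f) := by
    unfold sum4
    simp only [← Finset.sum_sub_distrib]
    refine Finset.sum_congr rfl fun u _ => Finset.sum_congr rfl fun v _ =>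
      Finset.sum_congr rfl fun w _ => Finset.sum_congr rfl fun z _ => ?_
    split_ifs
    · ring
    · simp
  have h5 : sum4 (fun u v w z => Zq w z u v f) = sum4 (fun u v w z => Zq u v w z f) :=
    sum4_symm (fun u v w z => Zq u v w z f)
  rw [h3, h5, h2] at h1
  rw [h4]
  exact h1

lemma pb_sum (f : State d → ℝ) :
    4 * diagSum (gram f) ≤ sum4 (fun u v w z => Dsw u v w z f - 2 * Zq u v w z f) := by
  unfold diagSum sum4
  simp only [Finset.mul_sum]
  refine Finset.sum_le_sum fun u _ => Finset.sum_le_sum fun v _ => ?_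
  by_cases h : u = v
  · subst h
    simp [Distinct4]
  · have := pb_lemma h f
    simp only [ne_eq, h, not_false_eq_true, if_true]
    exact this

/-- The quadratic inequality. -/
theorem quad_ineq (f : State d → ℝ) : 4 * diagSum (gram f) ≤ ip (SS f) (SS f) := by
  rw [ip_SS_SS, double_sum (gram f) (gram_swap1 f) (gram_swap2 f)]
  have h1 := adj_nonneg f
  have h2 := disj_bound f
  have h3 := pb_sum f
  linarith

lemma ip_X_self (f : State d → ℝ) (u v : V) : ip f (X u v f) = gram f u v u v := by
  unfold gram X
  rw [ip_rem_self]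

lemma ip_f_SS (f g : State d → ℝ) :
    ip f (SS g) = ∑ u, ∑ v, if u ≠ v then ip f (X u v g) else 0 := by
  unfold SS
  rw [ip_sum_right]
  refine Finset.sum_congr rfl fun u _ => ?_
  rw [ip_sum_right]
  refine Finset.sum_congr rfl fun v _ => ?_
  by_cases h : u = v
  · simp [h, ip_zero_right]
  · simp [h]

lemma ip_f_SS_self (f : State d → ℝ) : ip f (SS f) = diagSum (gram f) := by
  rw [ip_f_SS]
  unfold diagSum
  simp only [ip_X_self]

lemma gram_self_nonneg (f : State d → ℝ) (u v : V) : 0 ≤ gram f u v u v :=
  ip_self_nonneg _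

lemma diagSum_nonneg (f : State d → ℝ) : 0 ≤ diagSum (gram f) := by
  unfold diagSum
  refine Finset.sum_nonneg fun u _ => Finset.sum_nonneg fun v _ => ?_
  split_ifs
  · exact gram_self_nonneg f u v
  · exact le_refl _

lemma X_add (u v : V) (f g : State d → ℝ) : X u v (f + g) = X u v f + X u v g := rem_add _ f g

lemma X_smul (u v : V) (c : ℝ) (f : State d → ℝ) : X u v (c • f) = c • X u v f := by
  unfold X rem
  rw [cond_smul]
  funext x
  simp only [Pi.sub_apply, Pi.smul_apply, smul_eq_mul]
  ring

lemma SS_add (f g : State d → ℝ) : SS (f + g) = SS f + SS g := by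
  unfold SS
  simp only [X_add]
  simp only [← Finset.sum_add_distrib]
  refine Finset.sum_congr rfl fun u _ => Finset.sum_congr rfl fun v _ => ?_
  split_ifs <;> simp

lemma SS_smul (c : ℝ) (f : State d → ℝ) : SS (c • f) = c • SS f := by
  unfold SS
  simp only [X_smul, Finset.smul_sum]
  refine Finset.sum_congr rfl fun u _ => Finset.sum_congr rfl fun v _ => ?_
  split_ifs <;> simp

/-- The sum of the remainders as a linear map. -/
noncomputable def SSlin : (State d → ℝ) →ₗ[ℝ] (State d → ℝ) where
  toFun := SS
  map_add' := SS_add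
  map_smul' := SS_smul

lemma SSlin_apply (f : State d → ℝ) : SSlin f = SS f := rfl

lemma SS_symm (f g : State d → ℝ) : ip (SS f) g = ip f (SS g) := by
  rw [ip_comm, ip_f_SS, ip_f_SS]
  refine Finset.sum_congr rfl fun u _ => Finset.sum_congr rfl fun v _ => ?_
  split_ifs
  · unfold X
    rw [ip_comm, rem_selfadj]
  · rfl

lemma X_const (u v : V) : X u v (fun _ : State d => (1 : ℝ)) = 0 := by
  unfold X rem
  rw [cond_of_meas _ _ (fun _ _ _ => rfl)]
  simp

lemma SS_const : SS (fun _ : State d => (1 : ℝ)) = 0 := by
  unfold SS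
  simp only [X_const]
  simp

lemma SS_ker (f : State d → ℝ) (h : SS f = 0) (x y : State d) : f x = f y := by
  have h1 : diagSum (gram f) = 0 := by
    rw [← ip_f_SS_self, h, ip_zero_right]
  have hX : ∀ u v : V, u ≠ v → X u v f = 0 := by
    intro u v huv
    unfold diagSum at h1
    have h2 := (Finset.sum_eq_zero_iff_of_nonneg (fun u _ => Finset.sum_nonneg fun v _ => ?_)).1 h1 u
      (mem_univ u)
    · have h3 := (Finset.sum_eq_zero_iff_of_nonneg (fun v _ => ?_)).1 h2 v (mem_univ v)
      · simp only [ne_eq, huv, not_false_eq_true, if_true] at h3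
        exact ip_self_eq_zero h3
      · split_ifs
        · exact gram_self_nonneg f u v
        · exact le_refl _
    · split_ifs
      · exact gram_self_nonneg f u v
      · exact le_refl _
  apply const_of_tau_invariant
  intro u v w z G h4
  have h5 : rem (xi u v) f = 0 := hX u v h4.1
  have h6 : ∀ H, f H = cond (xi u v) f H := by
    intro H
    have := congrFun h5 H
    simp only [rem_apply, Pi.zero_apply] at this
    linarith
  rw [h6, h6 G]
  exact cond_congr _ _ (xi_tau h4 G)

/-- The Poincare inequality for the switches. -/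
theorem poincare (hne : (Omega d).Nonempty) (f : State d → ℝ) :
    2 * ∑ G, (f G - (∑ H, f H) / (Fintype.card (State d) : ℝ)) ^ 2
      ≤ (1 / 8) * sum4 (fun u v w z => Dsw u v w z f) := by
  haveI : Nonempty (State d) := by
    obtain ⟨G, hG⟩ := hne
    exact ⟨⟨G, hG⟩⟩
  have h1 := spectral_gap (SSlin (d := d))
    (fun f g => SS_symm f g)
    (fun f => by
      show 0 ≤ ip f (SS f)
      rw [ip_f_SS_self]
      exact diagSum_nonneg f)
    4 (by norm_num)
    (fun f => by
      show 4 * ip f (SS f) ≤ ip (SS f) (SS f)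
      rw [ip_f_SS_self]
      exact quad_ineq f)
    (fun f h x y => SS_ker f h x y)
    SS_const f
  have h2 : ip f (SSlin f) = diagSum (gram f) := ip_f_SS_self f
  rw [h2] at h1
  have h3 := pb_sum f
  have h4 : sum4 (fun u v w z => Dsw u v w z f - 2 * Zq u v w z f)
      ≤ sum4 (fun u v w z => Dsw u v w z f) := by
    unfold sum4
    refine Finset.sum_le_sum fun u _ => Finset.sum_le_sum fun v _ =>
      Finset.sum_le_sum fun w _ => Finset.sum_le_sum fun z _ => ?_
    split_ifs
    · have : 0 ≤ Zq u v w z f := ZZ_nonneg _ _ f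
      linarith
    · exact le_refl _
  linarith

end General

/-- The main theorem on the switch chain. -/
theorem mixing_bound {n : ℕ} (hn : 4 ≤ n) (d : Fin n → ℕ) (hne : (Omega d).Nonempty) :
    (∀ t, n ^ 6 ≤ t → ∀ G : State d, tv ((kernel d ^ t) G) (unif d) ≤ 1 / 4) ∧ tmix d ≤ n ^ 6 :=
  final_of_poincare hn d hne (poincare hne)

end Vale.Agent.Lib.P335
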