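import Mathlib
set_option linter.unusedSectionVars false

/-!
Linear algebra on the functions on a finite type: the Euclidean inner product and averaging over the
fibers of a map (conditional expectation for the uniform law).
-/

namespace Vale.Agent.Lib.P335

open Finset

section Basic

variable {Ω : Type*} [Fintype Ω]

/-- The Euclidean inner product of functions on a finite type. -/
def ip (f g : Ω → ℝ) : ℝ := ∑ x, f x * g x

lemma ip_comm (f g : Ω → ℝ) : ip f g = ip g f := by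
  simp [ip, mul_comm]

lemma ip_add_left (f g h : Ω → ℝ) : ip (f + g) h = ip f h + ip g h := by
  simp [ip, add_mul, Finset.sum_add_distrib]

lemma ip_add_right (f g h : Ω → ℝ) : ip f (g + h) = ip f g + ip f h := by
  simp [ip, mul_add, Finset.sum_add_distrib]

lemma ip_sub_left (f g h : Ω → ℝ) : ip (f - g) h = ip f h - ip g h := by
  simp [ip, sub_mul, Finset.sum_sub_distrib]

lemma ip_sub_right (f g h : Ω → ℝ) : ip f (g - h) = ip f g - ip f h := by
  simp [ip, mul_sub, Finset.sum_sub_distrib]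

lemma ip_smul_left (c : ℝ) (f h : Ω → ℝ) : ip (c • f) h = c * ip f h := by
  simp [ip, Finset.mul_sum, mul_assoc]

lemma ip_smul_right (c : ℝ) (f h : Ω → ℝ) : ip f (c • h) = c * ip f h := by
  simp only [ip, Pi.smul_apply, smul_eq_mul, Finset.mul_sum]
  exact Finset.sum_congr rfl fun x _ => by ring

lemma ip_self_nonneg (f : Ω → ℝ) : 0 ≤ ip f f :=
  Finset.sum_nonneg fun x _ => mul_self_nonneg _

lemma ip_zero_left (h : Ω → ℝ) : ip (0 : Ω → ℝ) h = 0 := by simp [ip]

lemma ip_zero_right (h : Ω → ℝ) : ip h (0 : Ω → ℝ) = 0 := by simp [ip]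

lemma ip_self_eq_zero {f : Ω → ℝ} (h : ip f f = 0) : f = 0 := by
  funext x
  have := (Finset.sum_eq_zero_iff_of_nonneg (fun x _ => mul_self_nonneg (f x))).1 h x (mem_univ x)
  simpa using this

lemma ip_sum_right {ι : Type*} (s : Finset ι) (f : Ω → ℝ) (g : ι → Ω → ℝ) :
    ip f (∑ i ∈ s, g i) = ∑ i ∈ s, ip f (g i) := by
  simp only [ip, Finset.sum_apply, Finset.mul_sum]
  rw [Finset.sum_comm]

lemma ip_sum_left {ι : Type*} (s : Finset ι) (f : Ω → ℝ) (g : ι → Ω → ℝ) :
    ip (∑ i ∈ s, g i) f = ∑ i ∈ s, ip (g i) f := by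
  rw [ip_comm, ip_sum_right]
  exact Finset.sum_congr rfl fun i _ => ip_comm _ _

lemma ip_cauchy (f g : Ω → ℝ) : (ip f g) ^ 2 ≤ ip f f * ip g g := by
  have := Finset.sum_mul_sq_le_sq_mul_sq (univ : Finset Ω) f g
  simpa [ip, pow_two] using this

/-- The fiber of `ξ` through `x`. -/
def fib {Y : Type*} [DecidableEq Y] (ξ : Ω → Y) (x : Ω) : Finset Ω :=
  univ.filter fun y => ξ y = ξ x

variable {Y : Type*} [DecidableEq Y] {Z : Type*} [DecidableEq Z]

lemma mem_fib (ξ : Ω → Y) (x y : Ω) : y ∈ fib ξ x ↔ ξ y = ξ x := by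
  simp [fib]

lemma self_mem_fib (ξ : Ω → Y) (x : Ω) : x ∈ fib ξ x := by
  simp [fib]

lemma fib_card_pos (ξ : Ω → Y) (x : Ω) : 0 < (fib ξ x).card :=
  Finset.card_pos.2 ⟨x, self_mem_fib ξ x⟩

lemma fib_eq_of_eq (ξ : Ω → Y) {x y : Ω} (h : ξ x = ξ y) : fib ξ x = fib ξ y := by
  simp [fib, h]

/-- Averaging over the fibers of `ξ`. -/
noncomputable def cond (ξ : Ω → Y) (f : Ω → ℝ) (x : Ω) : ℝ :=
  (∑ y ∈ fib ξ x, f y) / ((fib ξ x).card : ℝ)

lemma cond_congr (ξ : Ω → Y) (f : Ω → ℝ) {x y : Ω} (h : ξ x = ξ y) : cond ξ f x = cond ξ f y := by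
  simp [cond, fib_eq_of_eq ξ h]

lemma cond_of_meas (ξ : Ω → Y) (f : Ω → ℝ) (hf : ∀ x y, ξ x = ξ y → f x = f y) : cond ξ f = f := by
  funext x
  have h1 : (∑ y ∈ fib ξ x, f y) = ((fib ξ x).card : ℝ) * f x := by
    rw [Finset.sum_congr rfl (g := fun _ => f x)]
    · simp
    · intro y hy
      exact hf y x ((mem_fib ξ x y).1 hy)
  have h2 : ((fib ξ x).card : ℝ) ≠ 0 := by
    exact_mod_cast (fib_card_pos ξ x).ne'
  simp only [cond, h1]
  field_simp

/-- The sum over a type as a sum over the fibers of `ξ`, each weighted. -/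
lemma cond_selfadj (ξ : Ω → Y) (f g : Ω → ℝ) : ip (cond ξ f) g = ip f (cond ξ g) := by
  classical
  simp only [ip, cond]
  have h1 : ∀ x, (∑ y ∈ fib ξ x, f y) / ((fib ξ x).card : ℝ) * g x
      = ∑ y, (if ξ y = ξ x then f y * g x / ((fib ξ x).card : ℝ) else 0) := by
    intro x
    simp only [fib, Finset.sum_filter]
    rw [div_mul_eq_mul_div, Finset.sum_mul, Finset.sum_div]
    refine Finset.sum_congr rfl fun y _ => ?_
    split_ifs <;> simp
  have h2 : ∀ x, f x * ((∑ y ∈ fib ξ x, g y) / ((fib ξ x).card : ℝ))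
      = ∑ y, (if ξ y = ξ x then f x * g y / ((fib ξ x).card : ℝ) else 0) := by
    intro x
    simp only [fib, Finset.sum_filter]
    rw [mul_div_assoc', Finset.mul_sum, Finset.sum_div]
    refine Finset.sum_congr rfl fun y _ => ?_
    split_ifs <;> simp
  simp_rw [h1, h2]
  rw [Finset.sum_comm]
  refine Finset.sum_congr rfl fun x _ => Finset.sum_congr rfl fun y _ => ?_
  by_cases h : ξ x = ξ y
  · rw [if_pos h, if_pos h.symm, fib_eq_of_eq ξ h]
  · rw [if_neg h, if_neg (fun h' => h h'.symm)]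

lemma ip_cond_of_meas (ξ : Ω → Y) (f g : Ω → ℝ) (hg : ∀ x y, ξ x = ξ y → g x = g y) :
    ip g (cond ξ f) = ip g f := by
  rw [ip_comm, cond_selfadj, cond_of_meas ξ g hg, ip_comm]

lemma cond_cond (ξ : Ω → Y) (f : Ω → ℝ) : cond ξ (cond ξ f) = cond ξ f :=
  cond_of_meas ξ _ fun _ _ h => cond_congr ξ f h

/-- Tower law: averaging over a finer map first does not change the coarser average. -/
lemma cond_tower (ξ : Ω → Y) (ζ : Ω → Z) (h : ∀ x y, ξ x = ξ y → ζ x = ζ y) (f : Ω → ℝ) :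
    cond ζ (cond ξ f) = cond ζ f := by
  funext x
  have h1 : ∑ y ∈ fib ζ x, cond ξ f y = ip (fun y => if ζ y = ζ x then 1 else 0) (cond ξ f) := by
    simp [ip, fib, Finset.sum_filter]
  have h2 : ∑ y ∈ fib ζ x, f y = ip (fun y => if ζ y = ζ x then 1 else 0) f := by
    simp [ip, fib, Finset.sum_filter]
  have h3 : ip (fun y => if ζ y = ζ x then (1 : ℝ) else 0) (cond ξ f)
      = ip (fun y => if ζ y = ζ x then (1 : ℝ) else 0) f := by
    apply ip_cond_of_meas
    intro a b hab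
    simp [h a b hab]
  show (∑ y ∈ fib ζ x, cond ξ f y) / _ = (∑ y ∈ fib ζ x, f y) / _
  rw [h1, h2, h3]

/-- Tower law, the other order. -/
lemma cond_tower' (ξ : Ω → Y) (ζ : Ω → Z) (h : ∀ x y, ξ x = ξ y → ζ x = ζ y) (f : Ω → ℝ) :
    cond ξ (cond ζ f) = cond ζ f :=
  cond_of_meas ξ _ fun a b hab => cond_congr ζ f (h a b hab)

/-- A function minus its fiber average. -/
noncomputable def rem (ξ : Ω → Y) (f : Ω → ℝ) : Ω → ℝ := f - cond ξ f

lemma rem_apply (ξ : Ω → Y) (f : Ω → ℝ) (x : Ω) : rem ξ f x = f x - cond ξ f x := rfl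

lemma cond_rem (ξ : Ω → Y) (f : Ω → ℝ) : cond ξ (rem ξ f) = 0 := by
  have hlin : cond ξ (f - cond ξ f) = cond ξ f - cond ξ (cond ξ f) := by
    funext x
    simp only [cond, Pi.sub_apply, Finset.sum_sub_distrib, sub_div]
  rw [rem, hlin, cond_cond, sub_self]

lemma cond_add (ξ : Ω → Y) (f g : Ω → ℝ) : cond ξ (f + g) = cond ξ f + cond ξ g := by
  funext x
  simp only [cond, Pi.add_apply, Finset.sum_add_distrib, add_div]

lemma cond_sub (ξ : Ω → Y) (f g : Ω → ℝ) : cond ξ (f - g) = cond ξ f - cond ξ g := by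
  funext x
  simp only [cond, Pi.sub_apply, Finset.sum_sub_distrib, sub_div]

lemma cond_smul (ξ : Ω → Y) (c : ℝ) (f : Ω → ℝ) : cond ξ (c • f) = c • cond ξ f := by
  funext x
  simp only [cond, Pi.smul_apply, smul_eq_mul, ← Finset.mul_sum, mul_div_assoc]

lemma cond_zero (ξ : Ω → Y) : cond ξ (0 : Ω → ℝ) = 0 := by
  funext x
  simp [cond]

lemma rem_selfadj (ξ : Ω → Y) (f g : Ω → ℝ) : ip (rem ξ f) g = ip f (rem ξ g) := by
  simp only [rem, ip_sub_left, ip_sub_right, cond_selfadj]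

lemma rem_rem (ξ : Ω → Y) (f : Ω → ℝ) : rem ξ (rem ξ f) = rem ξ f := by
  simp [rem, cond_sub, cond_cond]

lemma ip_rem_self (ξ : Ω → Y) (f : Ω → ℝ) : ip (rem ξ f) (rem ξ f) = ip f (rem ξ f) := by
  rw [rem_selfadj, rem_rem]

/-- Multiplying by a function that is constant on fibers commutes with averaging. -/
lemma cond_mul_meas (ξ : Ω → Y) (φ f : Ω → ℝ) (hφ : ∀ x y, ξ x = ξ y → φ x = φ y) :
    cond ξ (fun x => φ x * f x) = fun x => φ x * cond ξ f x := by
  funext x
  simp only [cond]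
  rw [mul_div_assoc', Finset.mul_sum]
  congr 1
  refine Finset.sum_congr rfl fun y hy => ?_
  rw [hφ y x ((mem_fib ξ x y).1 hy)]

/-- Averaging does not increase the norm. -/
lemma ip_cond_le (ξ : Ω → Y) (f : Ω → ℝ) : ip (cond ξ f) (cond ξ f) ≤ ip f f := by
  have h1 : ip (rem ξ f) (rem ξ f) = ip f f - ip (cond ξ f) (cond ξ f) := by
    rw [ip_rem_self]
    simp only [rem, ip_sub_right]
    rw [← cond_selfadj, cond_selfadj ξ f f]
    rw [← cond_cond ξ f, ← cond_selfadj, cond_cond]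
  have h2 := ip_self_nonneg (rem ξ f)
  linarith

/-- If `σ` is a bijection preserving the fibers of `ξ` (as a partition), then averaging commutes
with `σ`. -/
lemma cond_comp_equiv (ξ : Ω → Y) (σ : Equiv.Perm Ω)
    (hσ : ∀ x y, ξ (σ x) = ξ (σ y) ↔ ξ x = ξ y) (f : Ω → ℝ) :
    cond ξ (f ∘ σ) = (cond ξ f) ∘ σ := by
  classical
  funext x
  simp only [cond, Function.comp]
  have h1 : (fib ξ (σ x)) = (fib ξ x).map σ.toEmbedding := by
    ext y
    simp only [fib, Finset.mem_filter, Finset.mem_univ, true_and, Finset.mem_map,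
      Equiv.coe_toEmbedding]
    constructor
    · intro hy
      refine ⟨σ.symm y, ?_, by simp⟩
      rw [← hσ]
      simpa using hy
    · rintro ⟨a, ha, rfl⟩
      exact (hσ a x).2 ha
  rw [h1, Finset.card_map, Finset.sum_map]
  simp

end Basic

end Vale.Agent.Lib.P335
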