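import Vale.Agent.Lib.P335.Basic
set_option linter.unusedSectionVars false
set_option linter.unusedVariables false

/-!
Abstract lemmas on fiber averages: a commutation criterion, monotonicity of a Gram term under a finer
average, and the abstract form of the per-tuple inequality for two block averages.
-/

namespace Vale.Agent.Lib.P335

open Finset

variable {Ω : Type*} [Fintype Ω] {Y : Type*} [DecidableEq Y] {Z : Type*} [DecidableEq Z]
  {W : Type*} [DecidableEq W]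

/-- Commutation of two fiber averages at a point, given a mixing map. -/
lemma cond_comm_at (ξ : Ω → Y) (ζ : Ω → Z) (x : Ω) (mix : Ω → Ω → Ω)
    (h1 : ∀ y t, ξ y = ξ x → ζ t = ζ x → ξ (mix y t) = ξ t ∧ ζ (mix y t) = ζ y)
    (h2 : ∀ y t, ξ y = ξ x → ζ t = ζ x → mix x (mix y t) = t)
    (h3 : ∀ y t, ξ y = ξ x → ζ t = ζ y → ζ (mix x t) = ζ x ∧ mix y (mix x t) = t)
    (h4 : ∀ y t, ξ y = ξ x → ζ t = ζ x → mix (mix y t) x = y)
    (h5 : ∀ y t, ζ t = ζ x → ξ y = ξ t → ξ (mix y x) = ξ x ∧ mix (mix y x) t = y)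
    (f : Ω → ℝ) : cond ξ (cond ζ f) x = cond ζ (cond ξ f) x := by
  -- the fibers of `ζ` along the fiber of `ξ`
  have hA : ∀ y ∈ fib ξ x, ∀ g : Ω → ℝ,
      ∑ t ∈ fib ζ y, g t = ∑ t ∈ fib ζ x, g (mix y t) := by
    intro y hy g
    have hy' : ξ y = ξ x := (mem_fib ξ x y).1 hy
    symm
    refine Finset.sum_nbij' (fun t => mix y t) (fun t => mix x t) ?_ ?_ ?_ ?_ ?_
    · intro t ht
      exact (mem_fib ζ y _).2 (h1 y t hy' ((mem_fib ζ x t).1 ht)).2
    · intro t ht
      exact (mem_fib ζ x _).2 (h3 y t hy' ((mem_fib ζ y t).1 ht)).1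
    · intro t ht
      exact h2 y t hy' ((mem_fib ζ x t).1 ht)
    · intro t ht
      exact (h3 y t hy' ((mem_fib ζ y t).1 ht)).2
    · intro t ht
      rfl
  have hB : ∀ t ∈ fib ζ x, ∀ g : Ω → ℝ,
      ∑ y ∈ fib ξ t, g y = ∑ y ∈ fib ξ x, g (mix y t) := by
    intro t ht g
    have ht' : ζ t = ζ x := (mem_fib ζ x t).1 ht
    symm
    refine Finset.sum_nbij' (fun y => mix y t) (fun y => mix y x) ?_ ?_ ?_ ?_ ?_
    · intro y hy
      exact (mem_fib ξ t _).2 (h1 y t ((mem_fib ξ x y).1 hy) ht').1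
    · intro y hy
      exact (mem_fib ξ x _).2 (h5 y t ht' ((mem_fib ξ t y).1 hy)).1
    · intro y hy
      exact h4 y t ((mem_fib ξ x y).1 hy) ht'
    · intro y hy
      exact (h5 y t ht' ((mem_fib ξ t y).1 hy)).2
    · intro y hy
      rfl
  have cA : ∀ y ∈ fib ξ x, ((fib ζ y).card : ℝ) = ((fib ζ x).card : ℝ) := by
    intro y hy
    have := hA y hy (fun _ => 1)
    simpa using this
  have cB : ∀ t ∈ fib ζ x, ((fib ξ t).card : ℝ) = ((fib ξ x).card : ℝ) := by
    intro t ht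
    have := hB t ht (fun _ => 1)
    simpa using this
  have e1 : ∑ y ∈ fib ξ x, cond ζ f y
      = ∑ y ∈ fib ξ x, (∑ t ∈ fib ζ x, f (mix y t)) / ((fib ζ x).card : ℝ) := by
    refine Finset.sum_congr rfl fun y hy => ?_
    simp only [cond]
    rw [hA y hy f, cA y hy]
  have e2 : ∑ t ∈ fib ζ x, cond ξ f t
      = ∑ t ∈ fib ζ x, (∑ y ∈ fib ξ x, f (mix y t)) / ((fib ξ x).card : ℝ) := by
    refine Finset.sum_congr rfl fun t ht => ?_
    simp only [cond]
    rw [hB t ht f, cB t ht]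
  show (∑ y ∈ fib ξ x, cond ζ f y) / _ = (∑ t ∈ fib ζ x, cond ξ f t) / _
  rw [e1, e2, ← Finset.sum_div, ← Finset.sum_div, Finset.sum_comm, div_right_comm]

/-- Replacing the function by a finer average can only lower the Gram term. -/
lemma mono_step (ξ : Ω → Y) (ζ : Ω → Z) (κ : Ω → W) (href : ∀ x y, κ x = κ y → ξ x = ξ y)
    (hc : ∀ f, cond κ (cond ζ f) = cond ζ (cond κ f)) (s : Ω → ℝ) :
    ip (rem ξ (cond κ s)) (rem ζ (cond κ s)) ≤ ip (rem ξ s) (rem ζ s) := by
  set p := cond κ s with hp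
  set q := rem κ s with hq
  have hs : s = p + q := by
    funext x; simp [hp, hq, rem]
  have hκq : cond κ q = 0 := cond_rem κ s
  have hξq : cond ξ q = 0 := by
    rw [← cond_tower κ ξ href q, hκq, cond_zero]
  have hremξq : rem ξ q = q := by
    simp [rem, hξq]
  have hremaddξ : rem ξ s = rem ξ p + rem ξ q := by
    conv_lhs => rw [hs]
    simp only [rem, cond_add]
    abel
  have hremaddζ : rem ζ s = rem ζ p + rem ζ q := by
    conv_lhs => rw [hs]
    simp only [rem, cond_add]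
    abel
  have e1 : ip q (rem ζ q) = ip (rem ζ q) (rem ζ q) := by
    rw [rem_selfadj ζ q (rem ζ q), rem_rem]
  have e2 : ip q (rem ζ p) = 0 := by
    have : rem ζ p = cond κ (rem ζ s) := by
      simp only [rem, cond_sub, hc, hp]
    rw [this, ← cond_selfadj, hκq, ip_zero_left]
  have e3 : ip (rem ξ p) (rem ζ q) = 0 := by
    have h1 : cond κ (rem ξ p) = rem ξ p := by
      simp only [rem, cond_sub]
      rw [hp, cond_cond, cond_tower' κ ξ href]
    have h2 : cond κ (rem ζ q) = 0 := by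
      simp only [rem, cond_sub, hκq, hc, cond_zero, sub_self]
    rw [← h1, cond_selfadj, h2, ip_zero_right]
  have key : ip (rem ξ s) (rem ζ s) = ip (rem ξ p) (rem ζ p) + ip (rem ζ q) (rem ζ q) := by
    rw [hremaddξ, hremaddζ, hremξq, ip_add_left, ip_add_right, ip_add_right, e1, e2, e3]
    ring
  rw [key]
  linarith [ip_self_nonneg (rem ζ q)]

/-- If the bijective involution `τ` preserves `κ`, an antisymmetric function has zero average. -/
lemma cond_eq_zero_of_anti (κ : Ω → W) (τ : Ω → Ω) (hττ : ∀ x, τ (τ x) = x)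
    (hκ : ∀ x, κ (τ x) = κ x) (a : Ω → ℝ) (ha : ∀ x, a (τ x) = - a x) : cond κ a = 0 := by
  funext x
  have hsum : ∑ y ∈ fib κ x, a y = ∑ y ∈ fib κ x, a (τ y) := by
    refine Finset.sum_nbij' τ τ ?_ ?_ ?_ ?_ ?_
    · intro y hy
      rw [mem_fib] at hy ⊢
      rw [hκ, hy]
    · intro y hy
      rw [mem_fib] at hy ⊢
      rw [hκ, hy]
    · intro y _; exact hττ y
    · intro y _; exact hττ y
    · intro y _; rw [hττ]
  have h0 : ∑ y ∈ fib κ x, a y = 0 := by
    have : ∑ y ∈ fib κ x, a (τ y) = - ∑ y ∈ fib κ x, a y := by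
      rw [← Finset.sum_neg_distrib]
      exact Finset.sum_congr rfl fun y _ => ha y
    linarith
  simp [cond, h0]

/-- If `τ` preserves `κ`, the average of any function is `τ`-invariant. -/
lemma cond_tau_inv (κ : Ω → W) (τ : Ω → Ω) (hκ : ∀ x, κ (τ x) = κ x) (f : Ω → ℝ) (x : Ω) :
    cond κ f (τ x) = cond κ f x :=
  cond_congr κ f (hκ x)

/-- Averages of `τ`-invariant functions are `τ`-invariant, when `τ` permutes the fibers. -/
lemma cond_inv_of_inv (κ : Ω → W) (τ : Ω → Ω) (hττ : ∀ x, τ (τ x) = x)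
    (hκ : ∀ x y, κ (τ x) = κ (τ y) ↔ κ x = κ y) (f : Ω → ℝ) (hf : ∀ x, f (τ x) = f x) (x : Ω) :
    cond κ f (τ x) = cond κ f x := by
  have h := cond_comp_equiv κ
    ({ toFun := τ, invFun := τ, left_inv := hττ, right_inv := hττ } : Equiv.Perm Ω)
    (by simpa using hκ) f
  have h2 : f ∘ ({ toFun := τ, invFun := τ, left_inv := hττ, right_inv := hττ } : Equiv.Perm Ω)
      = f := by
    funext y; simpa using hf y
  rw [h2] at h
  have := congrFun h x
  simpa using this.symm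

section Abstract

variable (ξ ζ : Ω → Y) {C : Type*} [DecidableEq C] (M : Ω → C) (τ : Ω → Ω) (Sep : Ω → Prop)
  [DecidablePred Sep] (Sec : Ω → Prop) [DecidablePred Sec]

/-- The key refined by `M`. -/
def refK (ξ : Ω → Y) (M : Ω → C) : Ω → Y × C := fun x => (ξ x, M x)

/-- The key refined by the flag `Sep`. -/
def sepK (ξ : Ω → Y) (Sep : Ω → Prop) [DecidablePred Sep] : Ω → Y × Bool :=
  fun x => (ξ x, decide (Sep x))

/-- Restricted to `Sep`, the average over the `Sep`-part of the fiber of the remainder. -/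
noncomputable def lam (ξ : Ω → Y) (Sep : Ω → Prop) [DecidablePred Sep] (f : Ω → ℝ) : Ω → ℝ :=
  fun x => if Sep x then cond (sepK ξ Sep) (rem ξ f) x else 0

/-- The Gram correction. -/
noncomputable def ZZ (ξ : Ω → Y) (Sep : Ω → Prop) [DecidablePred Sep] (f : Ω → ℝ) : ℝ :=
  ip (lam ξ Sep f) (lam ξ Sep f)

lemma ZZ_nonneg (f : Ω → ℝ) : 0 ≤ ZZ ξ Sep f := ip_self_nonneg _

/-- All the facts on the two keys needed for the per-tuple inequality. -/
structure PairHyp : Prop where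
  ττ : ∀ x, τ (τ x) = x
  τξ : ∀ x, ξ (τ x) = ξ x
  τζ : ∀ x, ζ (τ x) = ζ x
  τM : ∀ x y, M (τ x) = M (τ y) ↔ M x = M y
  τfix : ∀ x, ¬ Sep x → τ x = x
  τSep : ∀ x, Sep (τ x) ↔ Sep x
  SepM : ∀ x y, M x = M y → (Sep x ↔ Sep y)
  Secξ : ∀ x y, ξ x = ξ y → (Sec x ↔ Sec y)
  Secζ : ∀ x y, ζ x = ζ y → (Sec x ↔ Sec y)
  SepSec : ∀ x, Sep x → Sec x
  SepCases : ∀ x y, Sep x → Sep y → M x = M y ∨ M (τ x) = M y
  nonSep : ∀ x, Sec x → ¬ Sep x → (∀ y, ζ y = ζ x → M y = M x) ∨ (∀ y, ξ y = ξ x → M y = M x)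
  c1 : ∀ f, cond (refK ξ M) (cond ζ f) = cond ζ (cond (refK ξ M) f)
  c2 : ∀ f, cond (refK ζ M) (cond ξ f) = cond ξ (cond (refK ζ M) f)
  c3 : ∀ f, cond (refK ξ M) (cond (refK ζ M) f) = cond (refK ζ M) (cond (refK ξ M) f)
  c4 : ∀ f, cond (refK ζ M) (cond (sepK ξ Sep) f) = cond (sepK ξ Sep) (cond (refK ζ M) f)
  c4' : ∀ f, cond (refK ξ M) (cond (sepK ζ Sep) f) = cond (sepK ζ Sep) (cond (refK ξ M) f)
  c5 : ∀ f x, ¬ Sec x → cond ξ (cond ζ f) x = cond ζ (cond ξ f) x

variable {ξ ζ M τ Sep Sec}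

lemma PairHyp.symm (H : PairHyp ξ ζ M τ Sep Sec) : PairHyp ζ ξ M τ Sep Sec where
  ττ := H.ττ
  τξ := H.τζ
  τζ := H.τξ
  τM := H.τM
  τfix := H.τfix
  τSep := H.τSep
  SepM := H.SepM
  Secξ := H.Secζ
  Secζ := H.Secξ
  SepSec := H.SepSec
  SepCases := H.SepCases
  nonSep := fun x h1 h2 => (H.nonSep x h1 h2).symm
  c1 := H.c2
  c2 := H.c1
  c3 := fun f => (H.c3 f).symm
  c4 := H.c4'
  c4' := H.c4
  c5 := fun f x h => (H.c5 f x h).symm

lemma refK_ref (x y : Ω) (h : refK ξ M x = refK ξ M y) : ξ x = ξ y :=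
  (Prod.ext_iff.1 h).1

lemma refK_refM (x y : Ω) (h : refK ξ M x = refK ξ M y) : M x = M y :=
  (Prod.ext_iff.1 h).2

lemma sepK_ref (x y : Ω) (h : sepK ξ Sep x = sepK ξ Sep y) : ξ x = ξ y :=
  (Prod.ext_iff.1 h).1

lemma sepK_flag (x y : Ω) (h : sepK ξ Sep x = sepK ξ Sep y) : Sep x ↔ Sep y := by
  have := (Prod.ext_iff.1 h).2
  simpa [sepK] using this

lemma refK_sepK (H : PairHyp ξ ζ M τ Sep Sec) (x y : Ω) (h : refK ξ M x = refK ξ M y) :
    sepK ξ Sep x = sepK ξ Sep y := by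
  have h1 := refK_ref x y h
  have h2 := H.SepM x y (refK_refM x y h)
  simp [sepK, h1, h2]

lemma rem_sub (χ : Ω → W) (f g : Ω → ℝ) : rem χ (f - g) = rem χ f - rem χ g := by
  simp only [rem, cond_sub]
  abel

lemma rem_add (χ : Ω → W) (f g : Ω → ℝ) : rem χ (f + g) = rem χ f + rem χ g := by
  simp only [rem, cond_add]
  abel

lemma lam_add (f g : Ω → ℝ) : lam ξ Sep (f + g) = lam ξ Sep f + lam ξ Sep g := by
  funext x
  simp only [lam, Pi.add_apply, rem_add, cond_add]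
  split_ifs <;> simp

/-- `lam` does not see the average over the refinement. -/
lemma lam_refK (H : PairHyp ξ ζ M τ Sep Sec) (f : Ω → ℝ) :
    lam ξ Sep (cond (refK ξ M) f) = lam ξ Sep f := by
  funext x
  simp only [lam]
  split_ifs
  · have h1 : rem ξ (cond (refK ξ M) f) = cond (refK ξ M) f - cond ξ f := by
      simp only [rem]
      rw [cond_tower (refK ξ M) ξ refK_ref f]
    have h2 : cond (sepK ξ Sep) (cond (refK ξ M) f) = cond (sepK ξ Sep) f :=
      cond_tower (refK ξ M) (sepK ξ Sep) (refK_sepK H) f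
    rw [h1, cond_sub, h2]
    simp only [rem, cond_sub]
  · rfl

/-- `lam` commutes with the other refined average. -/
lemma lam_refK' (H : PairHyp ξ ζ M τ Sep Sec) (f : Ω → ℝ) :
    lam ξ Sep (cond (refK ζ M) f) = cond (refK ζ M) (lam ξ Sep f) := by
  have h0 : ∀ x, lam ξ Sep f x
      = (if Sep x then (1 : ℝ) else 0) * cond (sepK ξ Sep) (rem ξ f) x := by
    intro x; simp [lam]
  have h1 : lam ξ Sep f
      = fun x => (if Sep x then (1 : ℝ) else 0) * cond (sepK ξ Sep) (rem ξ f) x := funext h0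
  have h2 : cond (refK ζ M) (lam ξ Sep f)
      = fun x => (if Sep x then (1 : ℝ) else 0) *
          cond (refK ζ M) (cond (sepK ξ Sep) (rem ξ f)) x := by
    rw [h1]
    apply cond_mul_meas
    intro x y hxy
    have := H.SepM x y (refK_refM x y hxy)
    simp [this]
  funext x
  rw [h2]
  have h3 : rem ξ (cond (refK ζ M) f) = cond (refK ζ M) (rem ξ f) := by
    simp only [rem, cond_sub]
    rw [H.c2]
  simp only [lam, h3, H.c4]
  split_ifs <;> simp

lemma ZZ_mono (H : PairHyp ξ ζ M τ Sep Sec) (f : Ω → ℝ) :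
    ZZ ξ Sep (cond (refK ζ M) (cond (refK ξ M) f)) ≤ ZZ ξ Sep f := by
  unfold ZZ
  rw [lam_refK' H, lam_refK H]
  exact ip_cond_le _ _

lemma ZZ_mono' (H : PairHyp ξ ζ M τ Sep Sec) (f : Ω → ℝ) :
    ZZ ζ Sep (cond (refK ζ M) (cond (refK ξ M) f)) ≤ ZZ ζ Sep f := by
  rw [← H.c3 f]
  exact ZZ_mono H.symm f

lemma cond_eq_of_const (κ : Ω → W) (A : Ω → ℝ) (x : Ω) (h : ∀ y, κ y = κ x → A y = A x) :
    cond κ A x = A x := by
  have h1 : (∑ y ∈ fib κ x, A y) = ((fib κ x).card : ℝ) * A x := by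
    rw [Finset.sum_congr rfl (g := fun _ => A x)]
    · simp
    · intro y hy
      exact h y ((mem_fib κ x y).1 hy)
  have h2 : ((fib κ x).card : ℝ) ≠ 0 := by
    exact_mod_cast (fib_card_pos κ x).ne'
  simp only [cond, h1]
  field_simp

lemma ip_inv_anti (τ : Ω → Ω) (hττ : ∀ x, τ (τ x) = x) (u a : Ω → ℝ) (hu : ∀ x, u (τ x) = u x)
    (ha : ∀ x, a (τ x) = - a x) : ip u a = 0 := by
  have h1 : ∑ x, u x * a x = ∑ x, u (τ x) * a (τ x) := by
    refine Finset.sum_nbij' τ τ ?_ ?_ ?_ ?_ ?_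
    · intro y _; exact mem_univ _
    · intro y _; exact mem_univ _
    · intro y _; exact hττ y
    · intro y _; exact hττ y
    · intro y _; rw [hττ]
  have h2 : ∑ x, u (τ x) * a (τ x) = - ∑ x, u x * a x := by
    rw [← Finset.sum_neg_distrib]
    refine Finset.sum_congr rfl fun x _ => ?_
    rw [hu, ha]; ring
  unfold ip
  linarith

/-- The sector cut-off. -/
noncomputable def cut (Sec : Ω → Prop) [DecidablePred Sec] (f : Ω → ℝ) : Ω → ℝ :=
  fun x => (if Sec x then (1 : ℝ) else 0) * f x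

/-- The complementary cut-off. -/
noncomputable def cocut (Sec : Ω → Prop) [DecidablePred Sec] (f : Ω → ℝ) : Ω → ℝ :=
  fun x => (if Sec x then (0 : ℝ) else 1) * f x

lemma cut_add_cocut (f : Ω → ℝ) : f = cut Sec f + cocut Sec f := by
  funext x
  simp only [cut, cocut, Pi.add_apply]
  split_ifs <;> simp

lemma cond_cut (χ : Ω → W) (hχ : ∀ x y, χ x = χ y → (Sec x ↔ Sec y)) (f : Ω → ℝ) :
    cond χ (cut Sec f) = cut Sec (cond χ f) := by
  apply cond_mul_meas
  intro x y hxy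
  simp [hχ x y hxy]

lemma cond_cocut (χ : Ω → W) (hχ : ∀ x y, χ x = χ y → (Sec x ↔ Sec y)) (f : Ω → ℝ) :
    cond χ (cocut Sec f) = cocut Sec (cond χ f) := by
  apply cond_mul_meas
  intro x y hxy
  simp [hχ x y hxy]

lemma rem_cut (χ : Ω → W) (hχ : ∀ x y, χ x = χ y → (Sec x ↔ Sec y)) (f : Ω → ℝ) :
    rem χ (cut Sec f) = cut Sec (rem χ f) := by
  funext x
  simp only [rem, cond_cut χ hχ, Pi.sub_apply, cut]
  ring

lemma rem_cocut (χ : Ω → W) (hχ : ∀ x y, χ x = χ y → (Sec x ↔ Sec y)) (f : Ω → ℝ) :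
    rem χ (cocut Sec f) = cocut Sec (rem χ f) := by
  funext x
  simp only [rem, cond_cocut χ hχ, Pi.sub_apply, cocut]
  ring

lemma ip_cut_cocut (f g : Ω → ℝ) : ip (cut Sec f) (cocut Sec g) = 0 := by
  unfold ip cut cocut
  refine Finset.sum_eq_zero fun x _ => ?_
  split_ifs <;> simp

/-- The Gram term of two commuting averages is nonnegative. -/
lemma ip_rem_nonneg_of_comm (ξ : Ω → Y) (ζ : Ω → Z) (h : Ω → ℝ)
    (hc : cond ξ (cond ζ h) = cond ζ (cond ξ h)) : 0 ≤ ip (rem ξ h) (rem ζ h) := by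
  have h1 : rem ξ (rem ζ h) = rem ζ (rem ξ h) := by
    simp only [rem, cond_sub, hc]
    abel
  have h2 : ip (rem ξ h) (rem ζ h) = ip (rem ζ (rem ξ h)) (rem ζ (rem ξ h)) := by
    rw [ip_rem_self ζ (rem ξ h), ← h1, ← rem_selfadj ξ (rem ξ h) (rem ζ h), rem_rem]
  rw [h2]
  exact ip_self_nonneg _

section Main

variable (H : PairHyp ξ ζ M τ Sep Sec)
include H

/-- The sector part outside `Sec` has a nonnegative Gram term. -/
lemma gram_cocut (s : Ω → ℝ) :
    0 ≤ ip (rem ξ (cocut Sec s)) (rem ζ (cocut Sec s)) := by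
  apply ip_rem_nonneg_of_comm
  funext x
  by_cases hx : Sec x
  · rw [cond_cocut ζ H.Secζ, cond_cocut ξ H.Secξ, cond_cocut ξ H.Secξ, cond_cocut ζ H.Secζ]
    simp [cocut, hx]
  · exact H.c5 _ x hx

/-- Splitting off the sector. -/
lemma gram_sector (s : Ω → ℝ) :
    ip (rem ξ (cut Sec s)) (rem ζ (cut Sec s)) ≤ ip (rem ξ s) (rem ζ s) := by
  have hs := cut_add_cocut (Sec := Sec) s
  have e1 : rem ξ s = rem ξ (cut Sec s) + rem ξ (cocut Sec s) := by
    conv_lhs => rw [hs]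
    exact rem_add _ _ _
  have e2 : rem ζ s = rem ζ (cut Sec s) + rem ζ (cocut Sec s) := by
    conv_lhs => rw [hs]
    exact rem_add _ _ _
  rw [e1, e2, ip_add_left, ip_add_right, ip_add_right]
  have h1 : ip (rem ξ (cut Sec s)) (rem ζ (cocut Sec s)) = 0 := by
    rw [rem_cut ξ H.Secξ, rem_cocut ζ H.Secζ]
    exact ip_cut_cocut _ _
  have h2 : ip (rem ξ (cocut Sec s)) (rem ζ (cut Sec s)) = 0 := by
    rw [rem_cut ζ H.Secζ, rem_cocut ξ H.Secξ, ip_comm]
    exact ip_cut_cocut _ _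
  have h3 := gram_cocut H s
  linarith

/-- The double average of `s`. -/
noncomputable def gOf (_H : PairHyp ξ ζ M τ Sep Sec) (s : Ω → ℝ) : Ω → ℝ :=
  cond (refK ζ M) (cond (refK ξ M) s)

lemma gOf_meas_ζ (s : Ω → ℝ) (x y : Ω) (h : refK ζ M x = refK ζ M y) : gOf H s x = gOf H s y :=
  cond_congr _ _ h

lemma gOf_meas_ξ (s : Ω → ℝ) (x y : Ω) (h : refK ξ M x = refK ξ M y) : gOf H s x = gOf H s y := by
  unfold gOf
  rw [← H.c3]
  exact cond_congr _ _ h

lemma refK_τ_iff (χ : Ω → Y) (hτ : ∀ x, χ (τ x) = χ x) (x y : Ω) :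
    refK χ M (τ x) = refK χ M (τ y) ↔ refK χ M x = refK χ M y := by
  simp only [refK, Prod.mk.injEq, hτ, H.τM]

lemma gOf_τ (s : Ω → ℝ) (hs : ∀ x, s (τ x) = s x) (x : Ω) : gOf H s (τ x) = gOf H s x := by
  have h1 : ∀ x, cond (refK ξ M) s (τ x) = cond (refK ξ M) s x :=
    cond_inv_of_inv _ τ H.ττ (refK_τ_iff H ξ H.τξ) s hs
  exact cond_inv_of_inv _ τ H.ττ (refK_τ_iff H ζ H.τζ) _ h1 x

lemma gOf_sec (s : Ω → ℝ) (x : Ω) (hx : ¬ Sec x) : gOf H (cut Sec s) x = 0 := by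
  unfold gOf
  have h1 : ∀ x y, refK ξ M x = refK ξ M y → (Sec x ↔ Sec y) :=
    fun x y h => H.Secξ x y (refK_ref x y h)
  have h2 : ∀ x y, refK ζ M x = refK ζ M y → (Sec x ↔ Sec y) :=
    fun x y h => H.Secζ x y (refK_ref x y h)
  rw [cond_cut _ h1, cond_cut _ h2]
  simp [cut, hx]

/-- On `Sep` the remainder of the double average equals `lam`. -/
lemma lam_gOf (s : Ω → ℝ) (hs : ∀ x, s (τ x) = s x) (x : Ω) (hx : Sep x) :
    lam ξ Sep (gOf H s) x = rem ξ (gOf H s) x := by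
  simp only [lam, if_pos hx]
  apply cond_eq_of_const
  intro y hy
  have hy1 : ξ y = ξ x := sepK_ref y x hy
  have hy2 : Sep y := (sepK_flag y x hy).2 hx
  have hg : gOf H s y = gOf H s x := by
    rcases H.SepCases x y hx hy2 with h | h
    · exact (gOf_meas_ξ H s x y (by simp [refK, hy1, h])).symm
    · have h3 : refK ξ M (τ x) = refK ξ M y := by
        simp [refK, hy1, H.τξ, h]
      rw [← gOf_meas_ξ H s _ _ h3, gOf_τ H s hs]
  simp only [rem_apply, hg, cond_congr ξ (gOf H s) hy1]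

/-- The pointwise bound behind the Gram estimate of the double average. -/
lemma gram_point (s : Ω → ℝ) (hs : ∀ x, s (τ x) = s x) (x : Ω) :
    - (1 / 2) * ((lam ξ Sep (gOf H (cut Sec s)) x) ^ 2 + (lam ζ Sep (gOf H (cut Sec s)) x) ^ 2)
      ≤ rem ξ (gOf H (cut Sec s)) x * rem ζ (gOf H (cut Sec s)) x := by
  have hs' : ∀ x, cut Sec s (τ x) = cut Sec s x := by
    intro x
    have h1 : Sec (τ x) ↔ Sec x := H.Secξ _ _ (H.τξ x)
    simp [cut, hs, h1]
  by_cases hx : Sep x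
  · have e1 := lam_gOf H (cut Sec s) hs' x hx
    have e2 : lam ζ Sep (gOf H (cut Sec s)) x = rem ζ (gOf H (cut Sec s)) x := by
      have h3 := lam_gOf H.symm (cut Sec s) hs' x hx
      have h4 : gOf H.symm (cut Sec s) = gOf H (cut Sec s) := by
        unfold gOf
        rw [H.c3]
      rwa [h4] at h3
    rw [e1, e2]
    nlinarith [sq_nonneg (rem ξ (gOf H (cut Sec s)) x + rem ζ (gOf H (cut Sec s)) x)]
  · have e1 : lam ξ Sep (gOf H (cut Sec s)) x = 0 := by simp [lam, hx]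
    have e2 : lam ζ Sep (gOf H (cut Sec s)) x = 0 := by simp [lam, hx]
    rw [e1, e2]
    have key : rem ξ (gOf H (cut Sec s)) x = 0 ∨ rem ζ (gOf H (cut Sec s)) x = 0 := by
      by_cases hsec : Sec x
      · rcases H.nonSep x hsec hx with h | h
        · right
          have : cond ζ (gOf H (cut Sec s)) x = gOf H (cut Sec s) x := by
            apply cond_eq_of_const
            intro y hy
            apply gOf_meas_ζ
            simp [refK, hy, h y hy]
          simp [rem_apply, this]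
        · left
          have : cond ξ (gOf H (cut Sec s)) x = gOf H (cut Sec s) x := by
            apply cond_eq_of_const
            intro y hy
            apply gOf_meas_ξ
            simp [refK, hy, h y hy]
          simp [rem_apply, this]
      · left
        have h0 : gOf H (cut Sec s) x = 0 := gOf_sec H s x hsec
        have : cond ξ (gOf H (cut Sec s)) x = gOf H (cut Sec s) x := by
          apply cond_eq_of_const
          intro y hy
          rw [h0]
          apply gOf_sec H s y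
          rwa [H.Secξ y x hy]
        simp [rem_apply, this]
    rcases key with h | h <;> simp [h]

lemma gram_gOf (s : Ω → ℝ) (hs : ∀ x, s (τ x) = s x) :
    - (1 / 2) * (ZZ ξ Sep (gOf H (cut Sec s)) + ZZ ζ Sep (gOf H (cut Sec s)))
      ≤ ip (rem ξ (gOf H (cut Sec s))) (rem ζ (gOf H (cut Sec s))) := by
  unfold ZZ ip
  rw [← Finset.sum_add_distrib, Finset.mul_sum]
  refine Finset.sum_le_sum fun x _ => ?_
  have := gram_point H s hs x
  simpa [pow_two] using this

lemma lam_cocut (s : Ω → ℝ) : lam ξ Sep (cocut Sec s) = 0 := by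
  funext x
  simp only [lam, Pi.zero_apply]
  split_ifs with hx
  · rw [rem_cocut ξ H.Secξ, cond_cocut _ (fun a b h => H.Secξ a b (sepK_ref a b h))]
    simp [cocut, H.SepSec x hx]
  · rfl

lemma lam_anti (a : Ω → ℝ) (ha : ∀ x, a (τ x) = - a x) : lam ξ Sep a = 0 := by
  have h1 : cond ξ a = 0 := cond_eq_zero_of_anti ξ τ H.ττ H.τξ a ha
  have h2 : rem ξ a = a := by simp [rem, h1]
  have h3 : cond (sepK ξ Sep) a = 0 := by
    apply cond_eq_zero_of_anti _ τ H.ττ _ a ha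
    intro x
    simp [sepK, H.τξ, H.τSep]
  funext x
  simp only [lam, h2, h3]
  simp

/-- The abstract per-tuple inequality. -/
theorem star_abs (f : Ω → ℝ) :
    (1 / 2) * ∑ x, (f x - f (τ x)) ^ 2 - ZZ ξ Sep f - ZZ ζ Sep f
      ≤ 2 * ip (rem ξ f) (rem ζ f) := by
  -- symmetric and antisymmetric parts
  set s : Ω → ℝ := fun x => (f x + f (τ x)) / 2 with hs
  set a : Ω → ℝ := fun x => (f x - f (τ x)) / 2 with ha
  have hf : f = s + a := by
    funext x; simp only [hs, ha, Pi.add_apply]; ring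
  have hsτ : ∀ x, s (τ x) = s x := by
    intro x; simp only [hs, H.ττ]; ring
  have haτ : ∀ x, a (τ x) = - a x := by
    intro x; simp only [ha, H.ττ]; ring
  have hc1 : cond ξ a = 0 := cond_eq_zero_of_anti ξ τ H.ττ H.τξ a haτ
  have hc2 : cond ζ a = 0 := cond_eq_zero_of_anti ζ τ H.ττ H.τζ a haτ
  have hr1 : rem ξ a = a := by simp [rem, hc1]
  have hr2 : rem ζ a = a := by simp [rem, hc2]
  have hinv : ∀ (χ : Ω → Y), (∀ x, χ (τ x) = χ x) → ∀ x, rem χ s (τ x) = rem χ s x := by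
    intro χ hχ x
    simp only [rem_apply, hsτ, cond_tau_inv χ τ hχ]
  have e0 : ip (rem ξ f) (rem ζ f) = ip (rem ξ s) (rem ζ s) + ip a a := by
    conv_lhs => rw [hf]
    rw [rem_add, rem_add, hr1, hr2, ip_add_left, ip_add_right, ip_add_right]
    have h1 : ip (rem ξ s) a = 0 := ip_inv_anti τ H.ττ _ a (hinv ξ H.τξ) haτ
    have h2 : ip a (rem ζ s) = 0 := by
      rw [ip_comm]; exact ip_inv_anti τ H.ττ _ a (hinv ζ H.τζ) haτ
    rw [h1, h2]; ring
  have e1 : ip a a = (1 / 4) * ∑ x, (f x - f (τ x)) ^ 2 := by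
    unfold ip
    rw [Finset.mul_sum]
    refine Finset.sum_congr rfl fun x _ => ?_
    simp only [ha]; ring
  -- the reduction to the sector and to the double average
  have e2 := gram_sector H s
  set p := cond (refK ξ M) (cut Sec s) with hp
  have e3 : ip (rem ξ p) (rem ζ p) ≤ ip (rem ξ (cut Sec s)) (rem ζ (cut Sec s)) :=
    mono_step ξ ζ (refK ξ M) refK_ref H.c1 (cut Sec s)
  have e4 : ip (rem ζ (cond (refK ζ M) p)) (rem ξ (cond (refK ζ M) p)) ≤ ip (rem ζ p) (rem ξ p) :=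
    mono_step ζ ξ (refK ζ M) refK_ref H.c2 p
  have e5 := gram_gOf H s hsτ
  have e6 : gOf H (cut Sec s) = cond (refK ζ M) p := rfl
  rw [e6] at e5
  rw [ip_comm (rem ζ _), ip_comm (rem ζ p)] at e4
  -- comparison of the corrections
  have hZ1 : ZZ ξ Sep (cond (refK ζ M) p) ≤ ZZ ξ Sep f := by
    have h1 : ZZ ξ Sep (cond (refK ζ M) p) ≤ ZZ ξ Sep (cut Sec s) := ZZ_mono H _
    have h2 : lam ξ Sep f = lam ξ Sep (cut Sec s) := by
      conv_lhs => rw [hf, cut_add_cocut (Sec := Sec) s]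
      rw [lam_add, lam_add, lam_cocut H, lam_anti H a haτ]
      simp
    have h3 : ZZ ξ Sep f = ZZ ξ Sep (cut Sec s) := by
      unfold ZZ; rw [h2]
    linarith
  have hZ2 : ZZ ζ Sep (cond (refK ζ M) p) ≤ ZZ ζ Sep f := by
    have h1 : ZZ ζ Sep (cond (refK ζ M) p) ≤ ZZ ζ Sep (cut Sec s) := ZZ_mono' H _
    have h2 : lam ζ Sep f = lam ζ Sep (cut Sec s) := by
      conv_lhs => rw [hf, cut_add_cocut (Sec := Sec) s]
      rw [lam_add, lam_add, lam_cocut H.symm, lam_anti H.symm a haτ]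
      simp
    have h3 : ZZ ζ Sep f = ZZ ζ Sep (cut Sec s) := by
      unfold ZZ; rw [h2]
    linarith
  rw [e0, e1]
  linarith

end Main

end Abstract

end Vale.Agent.Lib.P335
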