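import Vale.Agent.Lib.P335.Graph
import Vale.Agent.Lib.P335.OpLemmas
set_option linter.unusedSectionVars false
set_option linter.unusedVariables false

/-!
The block keys of a pair of vertices, and the gluing of two graphs along the stripes of a pair.
-/

namespace Vale.Agent.Lib.P335

open Finset

variable {V : Type*} [Fintype V] [DecidableEq V]

/-- The pairs from `u` or `v` to a vertex of `W`. -/
def stripe (u v : V) (W : Finset V) : Finset (Sym2 V) :=
  univ.filter fun e => ∃ c ∈ W, e = s(u, c) ∨ e = s(v, c)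

lemma mk_mem_stripe {u v a b : V} {W : Finset V} :
    s(a, b) ∈ stripe u v W ↔ ((a = u ∨ a = v) ∧ b ∈ W) ∨ ((b = u ∨ b = v) ∧ a ∈ W) := by
  simp only [stripe, mem_filter, mem_univ, true_and]
  constructor
  · rintro ⟨c, hc, h | h⟩
    · rcases Sym2.eq_iff.1 h with ⟨rfl, rfl⟩ | ⟨rfl, rfl⟩
      · exact Or.inl ⟨Or.inl rfl, hc⟩
      · exact Or.inr ⟨Or.inl rfl, hc⟩
    · rcases Sym2.eq_iff.1 h with ⟨rfl, rfl⟩ | ⟨rfl, rfl⟩
      · exact Or.inl ⟨Or.inr rfl, hc⟩
      · exact Or.inr ⟨Or.inr rfl, hc⟩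
  · rintro (⟨h | h, hb⟩ | ⟨h | h, ha⟩)
    · subst h; exact ⟨b, hb, Or.inl rfl⟩
    · subst h; exact ⟨b, hb, Or.inr rfl⟩
    · subst h; exact ⟨a, ha, Or.inl Sym2.eq_swap⟩
    · subst h; exact ⟨a, ha, Or.inr Sym2.eq_swap⟩

/-- The vertices other than `u, v`. -/
def others (u v : V) : Finset V := univ.filter fun c => c ≠ u ∧ c ≠ v

@[simp] lemma mem_others {u v c : V} : c ∈ others u v ↔ c ≠ u ∧ c ≠ v := by
  simp [others]

/-- The vertices other than `u, v, w, z`. -/
def Out (u v w z : V) : Finset V := univ.filter fun c => c ≠ u ∧ c ≠ v ∧ c ≠ w ∧ c ≠ z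

@[simp] lemma mem_Out {u v w z c : V} : c ∈ Out u v w z ↔ c ≠ u ∧ c ≠ v ∧ c ≠ w ∧ c ≠ z := by
  simp [Out]

/-- The key of the block of the pair `u, v`: all pairs not in the stripe of `u, v` and the sums of the
two indicators on each column. -/
def blkKey (u v : V) (G : Finset (Sym2 V)) : Finset (Sym2 V) × (V → ℤ) :=
  (G \ stripe u v (others u v), fun c => if c ∈ others u v then ed G u c + ed G v c else 0)

lemma blkKey_eq_iff {u v : V} {G G' : Finset (Sym2 V)} :
    blkKey u v G = blkKey u v G' ↔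
      (∀ e, e ∉ stripe u v (others u v) → (e ∈ G ↔ e ∈ G')) ∧
        ∀ c, c ≠ u → c ≠ v → ed G u c + ed G v c = ed G' u c + ed G' v c := by
  simp only [blkKey, Prod.mk.injEq]
  constructor
  · rintro ⟨h1, h2⟩
    refine ⟨fun e he => ?_, fun c h3 h4 => ?_⟩
    · have := Finset.ext_iff.1 h1 e
      simpa [he] using this
    · have := congrFun h2 c
      simpa [h3, h4] using this
  · rintro ⟨h1, h2⟩
    refine ⟨?_, ?_⟩
    · ext e
      simp only [mem_sdiff]
      by_cases he : e ∈ stripe u v (others u v)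
      · simp [he]
      · simp [he, h1 e he]
    · funext c
      by_cases h : c ∈ others u v
      · have h' := mem_others.1 h
        simp [h, h2 c h'.1 h'.2]
      · simp [h]

/-- The block key on states. -/
def xi {d : V → ℕ} (u v : V) (G : State d) : Finset (Sym2 V) × (V → ℤ) := blkKey u v G.1

/-- The remainder of `f` with respect to the block of `u, v`. -/
noncomputable def X {d : V → ℕ} (u v : V) (f : State d → ℝ) : State d → ℝ := rem (xi u v) f

lemma stripe_swap (u v : V) (W : Finset V) : stripe u v W = stripe v u W := by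
  ext e
  simp only [stripe, mem_filter, mem_univ, true_and]
  constructor <;> rintro ⟨c, hc, h⟩ <;> exact ⟨c, hc, h.symm⟩

lemma others_swap (u v : V) : others u v = others v u := by
  ext c; simp [and_comm]

lemma blkKey_swap (u v : V) (G : Finset (Sym2 V)) : blkKey u v G = blkKey v u G := by
  simp only [blkKey]
  rw [stripe_swap u v, others_swap u v]
  congr 1
  funext c
  split_ifs <;> ring

lemma xi_swap {d : V → ℕ} (u v : V) : (xi u v : State d → _) = xi v u :=
  funext fun G => blkKey_swap u v G.1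

lemma X_swap {d : V → ℕ} (u v : V) (f : State d → ℝ) : X u v f = X v u f := by
  unfold X; rw [xi_swap]

/-- The edge membership through the indicator. -/
lemma ed_eq_of_mem_iff {G G' : Finset (Sym2 V)} {a b : V} (h : s(a, b) ∈ G ↔ s(a, b) ∈ G') :
    ed G a b = ed G' a b := by
  simp [ed, h]

/-- The sum over vertices differs only at two places. -/
lemma sum_diff_two {F G : V → ℤ} {p q : V} (hpq : p ≠ q) (h : ∀ b, b ≠ p → b ≠ q → F b = G b) :
    ∑ b, F b - ∑ b, G b = (F p - G p) + (F q - G q) := by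
  rw [← Finset.sum_sub_distrib]
  have h1 : ∀ b, F b - G b = (if b = p then F p - G p else 0) + (if b = q then F q - G q else 0) := by
    intro b
    by_cases hp : b = p
    · subst hp; simp [hpq]
    · by_cases hq : b = q
      · subst hq; simp [hp]
      · simp [hp, hq, h b hp hq]
  rw [Finset.sum_congr rfl (fun b _ => h1 b), Finset.sum_add_distrib]
  simp

section Glue

variable (u v w z : V)

/-- The cell pairs between `u, v` and `w, z`. -/
def cellE : Finset (Sym2 V) := stripe u v {w, z}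

/-- The pairs between `u, v` and the remaining vertices. -/
def bO : Finset (Sym2 V) := stripe u v (Out u v w z)

/-- The graph with the pairs in `bO` from `y`, the cells from `m`, everything else from `t`. -/
def glue (y t m : Finset (Sym2 V)) : Finset (Sym2 V) :=
  univ.filter fun e => (e ∈ bO u v w z ∧ e ∈ y) ∨ (e ∉ bO u v w z ∧ e ∈ cellE u v w z ∧ e ∈ m) ∨
    (e ∉ bO u v w z ∧ e ∉ cellE u v w z ∧ e ∈ t)

variable {u v w z}

lemma mem_glue {y t m : Finset (Sym2 V)} {e : Sym2 V} :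
    e ∈ glue u v w z y t m ↔ (e ∈ bO u v w z ∧ e ∈ y) ∨ (e ∉ bO u v w z ∧ e ∈ cellE u v w z ∧ e ∈ m) ∨
      (e ∉ bO u v w z ∧ e ∉ cellE u v w z ∧ e ∈ t) := by
  simp [glue]

lemma mk_mem_bO {a b : V} : s(a, b) ∈ bO u v w z ↔
    ((a = u ∨ a = v) ∧ b ≠ u ∧ b ≠ v ∧ b ≠ w ∧ b ≠ z) ∨
      ((b = u ∨ b = v) ∧ a ≠ u ∧ a ≠ v ∧ a ≠ w ∧ a ≠ z) := by
  simp only [bO, mk_mem_stripe, mem_Out]

lemma mk_mem_cellE {a b : V} : s(a, b) ∈ cellE u v w z ↔
    ((a = u ∨ a = v) ∧ (b = w ∨ b = z)) ∨ ((b = u ∨ b = v) ∧ (a = w ∨ a = z)) := by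
  simp only [cellE, mk_mem_stripe, mem_insert, mem_singleton]

lemma ed_glue_bO {y t m : Finset (Sym2 V)} {a b : V} (h : s(a, b) ∈ bO u v w z) :
    ed (glue u v w z y t m) a b = ed y a b := by
  apply ed_eq_of_mem_iff
  simp [mem_glue, h]

lemma ed_glue_cell (h4 : Distinct4 u v w z) {y t m : Finset (Sym2 V)} {a b : V}
    (h : s(a, b) ∈ cellE u v w z) :
    ed (glue u v w z y t m) a b = ed m a b := by
  apply ed_eq_of_mem_iff
  have h0 : s(a, b) ∉ bO u v w z := by
    rw [mk_mem_cellE] at h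
    rw [mk_mem_bO]
    obtain ⟨h1, h2, h3, h5, h6, h7⟩ := h4
    rcases h with ⟨ha | ha, hb | hb⟩ | ⟨hb | hb, ha | ha⟩ <;> subst ha <;> subst hb <;> simp_all
  simp [mem_glue, h, h0]

lemma ed_glue_rest {y t m : Finset (Sym2 V)} {a b : V} (h1 : s(a, b) ∉ bO u v w z)
    (h2 : s(a, b) ∉ cellE u v w z) :
    ed (glue u v w z y t m) a b = ed t a b := by
  apply ed_eq_of_mem_iff
  simp [mem_glue, h1, h2]

lemma ed_loop {d : V → ℕ} {G : Finset (Sym2 V)} (hG : G ∈ Omega d) (a : V) : ed G a a = 0 := by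
  simp only [Omega, mem_filter, mem_univ, true_and] at hG
  have : s(a, a) ∉ G := fun h => hG.1 _ h (by simp)
  simp [ed, this]

lemma ed_uv_cases {d : V → ℕ} {y t : Finset (Sym2 V)} {a b : V}
    (hy : y ∈ Omega d) (ht : t ∈ Omega d) (hav : ed y u v = ed t u v)
    (ha : a = u ∨ a = v) (hb : b = u ∨ b = v) : ed y a b = ed t a b := by
  rcases ha with rfl | rfl <;> rcases hb with rfl | rfl
  · rw [ed_loop hy, ed_loop ht]
  · exact hav
  · rw [ed_comm y, ed_comm t]; exact hav
  · rw [ed_loop hy, ed_loop ht]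

/-- The degree of `u, v` in the glue. -/
lemma glue_deg_left (h4 : Distinct4 u v w z) {d : V → ℕ} {y t m : Finset (Sym2 V)}
    (hy : y ∈ Omega d) (ht : t ∈ Omega d) (hav : ed y u v = ed t u v) (a : V) (ha : a = u ∨ a = v)
    (hρ : ed m a w + ed m a z = ed y a w + ed y a z) :
    (∑ b, ed (glue u v w z y t m) a b) = ∑ b, ed y a b := by
  have h4' := h4
  obtain ⟨h1, h2, h3, h5, h6, h7⟩ := h4
  have haw : a ≠ w := by rcases ha with h | h <;> rw [h] <;> assumption
  have haz : a ≠ z := by rcases ha with h | h <;> rw [h] <;> assumption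
  have hkey := sum_diff_two (F := fun b => ed (glue u v w z y t m) a b) (G := fun b => ed y a b)
    (p := w) (q := z) h7 ?_
  · have e1 : ed (glue u v w z y t m) a w = ed m a w :=
      ed_glue_cell h4' (by rw [mk_mem_cellE]; exact Or.inl ⟨ha, Or.inl rfl⟩)
    have e2 : ed (glue u v w z y t m) a z = ed m a z :=
      ed_glue_cell h4' (by rw [mk_mem_cellE]; exact Or.inl ⟨ha, Or.inr rfl⟩)
    simp only [e1, e2] at hkey
    linarith
  · intro b hb1 hb2
    by_cases hb : b = u ∨ b = v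
    · have hnb : s(a, b) ∉ bO u v w z := by
        rw [mk_mem_bO]
        rintro (⟨-, h8, h9, -, -⟩ | ⟨-, h8, h9, -, -⟩)
        · rcases hb with h | h
          · exact h8 h
          · exact h9 h
        · rcases ha with h | h
          · exact h8 h
          · exact h9 h
      have hnc : s(a, b) ∉ cellE u v w z := by
        rw [mk_mem_cellE]
        rintro (⟨-, h8 | h8⟩ | ⟨-, h8 | h8⟩)
        · exact hb1 h8
        · exact hb2 h8
        · exact haw h8
        · exact haz h8
      show ed (glue u v w z y t m) a b = ed y a b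
      rw [ed_glue_rest hnb hnc]
      exact (ed_uv_cases hy ht hav ha hb).symm
    · simp only [not_or] at hb
      apply ed_glue_bO
      rw [mk_mem_bO]
      exact Or.inl ⟨ha, hb.1, hb.2, hb1, hb2⟩

/-- The degree of `w, z` in the glue. -/
lemma glue_deg_mid (h4 : Distinct4 u v w z) {y t m : Finset (Sym2 V)}
    (a : V) (ha : a = w ∨ a = z)
    (hγ : ed m u a + ed m v a = ed t u a + ed t v a) :
    (∑ b, ed (glue u v w z y t m) a b) = ∑ b, ed t a b := by
  have h4' := h4
  obtain ⟨h1, h2, h3, h5, h6, h7⟩ := h4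
  have hau : a ≠ u := by rcases ha with h | h <;> rw [h] <;> [exact h2.symm; exact h3.symm]
  have hav : a ≠ v := by rcases ha with h | h <;> rw [h] <;> [exact h5.symm; exact h6.symm]
  have hkey := sum_diff_two (F := fun b => ed (glue u v w z y t m) a b) (G := fun b => ed t a b)
    (p := u) (q := v) h1 ?_
  · have e1 : ed (glue u v w z y t m) a u = ed m a u :=
      ed_glue_cell h4' (by rw [mk_mem_cellE]; exact Or.inr ⟨Or.inl rfl, ha⟩)
    have e2 : ed (glue u v w z y t m) a v = ed m a v :=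
      ed_glue_cell h4' (by rw [mk_mem_cellE]; exact Or.inr ⟨Or.inr rfl, ha⟩)
    simp only [e1, e2] at hkey
    rw [ed_comm m a u, ed_comm m a v, ed_comm t a u, ed_comm t a v] at hkey
    linarith
  · intro b hb1 hb2
    have hnb : s(a, b) ∉ bO u v w z := by
      rw [mk_mem_bO]
      rintro (⟨h8 | h8, -⟩ | ⟨h8 | h8, -⟩)
      · exact hau h8
      · exact hav h8
      · exact hb1 h8
      · exact hb2 h8
    have hnc : s(a, b) ∉ cellE u v w z := by
      rw [mk_mem_cellE]
      rintro (⟨h8 | h8, -⟩ | ⟨h8 | h8, -⟩)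
      · exact hau h8
      · exact hav h8
      · exact hb1 h8
      · exact hb2 h8
    show ed (glue u v w z y t m) a b = ed t a b
    rw [ed_glue_rest hnb hnc]

/-- The degree of the remaining vertices in the glue. -/
lemma glue_deg_out (h4 : Distinct4 u v w z) {y t m : Finset (Sym2 V)}
    (a : V) (ha : a ∈ Out u v w z)
    (hp : ed y u a + ed y v a = ed t u a + ed t v a) :
    (∑ b, ed (glue u v w z y t m) a b) = ∑ b, ed t a b := by
  have h4' := h4
  obtain ⟨h1, h2, h3, h5, h6, h7⟩ := h4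
  obtain ⟨a1, a2, a3, a4⟩ := mem_Out.1 ha
  have hkey := sum_diff_two (F := fun b => ed (glue u v w z y t m) a b) (G := fun b => ed t a b)
    (p := u) (q := v) h1 ?_
  · have e1 : ed (glue u v w z y t m) a u = ed y a u :=
      ed_glue_bO (by rw [mk_mem_bO]; exact Or.inr ⟨Or.inl rfl, a1, a2, a3, a4⟩)
    have e2 : ed (glue u v w z y t m) a v = ed y a v :=
      ed_glue_bO (by rw [mk_mem_bO]; exact Or.inr ⟨Or.inr rfl, a1, a2, a3, a4⟩)
    simp only [e1, e2] at hkey
    rw [ed_comm y a u, ed_comm y a v, ed_comm t a u, ed_comm t a v] at hkey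
    linarith
  · intro b hb1 hb2
    have hnb : s(a, b) ∉ bO u v w z := by
      rw [mk_mem_bO]
      rintro (⟨h8 | h8, -⟩ | ⟨h8 | h8, -⟩)
      · exact a1 h8
      · exact a2 h8
      · exact hb1 h8
      · exact hb2 h8
    have hnc : s(a, b) ∉ cellE u v w z := by
      rw [mk_mem_cellE]
      rintro (⟨h8 | h8, -⟩ | ⟨h8 | h8, -⟩)
      · exact a1 h8
      · exact a2 h8
      · exact hb1 h8
      · exact hb2 h8
    show ed (glue u v w z y t m) a b = ed t a b
    rw [ed_glue_rest hnb hnc]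

/-- The vertices fall into the three kinds. -/
lemma vertex_cases (a : V) : (a = u ∨ a = v) ∨ (a = w ∨ a = z) ∨ a ∈ Out u v w z := by
  by_cases h1 : a = u
  · exact Or.inl (Or.inl h1)
  by_cases h2 : a = v
  · exact Or.inl (Or.inr h2)
  by_cases h3 : a = w
  · exact Or.inr (Or.inl (Or.inl h3))
  by_cases h4 : a = z
  · exact Or.inr (Or.inl (Or.inr h4))
  exact Or.inr (Or.inr (mem_Out.2 ⟨h1, h2, h3, h4⟩))

lemma not_diag_of_cell (h4 : Distinct4 u v w z) {e : Sym2 V} (h : e ∈ cellE u v w z) :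
    ¬ e.IsDiag := by
  obtain ⟨h1, h2, h3, h5, h6, h7⟩ := h4
  induction e using Sym2.ind with
  | _ a b =>
    rw [mk_mem_cellE] at h
    rw [Sym2.mk_isDiag_iff]
    intro hab
    subst hab
    rcases h with ⟨ha | ha, hb | hb⟩ | ⟨ha | ha, hb | hb⟩ <;> simp_all

/-- The glue of two graphs with compatible margins has the same degrees. -/
lemma glue_mem_Omega (h4 : Distinct4 u v w z) {d : V → ℕ} {y t m : Finset (Sym2 V)}
    (hy : y ∈ Omega d) (ht : t ∈ Omega d) (hav : ed y u v = ed t u v)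
    (hρu : ed m u w + ed m u z = ed y u w + ed y u z)
    (hρv : ed m v w + ed m v z = ed y v w + ed y v z)
    (hγw : ed m u w + ed m v w = ed t u w + ed t v w)
    (hγz : ed m u z + ed m v z = ed t u z + ed t v z)
    (hp : ∀ c ∈ Out u v w z, ed y u c + ed y v c = ed t u c + ed t v c) :
    glue u v w z y t m ∈ Omega d := by
  have hy' := hy
  have ht' := ht
  simp only [Omega, mem_filter, mem_univ, true_and] at hy' ht' ⊢
  refine ⟨?_, ?_⟩
  · intro e he
    rw [mem_glue] at he
    rcases he with ⟨-, h⟩ | ⟨-, h, -⟩ | ⟨-, -, h⟩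
    · exact hy'.1 e h
    · exact not_diag_of_cell h4 h
    · exact ht'.1 e h
  · intro a
    have key : (deg (glue u v w z y t m) a : ℤ) = d a := by
      rw [deg_eq_sum]
      rcases vertex_cases (u := u) (v := v) (w := w) (z := z) a with ha | ha | ha
      · rw [glue_deg_left h4 hy ht hav a ha, ← deg_eq_sum, hy'.2]
        · rcases ha with h | h <;> rw [h] <;> assumption
      · rw [glue_deg_mid h4 a ha, ← deg_eq_sum, ht'.2]
        · rcases ha with h | h <;> rw [h] <;> assumption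
      · rw [glue_deg_out h4 a ha (hp a ha), ← deg_eq_sum, ht'.2]
    exact_mod_cast key

/-- The cells split the stripe of a pair. -/
lemma mem_stripe_others (h4 : Distinct4 u v w z) {e : Sym2 V} :
    e ∈ stripe u v (others u v) ↔ e ∈ bO u v w z ∨ e ∈ cellE u v w z := by
  obtain ⟨h1, h2, h3, h5, h6, h7⟩ := h4
  induction e using Sym2.ind with
  | _ a b =>
    rw [mk_mem_stripe, mk_mem_bO, mk_mem_cellE]
    simp only [mem_others]
    by_cases ha : a = u <;> by_cases hb : b = u <;> by_cases ha' : a = v <;> by_cases hb' : b = v <;>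
      by_cases ha'' : a = w <;> by_cases hb'' : b = w <;> by_cases ha3 : a = z <;>
      by_cases hb3 : b = z <;> simp_all

lemma Distinct4.symm (h4 : Distinct4 u v w z) : Distinct4 w z u v := by
  obtain ⟨h1, h2, h3, h5, h6, h7⟩ := h4
  exact ⟨h7, h2.symm, h5.symm, h3.symm, h6.symm, h1⟩

lemma Out_symm : Out w z u v = Out u v w z := by
  ext c; simp only [mem_Out]; tauto

lemma cellE_symm : cellE w z u v = cellE u v w z := by
  ext e
  induction e using Sym2.ind with
  | _ a b =>
    rw [mk_mem_cellE, mk_mem_cellE]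
    tauto

lemma bO_disj (h4 : Distinct4 u v w z) {e : Sym2 V} (h : e ∈ bO u v w z) : e ∉ bO w z u v := by
  obtain ⟨h1, h2, h3, h5, h6, h7⟩ := h4
  induction e using Sym2.ind with
  | _ a b =>
    rw [mk_mem_bO] at h ⊢
    rcases h with ⟨ha, b1, b2, b3, b4⟩ | ⟨hb, a1, a2, a3, a4⟩
    · rintro (⟨h8, -⟩ | ⟨h8, c1, c2, c3, c4⟩)
      · rcases ha with rfl | rfl <;> rcases h8 with rfl | rfl <;> simp_all
      · rcases h8 with rfl | rfl <;> simp_all
    · rintro (⟨h8, c1, c2, c3, c4⟩ | ⟨h8, -⟩)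
      · rcases h8 with rfl | rfl <;> simp_all
      · rcases hb with rfl | rfl <;> rcases h8 with rfl | rfl <;> simp_all

lemma bO_cell_disj (h4 : Distinct4 u v w z) {e : Sym2 V} (h : e ∈ bO u v w z) :
    e ∉ cellE u v w z := by
  obtain ⟨h1, h2, h3, h5, h6, h7⟩ := h4
  induction e using Sym2.ind with
  | _ a b =>
    rw [mk_mem_bO] at h
    rw [mk_mem_cellE]
    rcases h with ⟨ha, b1, b2, b3, b4⟩ | ⟨hb, a1, a2, a3, a4⟩
    · rintro (⟨-, h8 | h8⟩ | ⟨h8 | h8, -⟩)
      · exact b3 h8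
      · exact b4 h8
      · exact b1 h8
      · exact b2 h8
    · rintro (⟨h8 | h8, -⟩ | ⟨-, h8 | h8⟩)
      · exact a1 h8
      · exact a2 h8
      · exact a3 h8
      · exact a4 h8

lemma cell_bO_disj (h4 : Distinct4 u v w z) {e : Sym2 V} (h : e ∈ cellE u v w z) :
    e ∉ bO u v w z := fun h' => bO_cell_disj h4 h' h

/-- Consequences of the equality of two keys. -/
lemma blkKey_off (h4 : Distinct4 u v w z) {a b : Finset (Sym2 V)}
    (h : blkKey u v a = blkKey u v b) {e : Sym2 V} (h1 : e ∉ bO u v w z) (h2 : e ∉ cellE u v w z) :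
    e ∈ a ↔ e ∈ b := by
  refine (blkKey_eq_iff.1 h).1 e ?_
  rw [mem_stripe_others h4]
  tauto

lemma blkKey_sum {a b : Finset (Sym2 V)} (h : blkKey u v a = blkKey u v b) {c : V} (h1 : c ≠ u)
    (h2 : c ≠ v) : ed a u c + ed a v c = ed b u c + ed b v c :=
  (blkKey_eq_iff.1 h).2 c h1 h2

lemma blkKey_off' (h4 : Distinct4 u v w z) {a b : Finset (Sym2 V)}
    (h : blkKey w z a = blkKey w z b) {e : Sym2 V} (h1 : e ∉ bO w z u v) (h2 : e ∉ cellE u v w z) :
    e ∈ a ↔ e ∈ b := by
  refine blkKey_off h4.symm h h1 ?_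
  rwa [cellE_symm]

lemma mk_mem_bO_of_out {a c : V} (ha : a = u ∨ a = v) (hc : c ∈ Out u v w z) :
    s(a, c) ∈ bO u v w z := by
  rw [mk_mem_bO]
  exact Or.inl ⟨ha, mem_Out.1 hc⟩

lemma cell_of_left {a c : V} (ha : a = u ∨ a = v) (hc : c = w ∨ c = z) :
    s(a, c) ∈ cellE u v w z := by
  rw [mk_mem_cellE]
  exact Or.inl ⟨ha, hc⟩

lemma uv_not_bO (a b : V) (ha : a = u ∨ a = v) (hb : b = u ∨ b = v) : s(a, b) ∉ bO u v w z := by
  rw [mk_mem_bO]
  rintro (⟨-, h8, h9, -, -⟩ | ⟨-, h8, h9, -, -⟩)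
  · rcases hb with h | h
    · exact h8 h
    · exact h9 h
  · rcases ha with h | h
    · exact h8 h
    · exact h9 h

lemma uv_not_cell (h4 : Distinct4 u v w z) : s(u, v) ∉ cellE u v w z := by
  obtain ⟨h1, h2, h3, h5, h6, h7⟩ := h4
  rw [mk_mem_cellE]
  rintro (⟨-, h8 | h8⟩ | ⟨-, h8 | h8⟩)
  · exact h5 h8
  · exact h6 h8
  · exact h2 h8
  · exact h3 h8

/-- The key of the glue, first side. -/
lemma blkKey_glue_left (h4 : Distinct4 u v w z) {y t m : Finset (Sym2 V)}
    (hp : ∀ c ∈ Out u v w z, ed y u c + ed y v c = ed t u c + ed t v c)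
    (hγw : ed m u w + ed m v w = ed t u w + ed t v w)
    (hγz : ed m u z + ed m v z = ed t u z + ed t v z) :
    blkKey u v (glue u v w z y t m) = blkKey u v t := by
  rw [blkKey_eq_iff]
  refine ⟨fun e he => ?_, fun c h1 h2 => ?_⟩
  · rw [mem_stripe_others h4] at he
    simp only [not_or] at he
    simp [mem_glue, he.1, he.2]
  · by_cases hw : c = w
    · subst hw
      rw [ed_glue_cell h4 (cell_of_left (Or.inl rfl) (Or.inl rfl)),
        ed_glue_cell h4 (cell_of_left (Or.inr rfl) (Or.inl rfl))]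
      exact hγw
    by_cases hz : c = z
    · subst hz
      rw [ed_glue_cell h4 (cell_of_left (Or.inl rfl) (Or.inr rfl)),
        ed_glue_cell h4 (cell_of_left (Or.inr rfl) (Or.inr rfl))]
      exact hγz
    have hc : c ∈ Out u v w z := mem_Out.2 ⟨h1, h2, hw, hz⟩
    rw [ed_glue_bO (mk_mem_bO_of_out (Or.inl rfl) hc), ed_glue_bO (mk_mem_bO_of_out (Or.inr rfl) hc)]
    exact hp c hc

/-- The key of the glue, second side. -/
lemma blkKey_glue_right (h4 : Distinct4 u v w z) {y t m : Finset (Sym2 V)}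
    (hC : ∀ e, e ∉ bO u v w z → e ∉ cellE u v w z → e ∉ bO w z u v → (e ∈ t ↔ e ∈ y))
    (hq : ∀ c ∈ Out u v w z, ed t w c + ed t z c = ed y w c + ed y z c)
    (hρu : ed m u w + ed m u z = ed y u w + ed y u z)
    (hρv : ed m v w + ed m v z = ed y v w + ed y v z) :
    blkKey w z (glue u v w z y t m) = blkKey w z y := by
  rw [blkKey_eq_iff]
  refine ⟨fun e he => ?_, fun c h1 h2 => ?_⟩
  · rw [mem_stripe_others h4.symm, cellE_symm] at he
    simp only [not_or] at he
    by_cases h5 : e ∈ bO u v w z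
    · simp [mem_glue, h5]
    · simp only [mem_glue, h5, he.2, false_and, false_or, not_false_eq_true, true_and]
      exact hC e h5 he.2 he.1
  · by_cases hu : c = u
    · subst hu
      rw [ed_glue_cell h4 (by rw [← cellE_symm]; exact cell_of_left (Or.inl rfl) (Or.inl rfl)),
        ed_glue_cell h4 (by rw [← cellE_symm]; exact cell_of_left (Or.inr rfl) (Or.inl rfl)),
        ed_comm m w, ed_comm m z, ed_comm y w, ed_comm y z]
      exact hρu
    by_cases hv : c = v
    · subst hv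
      rw [ed_glue_cell h4 (by rw [← cellE_symm]; exact cell_of_left (Or.inl rfl) (Or.inr rfl)),
        ed_glue_cell h4 (by rw [← cellE_symm]; exact cell_of_left (Or.inr rfl) (Or.inr rfl)),
        ed_comm m w, ed_comm m z, ed_comm y w, ed_comm y z]
      exact hρv
    have hc : c ∈ Out u v w z := mem_Out.2 ⟨hu, hv, h1, h2⟩
    have hc' : c ∈ Out w z u v := by rwa [Out_symm]
    have n1 : s(w, c) ∉ bO u v w z := bO_disj h4.symm (mk_mem_bO_of_out (Or.inl rfl) hc')
    have n2 : s(z, c) ∉ bO u v w z := bO_disj h4.symm (mk_mem_bO_of_out (Or.inr rfl) hc')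
    have n3 : s(w, c) ∉ cellE u v w z := by
      rw [← cellE_symm]; exact bO_cell_disj h4.symm (mk_mem_bO_of_out (Or.inl rfl) hc')
    have n4 : s(z, c) ∉ cellE u v w z := by
      rw [← cellE_symm]; exact bO_cell_disj h4.symm (mk_mem_bO_of_out (Or.inr rfl) hc')
    rw [ed_glue_rest n1 n3, ed_glue_rest n2 n4]
    exact hq c hc

lemma glue_eq_of {q r m r' : Finset (Sym2 V)} (hbO : ∀ e ∈ bO u v w z, e ∈ q ↔ e ∈ r')
    (hcell : ∀ e, e ∉ bO u v w z → e ∈ cellE u v w z → (e ∈ m ↔ e ∈ r'))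
    (hoff : ∀ e, e ∉ bO u v w z → e ∉ cellE u v w z → (e ∈ r ↔ e ∈ r')) :
    glue u v w z q r m = r' := by
  ext e
  rw [mem_glue]
  by_cases h1 : e ∈ bO u v w z
  · simp [h1, hbO e h1]
  · by_cases h2 : e ∈ cellE u v w z
    · simp [h1, h2, hcell e h1 h2]
    · simp [h1, h2, hoff e h1 h2]

end Glue

end Vale.Agent.Lib.P335
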