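import Vale.Agent.Lib.P335.Defs
set_option linter.unusedSectionVars false

/-!
Perfect matchings of a 4-set: there are three; the move set has `6 * choose n 4` elements; a move
preserves the degrees.
-/

namespace Vale.Agent.Lib.P335

open Finset

variable {n : ℕ}

lemma edge_of_mem {a b c d : Fin n} {e : Sym2 (Fin n)} (he : ¬ e.IsDiag)
    (hin : ∀ x ∈ e, x ∈ ({a, b, c, d} : Finset (Fin n))) (ha : a ∈ e) :
    e = s(a, b) ∨ e = s(a, c) ∨ e = s(a, d) := by
  obtain ⟨y, rfl⟩ := ha
  have hy := hin y (by simp)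
  simp only [Finset.mem_insert, Finset.mem_singleton] at hy
  simp only [Sym2.mk_isDiag_iff] at he
  rcases hy with rfl | rfl | rfl | rfl
  · exact absurd rfl he
  · simp
  · simp
  · simp

lemma isPM_classify_aux {a b c d : Fin n} (h : Distinct4 a b c d) {e1 e2 : Sym2 (Fin n)}
    (hd1 : ¬ e1.IsDiag) (hin1 : ∀ x ∈ e1, x ∈ ({a, b, c, d} : Finset (Fin n)))
    (cov : ∀ x ∈ ({a, b, c, d} : Finset (Fin n)), x ∈ e1 ∨ x ∈ e2) (ha : a ∈ e1) :
    ({e1, e2} : Finset (Sym2 (Fin n))) = {s(a, b), s(c, d)} ∨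
      ({e1, e2} : Finset (Sym2 (Fin n))) = {s(a, c), s(b, d)} ∨
      ({e1, e2} : Finset (Sym2 (Fin n))) = {s(a, d), s(b, c)} := by
  obtain ⟨hab, hac, had, hbc, hbd, hcd⟩ := h
  have cb := cov b (by simp)
  have cc := cov c (by simp)
  have cd := cov d (by simp)
  rcases edge_of_mem hd1 hin1 ha with rfl | rfl | rfl
  · have h1 : c ∈ e2 := by
      refine cc.resolve_left ?_
      simp [Sym2.mem_iff, hac.symm, hbc.symm]
    have h2 : d ∈ e2 := by
      refine cd.resolve_left ?_
      simp [Sym2.mem_iff, had.symm, hbd.symm]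
    left
    rw [(Sym2.mem_and_mem_iff hcd).1 ⟨h1, h2⟩]
  · have h1 : b ∈ e2 := by
      refine cb.resolve_left ?_
      simp [Sym2.mem_iff, hab.symm, hbc]
    have h2 : d ∈ e2 := by
      refine cd.resolve_left ?_
      simp [Sym2.mem_iff, had.symm, hcd.symm]
    right; left
    rw [(Sym2.mem_and_mem_iff hbd).1 ⟨h1, h2⟩]
  · have h1 : b ∈ e2 := by
      refine cb.resolve_left ?_
      simp [Sym2.mem_iff, hab.symm, hbd]
    have h2 : c ∈ e2 := by
      refine cc.resolve_left ?_
      simp [Sym2.mem_iff, hac.symm, hcd]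
    right; right
    rw [(Sym2.mem_and_mem_iff hbc).1 ⟨h1, h2⟩]

/-- The classification of the perfect matchings of `{a,b,c,d}`. -/
lemma isPM_classify {a b c d : Fin n} (h : Distinct4 a b c d) {F : Finset (Sym2 (Fin n))}
    (hF : IsPM {a, b, c, d} F) :
    F = {s(a, b), s(c, d)} ∨ F = {s(a, c), s(b, d)} ∨ F = {s(a, d), s(b, c)} := by
  obtain ⟨hcard, hin, hcov⟩ := hF
  obtain ⟨e1, e2, -, rfl⟩ := Finset.card_eq_two.1 hcard
  have cov : ∀ x ∈ ({a, b, c, d} : Finset (Fin n)), x ∈ e1 ∨ x ∈ e2 := by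
    intro x hx
    obtain ⟨e, he, hxe⟩ := hcov x hx
    simp only [Finset.mem_insert, Finset.mem_singleton] at he
    rcases he with rfl | rfl
    · exact Or.inl hxe
    · exact Or.inr hxe
  have h1 := hin e1 (by simp)
  have h2 := hin e2 (by simp)
  rcases cov a (by simp) with ha | ha
  · exact isPM_classify_aux h h1.1 h1.2 cov ha
  · rw [Finset.pair_comm]
    exact isPM_classify_aux h h2.1 h2.2 (fun x hx => (cov x hx).symm) ha

lemma isPM_pair {S : Finset (Fin n)} {x y p q : Fin n} (h : Distinct4 x y p q)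
    (hS : S = {x, y, p, q}) : IsPM S {s(x, y), s(p, q)} := by
  obtain ⟨hxy, hxp, hxq, hyp, hyq, hpq⟩ := h
  subst hS
  refine ⟨?_, ?_, ?_⟩
  · rw [Finset.card_pair]
    intro h7
    rcases Sym2.eq_iff.1 h7 with h8 | h8
    · exact hxp h8.1
    · exact hxq h8.1
  · intro e he
    simp only [Finset.mem_insert, Finset.mem_singleton] at he
    rcases he with rfl | rfl
    · refine ⟨by simpa [Sym2.mk_isDiag_iff] using hxy, ?_⟩
      intro a ha
      simp only [Sym2.mem_iff] at ha
      rcases ha with rfl | rfl <;> simp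
    · refine ⟨by simpa [Sym2.mk_isDiag_iff] using hpq, ?_⟩
      intro a ha
      simp only [Sym2.mem_iff] at ha
      rcases ha with rfl | rfl <;> simp
  · intro a ha
    simp only [Finset.mem_insert, Finset.mem_singleton] at ha
    rcases ha with rfl | rfl | rfl | rfl
    · exact ⟨s(a, y), by simp, by simp⟩
    · exact ⟨s(x, a), by simp, by simp⟩
    · exact ⟨s(a, q), by simp, by simp⟩
    · exact ⟨s(p, a), by simp, by simp⟩

lemma exists_distinct4_of_card {S : Finset (Fin n)} (hS : S.card = 4) :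
    ∃ a b c d, Distinct4 a b c d ∧ S = {a, b, c, d} := by
  obtain ⟨a, T, ha, rfl, hT⟩ := Finset.card_eq_succ.1 hS
  obtain ⟨b, c, d, hbc, hbd, hcd, rfl⟩ := Finset.card_eq_three.1 hT
  simp only [Finset.mem_insert, Finset.mem_singleton, not_or] at ha
  exact ⟨a, b, c, d, ⟨ha.1, ha.2.1, ha.2.2, hbc, hbd, hcd⟩, rfl⟩

open Classical in
/-- The perfect matchings of `S`. -/
noncomputable def pmSet (S : Finset (Fin n)) : Finset (Finset (Sym2 (Fin n))) :=
  univ.filter (fun F => IsPM S F)

lemma pair_ne_of_distinct {a b c d : Fin n} (h : Distinct4 a b c d) :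
    ({s(a, b), s(c, d)} : Finset (Sym2 (Fin n))) ≠ {s(a, c), s(b, d)} := by
  obtain ⟨hab, hac, had, hbc, hbd, hcd⟩ := h
  intro h7
  have h8 : s(a, b) ∈ ({s(a, c), s(b, d)} : Finset (Sym2 (Fin n))) := by
    rw [← h7]; simp
  simp only [Finset.mem_insert, Finset.mem_singleton, Sym2.eq_iff] at h8
  rcases h8 with (⟨-, h9⟩ | ⟨h9, -⟩) | (⟨h9, -⟩ | ⟨h9, -⟩)
  · exact hbc h9
  · exact hac h9
  · exact hab h9
  · exact had h9

lemma card_pmSet {S : Finset (Fin n)} (hS : S.card = 4) : (pmSet S).card = 3 := by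
  classical
  obtain ⟨a, b, c, d, h, rfl⟩ := exists_distinct4_of_card hS
  have h1 : pmSet ({a, b, c, d} : Finset (Fin n)) =
      {{s(a, b), s(c, d)}, {s(a, c), s(b, d)}, {s(a, d), s(b, c)}} := by
    ext F
    simp only [pmSet, Finset.mem_filter, Finset.mem_univ, true_and, Finset.mem_insert,
      Finset.mem_singleton]
    constructor
    · exact isPM_classify h
    · rintro (rfl | rfl | rfl)
      · exact isPM_pair h rfl
      · obtain ⟨hab, hac, had, hbc, hbd, hcd⟩ := h
        refine isPM_pair ⟨hac, hab, had, hbc.symm, hcd, hbd⟩ ?_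
        ext x; simp only [Finset.mem_insert, Finset.mem_singleton]; tauto
      · obtain ⟨hab, hac, had, hbc, hbd, hcd⟩ := h
        refine isPM_pair ⟨had, hab, hac, hbd.symm, hcd.symm, hbc⟩ ?_
        ext x; simp only [Finset.mem_insert, Finset.mem_singleton]; tauto
  rw [h1]
  obtain ⟨hab, hac, had, hbc, hbd, hcd⟩ := id h
  have n12 := pair_ne_of_distinct h
  have n13 : ({s(a, b), s(c, d)} : Finset (Sym2 (Fin n))) ≠ {s(a, d), s(b, c)} := by
    have := pair_ne_of_distinct (a := a) (b := b) (c := d) (d := c)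
      ⟨hab, had, hac, hbd, hbc, hcd.symm⟩
    rw [Sym2.eq_swap (a := d) (b := c)] at this
    exact this
  have n23 : ({s(a, c), s(b, d)} : Finset (Sym2 (Fin n))) ≠ {s(a, d), s(b, c)} := by
    have := pair_ne_of_distinct (a := a) (b := c) (c := d) (d := b)
      ⟨hac, had, hab, hcd, hbc.symm, hbd.symm⟩
    rw [Sym2.eq_swap (a := d) (b := b), Sym2.eq_swap (a := c) (b := b)] at this
    exact this
  rw [Finset.card_eq_three]
  exact ⟨_, _, _, n12, n13, n23, rfl⟩

open Classical in
lemma moves_fiber {S : Finset (Fin n)} (hS : S.card = 4) :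
    ((moves n).filter (fun t => t.1 = S)).card = 6 := by
  have h1 : (moves n).filter (fun t => t.1 = S) = (pmSet S).offDiag.image (fun p => (S, p)) := by
    ext ⟨S', F, F'⟩
    simp only [moves, pmSet, Finset.mem_filter, Finset.mem_univ, true_and, Finset.mem_image,
      Finset.mem_offDiag, Prod.mk.injEq, Prod.exists]
    constructor
    · rintro ⟨⟨-, h2, h3, h4⟩, rfl⟩
      exact ⟨F, F', ⟨h2, h3, h4⟩, rfl, rfl, rfl⟩
    · rintro ⟨F1, F2, ⟨h2, h3, h4⟩, rfl, rfl, rfl⟩
      exact ⟨⟨hS, h2, h3, h4⟩, rfl⟩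
  rw [h1, Finset.card_image_of_injective _ (Prod.mk_right_injective S), Finset.offDiag_card,
    card_pmSet hS]

/-- The number of moves. -/
lemma card_moves : (moves n).card = 6 * n.choose 4 := by
  classical
  have h1 : (moves n).card = ∑ S ∈ (univ : Finset (Fin n)).powersetCard 4,
      ((moves n).filter (fun t => t.1 = S)).card := by
    apply Finset.card_eq_sum_card_fiberwise
    intro t ht
    simp only [moves, Finset.mem_coe, Finset.mem_filter, Finset.mem_univ, true_and] at ht
    simp only [Finset.mem_coe, Finset.mem_powersetCard, Finset.subset_univ, true_and]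
    exact ht.1
  rw [h1, Finset.sum_congr rfl (g := fun _ => 6)]
  · simp [Finset.card_powersetCard, mul_comm]
  · intro S hS
    rw [Finset.mem_powersetCard] at hS
    convert moves_fiber hS.2

/-! ### Degrees -/

lemma ed_pair {x y p q : Fin n} (h : s(x, y) ≠ s(p, q)) (a b : Fin n) :
    ed {s(x, y), s(p, q)} a b
      = (if s(a, b) = s(x, y) then 1 else 0) + (if s(a, b) = s(p, q) then 1 else 0) := by
  unfold ed
  simp only [Finset.mem_insert, Finset.mem_singleton]
  by_cases h1 : s(a, b) = s(x, y)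
  · have h2 : s(a, b) ≠ s(p, q) := fun h3 => h (h1.symm.trans h3)
    rw [if_pos (Or.inl h1), if_pos h1, if_neg h2]; norm_num
  · by_cases h2 : s(a, b) = s(p, q)
    · rw [if_pos (Or.inr h2), if_neg h1, if_pos h2]; norm_num
    · rw [if_neg (by tauto), if_neg h1, if_neg h2]; norm_num

lemma deg_pair {x y p q : Fin n} (h : Distinct4 x y p q) (v : Fin n) :
    (deg {s(x, y), s(p, q)} v : ℤ)
      = (if v = x then 1 else 0) + (if v = y then 1 else 0) + (if v = p then 1 else 0)
        + (if v = q then 1 else 0) := by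
  obtain ⟨hxy, hxp, hxq, hyp, hyq, hpq⟩ := id h
  have h0 : s(x, y) ≠ s(p, q) := by
    intro h7
    rcases Sym2.eq_iff.1 h7 with h8 | h8
    · exact hxp h8.1
    · exact hxq h8.1
  rw [deg_eq_sum]
  simp_rw [ed_pair h0, Finset.sum_add_distrib]
  rw [sum_sym2_eq x y v hxy, sum_sym2_eq p q v hpq]
  ring

/-- The degree of a vertex in a perfect matching of `S`. -/
lemma deg_of_isPM {S : Finset (Fin n)} (hS : S.card = 4) {F F' : Finset (Sym2 (Fin n))}
    (hF : IsPM S F) (hF' : IsPM S F') (v : Fin n) : deg F v = deg F' v := by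
  obtain ⟨a, b, c, d, h, rfl⟩ := exists_distinct4_of_card hS
  obtain ⟨hab, hac, had, hbc, hbd, hcd⟩ := id h
  have h2 : Distinct4 a c b d := ⟨hac, hab, had, hbc.symm, hcd, hbd⟩
  have h3 : Distinct4 a d b c := ⟨had, hab, hac, hbd.symm, hcd.symm, hbc⟩
  have key : ∀ E : Finset (Sym2 (Fin n)), IsPM {a, b, c, d} E →
      (deg E v : ℤ) = (if v = a then 1 else 0) + (if v = b then 1 else 0)
        + (if v = c then 1 else 0) + (if v = d then 1 else 0) := by
    intro E hE
    rcases isPM_classify h hE with rfl | rfl | rfl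
    · exact deg_pair h v
    · rw [deg_pair h2 v]; ring
    · rw [deg_pair h3 v]; ring
  have := (key F hF).trans (key F' hF').symm
  exact_mod_cast this

lemma ed_applyMove {G F F' : Finset (Sym2 (Fin n))} (h1 : F ⊆ G) (h2 : Disjoint F' G)
    (a b : Fin n) :
    ed ((G \ F) ∪ F') a b = ed G a b - ed F a b + ed F' a b := by
  unfold ed
  simp only [Finset.mem_union, Finset.mem_sdiff]
  by_cases h3 : s(a, b) ∈ F'
  · have h4 : s(a, b) ∉ G := Finset.disjoint_left.1 h2 h3
    have h5 : s(a, b) ∉ F := fun h6 => h4 (h1 h6)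
    simp [h3, h4, h5]
  · by_cases h4 : s(a, b) ∈ F
    · simp [h3, h4, h1 h4]
    · by_cases h5 : s(a, b) ∈ G <;> simp [h3, h4, h5]

lemma deg_applyMove {G F F' : Finset (Sym2 (Fin n))} (h1 : F ⊆ G) (h2 : Disjoint F' G)
    (hd : ∀ v, deg F v = deg F' v) (v : Fin n) : deg ((G \ F) ∪ F') v = deg G v := by
  have h0 : (deg ((G \ F) ∪ F') v : ℤ) = deg G v := by
    rw [deg_eq_sum, deg_eq_sum]
    simp_rw [ed_applyMove h1 h2, Finset.sum_add_distrib, Finset.sum_sub_distrib]
    rw [← deg_eq_sum, ← deg_eq_sum, ← deg_eq_sum, hd v]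
    ring
  exact_mod_cast h0

/-- A move preserves `Omega d`. -/
lemma applyMove_mem {d : Fin n → ℕ} {G : Finset (Sym2 (Fin n))} (hG : G ∈ Omega d)
    {t : Finset (Fin n) × Finset (Sym2 (Fin n)) × Finset (Sym2 (Fin n))} (ht : t ∈ moves n) :
    applyMove G t.2.1 t.2.2 ∈ Omega d := by
  classical
  simp only [moves, Finset.mem_filter, Finset.mem_univ, true_and] at ht
  obtain ⟨hS, hF, hF', -⟩ := ht
  unfold applyMove
  split_ifs with hc
  · simp only [Omega, Finset.mem_filter, Finset.mem_univ, true_and] at hG ⊢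
    refine ⟨?_, fun v => ?_⟩
    · intro e he
      simp only [Finset.mem_union, Finset.mem_sdiff] at he
      rcases he with he | he
      · exact hG.1 e he.1
      · exact (hF'.2.1 e he).1
    · rw [deg_applyMove hc.1 hc.2 (deg_of_isPM hS hF hF'), hG.2]
  · exact hG

end Vale.Agent.Lib.P335
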