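import Vale.Agent.Lib.P335.Graph
set_option linter.unusedSectionVars false
set_option linter.unusedVariables false
set_option linter.unusedSimpArgs false

/-!
Relabeling of sums over ordered pairs of ordered pairs of vertices.
-/

namespace Vale.Agent.Lib.P335

open Finset

variable {V : Type*} [Fintype V] [DecidableEq V]

/-- The sum over ordered triples of distinct vertices of the overlaps. -/
def adjSum (I : V → V → V → V → ℝ) : ℝ :=
  ∑ u, ∑ v, ∑ l, if u ≠ v ∧ l ≠ u ∧ l ≠ v then I u v u l else 0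

/-- The sum over ordered pairs of the diagonal terms. -/
def diagSum (I : V → V → V → V → ℝ) : ℝ :=
  ∑ u, ∑ v, if u ≠ v then I u v u v else 0

lemma double_split (I : V → V → V → V → ℝ) (u v w z : V) :
    (if u ≠ v ∧ w ≠ z then I u v w z else 0)
      = (if Distinct4 u v w z then I u v w z else 0)
        + (if u ≠ v ∧ w = u ∧ z = v then I u v w z else 0)
        + (if u ≠ v ∧ w = v ∧ z = u then I u v w z else 0)
        + (if u ≠ v ∧ w = u ∧ z ≠ u ∧ z ≠ v then I u v w z else 0)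
        + (if u ≠ v ∧ w = v ∧ z ≠ u ∧ z ≠ v then I u v w z else 0)
        + (if u ≠ v ∧ z = u ∧ w ≠ u ∧ w ≠ v then I u v w z else 0)
        + (if u ≠ v ∧ z = v ∧ w ≠ u ∧ w ≠ v then I u v w z else 0) := by
  unfold Distinct4
  by_cases h1 : u = v
  · simp [h1]
  by_cases h2 : w = u
  · subst h2
    by_cases h3 : z = w
    · simp [h3, h1]
    · by_cases h4 : z = v
      · simp [h4, h1]
      · simp [h1, h3, h4, Ne.symm h3]
  by_cases h3 : w = v
  · subst h3
    by_cases h4 : z = w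
    · simp [h4, h1, h2]
    · by_cases h5 : z = u
      · simp [h5, h1, h2, Ne.symm h2]
      · simp [h1, h2, h4, h5, Ne.symm h4, Ne.symm h2]
  by_cases h4 : z = u
  · subst h4
    have h5 : w ≠ z := h2
    simp [h1, h2, h3, Ne.symm h1, Ne.symm h2]
  by_cases h5 : z = v
  · subst h5
    simp [h1, h2, h3, Ne.symm h2, Ne.symm h3, Ne.symm h1]
  · by_cases h6 : w = z
    · subst h6
      simp [h1, h2, h3, h4, h5]
    · simp [h1, h2, h3, h4, h5, h6, Ne.symm h1, Ne.symm h2, Ne.symm h3, Ne.symm h4, Ne.symm h5]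

lemma sum2_left (a : V) (A : V → V → ℝ) (hA : ∀ w z, w ≠ a → A w z = 0) :
    ∑ w, ∑ z, A w z = ∑ z, A a z := by
  apply Finset.sum_eq_single a
  · intro w _ hw
    exact Finset.sum_eq_zero fun z _ => hA w z hw
  · simp

lemma sum2_right (b : V) (A : V → V → ℝ) (hA : ∀ w z, z ≠ b → A w z = 0) :
    ∑ w, ∑ z, A w z = ∑ w, A w b := by
  refine Finset.sum_congr rfl fun w _ => ?_
  apply Finset.sum_eq_single b
  · intro z _ hz
    exact hA w z hz
  · simp

/-- The inner sum over `w, z`. -/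
lemma inner_split (I : V → V → V → V → ℝ) (h1 : ∀ u v w z, I u v w z = I v u w z)
    (h2 : ∀ u v w z, I u v w z = I u v z w) (u v : V) :
    ∑ w, ∑ z, (if u ≠ v ∧ w ≠ z then I u v w z else 0)
      = (∑ w, ∑ z, if Distinct4 u v w z then I u v w z else 0)
        + 2 * (if u ≠ v then I u v u v else 0)
        + 2 * (∑ l, if u ≠ v ∧ l ≠ u ∧ l ≠ v then I u v u l else 0)
        + 2 * (∑ l, if v ≠ u ∧ l ≠ v ∧ l ≠ u then I v u v l else 0) := by
  simp_rw [double_split I u v]
  simp only [Finset.sum_add_distrib]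
  have t2 : ∑ w, ∑ z, (if u ≠ v ∧ w = u ∧ z = v then I u v w z else 0)
      = if u ≠ v then I u v u v else 0 := by
    rw [sum2_left u _ (by intro w z hw; simp [hw])]
    rw [Finset.sum_eq_single v (by intro z _ hz; simp [hz]) (by simp)]
    simp
  have t3 : ∑ w, ∑ z, (if u ≠ v ∧ w = v ∧ z = u then I u v w z else 0)
      = if u ≠ v then I u v u v else 0 := by
    rw [sum2_left v _ (by intro w z hw; simp [hw])]
    rw [Finset.sum_eq_single u (by intro z _ hz; simp [hz]) (by simp)]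
    simp [h2 u v v u]
  have t4 : ∑ w, ∑ z, (if u ≠ v ∧ w = u ∧ z ≠ u ∧ z ≠ v then I u v w z else 0)
      = ∑ l, if u ≠ v ∧ l ≠ u ∧ l ≠ v then I u v u l else 0 := by
    rw [sum2_left u _ (by intro w z hw; simp [hw])]
    simp
  have t5 : ∑ w, ∑ z, (if u ≠ v ∧ w = v ∧ z ≠ u ∧ z ≠ v then I u v w z else 0)
      = ∑ l, if v ≠ u ∧ l ≠ v ∧ l ≠ u then I v u v l else 0 := by
    rw [sum2_left v _ (by intro w z hw; simp [hw])]
    refine Finset.sum_congr rfl fun l _ => ?_
    by_cases a1 : u = v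
    · simp [a1]
    · by_cases a2 : l = u
      · simp [a2]
      · by_cases a3 : l = v
        · simp [a3]
        · simp [a1, a2, a3, Ne.symm a1, h1 u v v l]
  have t6 : ∑ w, ∑ z, (if u ≠ v ∧ z = u ∧ w ≠ u ∧ w ≠ v then I u v w z else 0)
      = ∑ l, if u ≠ v ∧ l ≠ u ∧ l ≠ v then I u v u l else 0 := by
    rw [sum2_right u _ (by intro w z hz; simp [hz])]
    refine Finset.sum_congr rfl fun l _ => ?_
    by_cases a1 : u = v
    · simp [a1]
    · by_cases a2 : l = u
      · simp [a2]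
      · by_cases a3 : l = v
        · simp [a3]
        · simp [a1, a2, a3, h2 u v l u]
  have t7 : ∑ w, ∑ z, (if u ≠ v ∧ z = v ∧ w ≠ u ∧ w ≠ v then I u v w z else 0)
      = ∑ l, if v ≠ u ∧ l ≠ v ∧ l ≠ u then I v u v l else 0 := by
    rw [sum2_right v _ (by intro w z hz; simp [hz])]
    refine Finset.sum_congr rfl fun l _ => ?_
    by_cases a1 : u = v
    · simp [a1]
    · by_cases a2 : l = u
      · simp [a2]
      · by_cases a3 : l = v
        · simp [a3]
        · simp [a1, a2, a3, Ne.symm a1, h2 u v l v, h1 u v v l]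
  rw [t2, t3, t4, t5, t6, t7]
  ring

/-- The double sum over ordered pairs splits into the diagonal, overlap and disjoint parts. -/
theorem double_sum (I : V → V → V → V → ℝ) (h1 : ∀ u v w z, I u v w z = I v u w z)
    (h2 : ∀ u v w z, I u v w z = I u v z w) :
    ∑ u, ∑ v, ∑ w, ∑ z, (if u ≠ v ∧ w ≠ z then I u v w z else 0)
      = sum4 I + 2 * diagSum I + 4 * adjSum I := by
  simp_rw [inner_split I h1 h2]
  simp only [Finset.sum_add_distrib, ← Finset.mul_sum]
  have e : ∑ u, ∑ v, ∑ l, (if v ≠ u ∧ l ≠ v ∧ l ≠ u then I v u v l else 0) = adjSum I := by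
    rw [Finset.sum_comm]
    rfl
  rw [e]
  unfold sum4 diagSum adjSum
  ring

/-- The three overlap sums over ordered triples coincide. -/
theorem triple_sums (I : V → V → V → V → ℝ) (h1 : ∀ u v w z, I u v w z = I v u w z)
    (h2 : ∀ u v w z, I u v w z = I u v z w) :
    (∑ a, ∑ b, ∑ c, if a ≠ b ∧ a ≠ c ∧ b ≠ c then I a b a c + I a b b c + I a c b c else 0)
      = 3 * adjSum I := by
  have e1 : (∑ a, ∑ b, ∑ c, if a ≠ b ∧ a ≠ c ∧ b ≠ c then I a b a c else 0) = adjSum I := by
    unfold adjSum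
    refine Finset.sum_congr rfl fun a _ => Finset.sum_congr rfl fun b _ =>
      Finset.sum_congr rfl fun c _ => ?_
    simp only [ne_comm (a := a) (b := c), ne_comm (a := b) (b := c)]
  have e2 : (∑ a, ∑ b, ∑ c, if a ≠ b ∧ a ≠ c ∧ b ≠ c then I a b b c else 0) = adjSum I := by
    rw [Finset.sum_comm]
    unfold adjSum
    refine Finset.sum_congr rfl fun a _ => Finset.sum_congr rfl fun b _ =>
      Finset.sum_congr rfl fun c _ => ?_
    rw [h1 b a a c]
    by_cases a1 : a = b
    · simp [a1]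
    · by_cases a2 : c = a
      · simp [a2]
      · by_cases a3 : c = b
        · simp [a3]
        · simp [a1, a2, a3, Ne.symm a1, Ne.symm a2, Ne.symm a3]
  have e3 : (∑ a, ∑ b, ∑ c, if a ≠ b ∧ a ≠ c ∧ b ≠ c then I a c b c else 0) = adjSum I := by
    have r : ∀ g : V → V → V → ℝ, ∑ a, ∑ b, ∑ c, g a b c = ∑ c, ∑ a, ∑ b, g a b c := by
      intro g
      calc ∑ a, ∑ b, ∑ c, g a b c = ∑ a, ∑ c, ∑ b, g a b c :=
            Finset.sum_congr rfl fun a _ => Finset.sum_comm
        _ = ∑ c, ∑ a, ∑ b, g a b c := Finset.sum_comm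
    rw [r]
    unfold adjSum
    refine Finset.sum_congr rfl fun c _ => Finset.sum_congr rfl fun a _ =>
      Finset.sum_congr rfl fun b _ => ?_
    rw [h1 a c b c, h2 c a b c]
    by_cases a1 : c = a
    · simp [a1]
    · by_cases a2 : b = c
      · simp [a2]
      · by_cases a3 : b = a
        · simp [a3]
        · simp [a1, a2, a3, Ne.symm a1, Ne.symm a2, Ne.symm a3]
  have e4 : ∀ a b c : V, (if a ≠ b ∧ a ≠ c ∧ b ≠ c then I a b a c + I a b b c + I a c b c else 0)
      = (if a ≠ b ∧ a ≠ c ∧ b ≠ c then I a b a c else 0)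
        + (if a ≠ b ∧ a ≠ c ∧ b ≠ c then I a b b c else 0)
        + (if a ≠ b ∧ a ≠ c ∧ b ≠ c then I a c b c else 0) := by
    intro a b c
    split_ifs <;> simp
  simp_rw [e4, Finset.sum_add_distrib]
  rw [e1, e2, e3]
  ring

/-- Relabeling of the sum over ordered 4-tuples. -/
theorem sum4_symm (F : V → V → V → V → ℝ) : sum4 (fun u v w z => F w z u v) = sum4 F := by
  unfold sum4
  have r : ∀ g : V → V → V → V → ℝ,
      ∑ u, ∑ v, ∑ w, ∑ z, g u v w z = ∑ w, ∑ z, ∑ u, ∑ v, g u v w z := by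
    intro g
    calc ∑ u, ∑ v, ∑ w, ∑ z, g u v w z = ∑ u, ∑ w, ∑ v, ∑ z, g u v w z :=
          Finset.sum_congr rfl fun u _ => Finset.sum_comm
      _ = ∑ w, ∑ u, ∑ v, ∑ z, g u v w z := Finset.sum_comm
      _ = ∑ w, ∑ u, ∑ z, ∑ v, g u v w z :=
          Finset.sum_congr rfl fun w _ => Finset.sum_congr rfl fun u _ => Finset.sum_comm
      _ = ∑ w, ∑ z, ∑ u, ∑ v, g u v w z :=
          Finset.sum_congr rfl fun w _ => Finset.sum_comm
  rw [r]
  refine Finset.sum_congr rfl fun w _ => Finset.sum_congr rfl fun z _ =>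
    Finset.sum_congr rfl fun u _ => Finset.sum_congr rfl fun v _ => ?_
  have : Distinct4 u v w z ↔ Distinct4 w z u v := by
    constructor
    · rintro ⟨h1, h2, h3, h5, h6, h7⟩
      exact ⟨h7, h2.symm, h5.symm, h3.symm, h6.symm, h1⟩
    · rintro ⟨h1, h2, h3, h5, h6, h7⟩
      exact ⟨h7, h2.symm, h5.symm, h3.symm, h6.symm, h1⟩
  simp only [this]

end Vale.Agent.Lib.P335
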