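import Vale.Agent.Lib.P335.Blocks
set_option linter.unusedSectionVars false
set_option linter.unusedVariables false
set_option linter.unusedSimpArgs false

/-!
Commutation of the block averages of two disjoint pairs.
-/

namespace Vale.Agent.Lib.P335

open Finset

variable {V : Type*} [Fintype V] [DecidableEq V] {u v w z : V} {d : V → ℕ}

/-- The cell pairs of a state. -/
def cellsOf (u v w z : V) (G : State d) : Finset (Sym2 V) := G.1 ∩ cellE u v w z

lemma cellsOf_symm : (cellsOf w z u v : State d → _) = cellsOf u v w z := by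
  funext G
  simp [cellsOf, cellE_symm]

lemma cellsOf_eq_iff {a b : State d} :
    cellsOf u v w z a = cellsOf u v w z b ↔ ∀ e ∈ cellE u v w z, (e ∈ a.1 ↔ e ∈ b.1) := by
  simp only [cellsOf, Finset.ext_iff, mem_inter]
  constructor
  · intro h e he
    have := h e
    simpa [he] using this
  · intro h e
    by_cases he : e ∈ cellE u v w z
    · simp [he, h e he]
    · simp [he]

/-- The first kind of mixing: stripe pairs of the first argument, everything else from the second. -/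
def mixA (u v w z : V) (a b : State d) : State d :=
  if h : glue u v w z a.1 b.1 a.1 ∈ Omega d then ⟨_, h⟩ else b

section Props

variable (h4 : Distinct4 u v w z) {a b c : State d}
  (hac : xi u v a = xi u v c) (hbc : xi w z b = xi w z c)
  (hbc' : cellsOf u v w z b = cellsOf u v w z c)
include h4 hac hbc hbc'

lemma compat_bO : ∀ e ∈ bO u v w z, (e ∈ b.1 ↔ e ∈ c.1) := by
  intro e he
  exact blkKey_off' h4 hbc (bO_disj h4 he) (bO_cell_disj h4 he)

lemma compat_cell : ∀ e ∈ cellE u v w z, (e ∈ b.1 ↔ e ∈ c.1) :=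
  cellsOf_eq_iff.1 hbc'

lemma compat_uv : ed a.1 u v = ed b.1 u v := by
  have n1 : s(u, v) ∉ bO u v w z := uv_not_bO _ _ (Or.inl rfl) (Or.inr rfl)
  have n2 : s(u, v) ∉ cellE u v w z := uv_not_cell h4
  have n3 : s(u, v) ∉ bO w z u v := by
    rw [mk_mem_bO]
    obtain ⟨h1, h2, h3, h5, h6, h7⟩ := h4
    rintro (⟨h8 | h8, -⟩ | ⟨h8 | h8, -⟩)
    · exact h2 h8
    · exact h3 h8
    · exact h5 h8
    · exact h6 h8
  have e1 : ed a.1 u v = ed c.1 u v := ed_eq_of_mem_iff (blkKey_off h4 hac n1 n2)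
  have e2 : ed b.1 u v = ed c.1 u v := ed_eq_of_mem_iff (blkKey_off' h4 hbc n3 n2)
  rw [e1, e2]

lemma compat_ed_bO {i j : V} (hi : i = u ∨ i = v) (hj : j ∈ Out u v w z) :
    ed b.1 i j = ed c.1 i j :=
  ed_eq_of_mem_iff (compat_bO h4 hac hbc hbc' _ (mk_mem_bO_of_out hi hj))

lemma compat_ed_cell {i j : V} (hi : i = u ∨ i = v) (hj : j = w ∨ j = z) :
    ed b.1 i j = ed c.1 i j :=
  ed_eq_of_mem_iff (compat_cell h4 hac hbc hbc' _ (cell_of_left hi hj))

lemma compat_sum : ∀ j ∈ Out u v w z, ed a.1 u j + ed a.1 v j = ed b.1 u j + ed b.1 v j := by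
  intro j hj
  obtain ⟨j1, j2, j3, j4⟩ := mem_Out.1 hj
  rw [blkKey_sum hac j1 j2, compat_ed_bO h4 hac hbc hbc' (Or.inl rfl) hj,
    compat_ed_bO h4 hac hbc hbc' (Or.inr rfl) hj]

lemma compat_col {j : V} (hj : j = w ∨ j = z) :
    ed a.1 u j + ed a.1 v j = ed b.1 u j + ed b.1 v j := by
  obtain ⟨h1, h2, h3, h5, h6, h7⟩ := h4
  have j1 : j ≠ u := by rcases hj with h | h <;> rw [h] <;> [exact h2.symm; exact h3.symm]
  have j2 : j ≠ v := by rcases hj with h | h <;> rw [h] <;> [exact h5.symm; exact h6.symm]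
  rw [blkKey_sum hac j1 j2, compat_ed_cell ⟨h1, h2, h3, h5, h6, h7⟩ hac hbc hbc' (Or.inl rfl) hj,
    compat_ed_cell ⟨h1, h2, h3, h5, h6, h7⟩ hac hbc hbc' (Or.inr rfl) hj]

lemma compat_mem : glue u v w z a.1 b.1 a.1 ∈ Omega d :=
  glue_mem_Omega h4 a.2 b.2 (compat_uv h4 hac hbc hbc') rfl rfl
    (compat_col h4 hac hbc hbc' (Or.inl rfl)) (compat_col h4 hac hbc hbc' (Or.inr rfl))
    (compat_sum h4 hac hbc hbc')

lemma mixA_val : (mixA u v w z a b).1 = glue u v w z a.1 b.1 a.1 := by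
  simp [mixA, compat_mem h4 hac hbc hbc']

lemma mixA_xi : xi u v (mixA u v w z a b) = xi u v b := by
  show blkKey u v (mixA u v w z a b).1 = blkKey u v b.1
  rw [mixA_val h4 hac hbc hbc']
  exact blkKey_glue_left h4 (compat_sum h4 hac hbc hbc') (compat_col h4 hac hbc hbc' (Or.inl rfl))
    (compat_col h4 hac hbc hbc' (Or.inr rfl))

lemma mixA_xi' : xi w z (mixA u v w z a b) = xi w z a := by
  show blkKey w z (mixA u v w z a b).1 = blkKey w z a.1
  rw [mixA_val h4 hac hbc hbc']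
  refine blkKey_glue_right h4 ?_ ?_ rfl rfl
  · intro e h1 h2 h3
    rw [blkKey_off' h4 hbc h3 h2, blkKey_off h4 hac h1 h2]
  · intro j hj
    obtain ⟨j1, j2, j3, j4⟩ := mem_Out.1 hj
    rw [blkKey_sum hbc j3 j4]
    have hj' : j ∈ Out w z u v := by rwa [Out_symm]
    have n1 : s(w, j) ∉ bO u v w z := bO_disj h4.symm (mk_mem_bO_of_out (Or.inl rfl) hj')
    have n2 : s(z, j) ∉ bO u v w z := bO_disj h4.symm (mk_mem_bO_of_out (Or.inr rfl) hj')
    have n3 : s(w, j) ∉ cellE u v w z := by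
      rw [← cellE_symm]; exact bO_cell_disj h4.symm (mk_mem_bO_of_out (Or.inl rfl) hj')
    have n4 : s(z, j) ∉ cellE u v w z := by
      rw [← cellE_symm]; exact bO_cell_disj h4.symm (mk_mem_bO_of_out (Or.inr rfl) hj')
    rw [ed_eq_of_mem_iff (blkKey_off h4 hac n1 n3), ed_eq_of_mem_iff (blkKey_off h4 hac n2 n4)]

lemma mixA_cells : cellsOf u v w z (mixA u v w z a b) = cellsOf u v w z a := by
  rw [cellsOf_eq_iff]
  intro e he
  rw [mixA_val h4 hac hbc hbc', mem_glue]
  have : e ∉ bO u v w z := cell_bO_disj h4 he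
  simp [this, he]

lemma mixA_mem_bO : ∀ e ∈ bO u v w z, (e ∈ (mixA u v w z a b).1 ↔ e ∈ a.1) := by
  intro e he
  rw [mixA_val h4 hac hbc hbc', mem_glue]
  simp [he]

lemma mixA_mem_cell : ∀ e ∈ cellE u v w z, (e ∈ (mixA u v w z a b).1 ↔ e ∈ a.1) := by
  intro e he
  rw [mixA_val h4 hac hbc hbc', mem_glue]
  have : e ∉ bO u v w z := cell_bO_disj h4 he
  simp [this, he]

lemma mixA_mem_off : ∀ e, e ∉ bO u v w z → e ∉ cellE u v w z →
    (e ∈ (mixA u v w z a b).1 ↔ e ∈ b.1) := by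
  intro e he he'
  rw [mixA_val h4 hac hbc hbc', mem_glue]
  simp [he, he']

end Props

/-- A key refining the block key of `u, v` by a function of the cells commutes with the block key of
`w, z` refined by the cells. -/
theorem comm_ref (h4 : Distinct4 u v w z) {K P : Type*} [DecidableEq K] [DecidableEq P]
    (κ : State d → K) (π : Finset (Sym2 V) → P)
    (hκ : ∀ a b, κ a = κ b ↔ xi u v a = xi u v b ∧ π (cellsOf u v w z a) = π (cellsOf u v w z b))
    (f : State d → ℝ) :
    cond κ (cond (refK (xi w z) (cellsOf u v w z)) f)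
      = cond (refK (xi w z) (cellsOf u v w z)) (cond κ f) := by
  funext x
  have hz : ∀ {a b : State d}, refK (xi w z) (cellsOf u v w z) a = refK (xi w z) (cellsOf u v w z) b ↔
      xi w z a = xi w z b ∧ cellsOf u v w z a = cellsOf u v w z b := by
    intro a b
    simp [refK]
  refine cond_comm_at κ _ x (mixA u v w z) ?_ ?_ ?_ ?_ ?_ f
  · -- the keys of the mix
    intro y t hy ht
    obtain ⟨hy1, hy2⟩ := (hκ _ _).1 hy
    obtain ⟨ht1, ht2⟩ := hz.1 ht
    refine ⟨(hκ _ _).2 ⟨mixA_xi h4 hy1 ht1 ht2, ?_⟩, hz.2 ⟨mixA_xi' h4 hy1 ht1 ht2, ?_⟩⟩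
    · rw [mixA_cells h4 hy1 ht1 ht2, hy2, ht2]
    · rw [mixA_cells h4 hy1 ht1 ht2]
  · -- `mix x (mix y t) = t`
    intro y t hy ht
    obtain ⟨hy1, hy2⟩ := (hκ _ _).1 hy
    obtain ⟨ht1, ht2⟩ := hz.1 ht
    set p := mixA u v w z y t with hp
    have hpx : xi w z p = xi w z y := mixA_xi' h4 hy1 ht1 ht2
    have hg : glue u v w z x.1 p.1 x.1 = t.1 := by
      apply glue_eq_of
      · intro e he
        exact (compat_bO h4 hy1 ht1 ht2 e he).symm
      · intro e _ he
        exact (compat_cell h4 hy1 ht1 ht2 e he).symm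
      · intro e h1 h2
        exact mixA_mem_off h4 hy1 ht1 ht2 e h1 h2
    apply Subtype.ext
    have hm : glue u v w z x.1 p.1 x.1 ∈ Omega d := by rw [hg]; exact t.2
    simp only [mixA, hm, dif_pos]
    exact hg
  · -- `mix y (mix x t) = t`
    intro y t hy ht
    obtain ⟨hy1, hy2⟩ := (hκ _ _).1 hy
    obtain ⟨ht1, ht2⟩ := hz.1 ht
    refine ⟨hz.2 ⟨mixA_xi' h4 hy1.symm ht1 ht2, mixA_cells h4 hy1.symm ht1 ht2⟩, ?_⟩
    set p := mixA u v w z x t with hp
    have hg : glue u v w z y.1 p.1 y.1 = t.1 := by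
      apply glue_eq_of
      · intro e he
        exact (compat_bO h4 hy1.symm ht1 ht2 e he).symm
      · intro e _ he
        exact (compat_cell h4 hy1.symm ht1 ht2 e he).symm
      · intro e h1 h2
        exact mixA_mem_off h4 hy1.symm ht1 ht2 e h1 h2
    apply Subtype.ext
    have hm : glue u v w z y.1 p.1 y.1 ∈ Omega d := by rw [hg]; exact t.2
    simp only [mixA, hm, dif_pos]
    exact hg
  · -- `mix (mix y t) x = y`
    intro y t hy ht
    obtain ⟨hy1, hy2⟩ := (hκ _ _).1 hy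
    obtain ⟨ht1, ht2⟩ := hz.1 ht
    set p := mixA u v w z y t with hp
    have hg : glue u v w z p.1 x.1 p.1 = y.1 := by
      apply glue_eq_of
      · exact mixA_mem_bO h4 hy1 ht1 ht2
      · intro e _ he
        exact mixA_mem_cell h4 hy1 ht1 ht2 e he
      · intro e h1 h2
        exact (blkKey_off h4 hy1 h1 h2).symm
    apply Subtype.ext
    have hm : glue u v w z p.1 x.1 p.1 ∈ Omega d := by rw [hg]; exact y.2
    simp only [mixA, hm, dif_pos]
    exact hg
  · -- `mix (mix y x) t = y`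
    intro y t ht hy
    obtain ⟨hy1, hy2⟩ := (hκ _ _).1 hy
    obtain ⟨ht1, ht2⟩ := hz.1 ht
    have hyx : xi u v y = xi u v t := hy1
    refine ⟨(hκ _ _).2 ⟨mixA_xi h4 hy1 ht1.symm ht2.symm, ?_⟩, ?_⟩
    · rw [mixA_cells h4 hy1 ht1.symm ht2.symm, hy2, ht2]
    set p := mixA u v w z y x with hp
    have hg : glue u v w z p.1 t.1 p.1 = y.1 := by
      apply glue_eq_of
      · exact mixA_mem_bO h4 hy1 ht1.symm ht2.symm
      · intro e _ he
        exact mixA_mem_cell h4 hy1 ht1.symm ht2.symm e he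
      · intro e h1 h2
        exact (blkKey_off h4 hy1 h1 h2).symm
    apply Subtype.ext
    have hm : glue u v w z p.1 t.1 p.1 ∈ Omega d := by rw [hg]; exact y.2
    simp only [mixA, hm, dif_pos]
    exact hg

/-- The number of cell pairs present. -/
def sigma (u v w z : V) (G : Finset (Sym2 V)) : ℤ :=
  ed G u w + ed G u z + ed G v w + ed G v z

lemma sigma_of_xi (h4 : Distinct4 u v w z) {a b : Finset (Sym2 V)}
    (h : blkKey u v a = blkKey u v b) : sigma u v w z a = sigma u v w z b := by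
  obtain ⟨h1, h2, h3, h5, h6, h7⟩ := h4
  have e1 := blkKey_sum h h2.symm h5.symm
  have e2 := blkKey_sum h h3.symm h6.symm
  simp only [sigma]
  linarith

lemma sigma_of_xi' (h4 : Distinct4 u v w z) {a b : Finset (Sym2 V)}
    (h : blkKey w z a = blkKey w z b) : sigma u v w z a = sigma u v w z b := by
  obtain ⟨h1, h2, h3, h5, h6, h7⟩ := h4
  have e1 := blkKey_sum h h2 h3
  have e2 := blkKey_sum h h5 h6
  rw [ed_comm a w u, ed_comm a z u, ed_comm b w u, ed_comm b z u] at e1
  rw [ed_comm a w v, ed_comm a z v, ed_comm b w v, ed_comm b z v] at e2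
  simp only [sigma]
  linarith

/-- The test for a cell of the reconstructed matrix. -/
def cC (u v w z : V) (y t : Finset (Sym2 V)) (a b : V) : Prop :=
  sigma u v w z y + 3 ≤ 2 * (ed y a w + ed y a z + ed t u b + ed t v b)

instance (u v w z : V) (y t : Finset (Sym2 V)) (a b : V) : Decidable (cC u v w z y t a b) := by
  unfold cC; infer_instance

/-- The unique cell matrix with the row sums of `y` and the column sums of `t`, when the number of
cells is not two. -/
def mR (u v w z : V) (y t : Finset (Sym2 V)) : Finset (Sym2 V) :=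
  univ.filter fun e => (e = s(u, w) ∧ cC u v w z y t u w) ∨ (e = s(u, z) ∧ cC u v w z y t u z) ∨
    (e = s(v, w) ∧ cC u v w z y t v w) ∨ (e = s(v, z) ∧ cC u v w z y t v z)

section Sector

variable (h4 : Distinct4 u v w z) (y t : Finset (Sym2 V))
include h4

lemma mR_uw : ed (mR u v w z y t) u w = if cC u v w z y t u w then 1 else 0 := by
  obtain ⟨c1, c2, c3, c4, c5, c6⟩ := cyc_ne h4
  by_cases h : cC u v w z y t u w <;> simp [ed, mR, h, c1, c2, c3, c1.symm, c2.symm, c3.symm]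

lemma mR_uz : ed (mR u v w z y t) u z = if cC u v w z y t u z then 1 else 0 := by
  obtain ⟨c1, c2, c3, c4, c5, c6⟩ := cyc_ne h4
  by_cases h : cC u v w z y t u z <;> simp [ed, mR, h, c2, c4, c6, c2.symm, c4.symm, c6.symm]

lemma mR_vw : ed (mR u v w z y t) v w = if cC u v w z y t v w then 1 else 0 := by
  obtain ⟨c1, c2, c3, c4, c5, c6⟩ := cyc_ne h4
  by_cases h : cC u v w z y t v w <;> simp [ed, mR, h, c3, c5, c6, c3.symm, c5.symm, c6.symm]

lemma mR_vz : ed (mR u v w z y t) v z = if cC u v w z y t v z then 1 else 0 := by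
  obtain ⟨c1, c2, c3, c4, c5, c6⟩ := cyc_ne h4
  by_cases h : cC u v w z y t v z <;> simp [ed, mR, h, c1, c4, c5, c1.symm, c4.symm, c5.symm]

/-- The margins of the reconstructed matrix. -/
lemma mR_margins (hσ : sigma u v w z y = sigma u v w z t) (h2 : sigma u v w z y ≠ 2) :
    ed (mR u v w z y t) u w + ed (mR u v w z y t) u z = ed y u w + ed y u z ∧
    ed (mR u v w z y t) v w + ed (mR u v w z y t) v z = ed y v w + ed y v z ∧
    ed (mR u v w z y t) u w + ed (mR u v w z y t) v w = ed t u w + ed t v w ∧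
    ed (mR u v w z y t) u z + ed (mR u v w z y t) v z = ed t u z + ed t v z := by
  rw [mR_uw h4, mR_uz h4, mR_vw h4, mR_vz h4]
  simp only [cC]
  unfold sigma at hσ h2 ⊢
  have a1 := ed_nonneg y u w; have a2 := ed_le_one y u w
  have a3 := ed_nonneg y u z; have a4 := ed_le_one y u z
  have a5 := ed_nonneg y v w; have a6 := ed_le_one y v w
  have a7 := ed_nonneg y v z; have a8 := ed_le_one y v z
  have b1 := ed_nonneg t u w; have b2 := ed_le_one t u w
  have b3 := ed_nonneg t u z; have b4 := ed_le_one t u z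
  have b5 := ed_nonneg t v w; have b6 := ed_le_one t v w
  have b7 := ed_nonneg t v z; have b8 := ed_le_one t v z
  refine ⟨?_, ?_, ?_, ?_⟩ <;> split_ifs <;> omega

/-- The reconstructed matrix is the cell matrix of any graph with the same margins. -/
lemma mR_recover (r : Finset (Sym2 V)) (hρu : ed y u w + ed y u z = ed r u w + ed r u z)
    (hρv : ed y v w + ed y v z = ed r v w + ed r v z)
    (hγw : ed t u w + ed t v w = ed r u w + ed r v w)
    (hγz : ed t u z + ed t v z = ed r u z + ed r v z)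
    (h2 : sigma u v w z r ≠ 2) :
    ed (mR u v w z y t) u w = ed r u w ∧ ed (mR u v w z y t) u z = ed r u z ∧
    ed (mR u v w z y t) v w = ed r v w ∧ ed (mR u v w z y t) v z = ed r v z := by
  rw [mR_uw h4, mR_uz h4, mR_vw h4, mR_vz h4]
  simp only [cC]
  unfold sigma at h2 ⊢
  have a1 := ed_nonneg r u w; have a2 := ed_le_one r u w
  have a3 := ed_nonneg r u z; have a4 := ed_le_one r u z
  have a5 := ed_nonneg r v w; have a6 := ed_le_one r v w
  have a7 := ed_nonneg r v z; have a8 := ed_le_one r v z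
  refine ⟨?_, ?_, ?_, ?_⟩ <;> split_ifs <;> omega

end Sector

lemma mem_iff_of_ed_eq {G G' : Finset (Sym2 V)} {a b : V} (h : ed G a b = ed G' a b) :
    s(a, b) ∈ G ↔ s(a, b) ∈ G' := by
  unfold ed at h
  by_cases h1 : s(a, b) ∈ G <;> by_cases h2 : s(a, b) ∈ G' <;> simp_all

/-- Two graphs with the same indicators on the four cells agree on the cells. -/
lemma cell_agree {G G' : Finset (Sym2 V)} (h1 : ed G u w = ed G' u w) (h2 : ed G u z = ed G' u z)
    (h3 : ed G v w = ed G' v w) (h5 : ed G v z = ed G' v z) :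
    ∀ e ∈ cellE u v w z, (e ∈ G ↔ e ∈ G') := by
  intro e he
  induction e using Sym2.ind with
  | _ a b =>
    rw [mk_mem_cellE] at he
    rcases he with ⟨ha | ha, hb | hb⟩ | ⟨hb | hb, ha | ha⟩ <;> subst ha <;> subst hb
    · exact mem_iff_of_ed_eq h1
    · exact mem_iff_of_ed_eq h2
    · exact mem_iff_of_ed_eq h3
    · exact mem_iff_of_ed_eq h5
    · rw [Sym2.eq_swap]; exact mem_iff_of_ed_eq h1
    · rw [Sym2.eq_swap]; exact mem_iff_of_ed_eq h2
    · rw [Sym2.eq_swap]; exact mem_iff_of_ed_eq h3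
    · rw [Sym2.eq_swap]; exact mem_iff_of_ed_eq h5

/-- The second kind of mixing: stripe pairs of the first argument, the reconstructed cells,
everything else from the second. -/
def mixB (u v w z : V) (a b : State d) : State d :=
  if h : glue u v w z a.1 b.1 (mR u v w z a.1 b.1) ∈ Omega d then ⟨_, h⟩ else b

section Props2

variable (h4 : Distinct4 u v w z) {a b c : State d}
  (hac : xi u v a = xi u v c) (hbc : xi w z b = xi w z c)
  (hσ : sigma u v w z c.1 ≠ 2)
include h4 hac hbc hσ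

lemma sB_a : sigma u v w z a.1 = sigma u v w z c.1 := sigma_of_xi h4 hac

lemma sB_b : sigma u v w z b.1 = sigma u v w z c.1 := sigma_of_xi' h4 hbc

lemma mB_margins :
    ed (mR u v w z a.1 b.1) u w + ed (mR u v w z a.1 b.1) u z = ed a.1 u w + ed a.1 u z ∧
    ed (mR u v w z a.1 b.1) v w + ed (mR u v w z a.1 b.1) v z = ed a.1 v w + ed a.1 v z ∧
    ed (mR u v w z a.1 b.1) u w + ed (mR u v w z a.1 b.1) v w = ed b.1 u w + ed b.1 v w ∧
    ed (mR u v w z a.1 b.1) u z + ed (mR u v w z a.1 b.1) v z = ed b.1 u z + ed b.1 v z :=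
  mR_margins h4 _ _ (by rw [sB_a h4 hac hbc hσ, sB_b h4 hac hbc hσ])
    (by rw [sB_a h4 hac hbc hσ]; exact hσ)

lemma bB_ed_bO {i j : V} (hi : i = u ∨ i = v) (hj : j ∈ Out u v w z) :
    ed b.1 i j = ed c.1 i j := by
  have hm := mk_mem_bO_of_out (w := w) (z := z) hi hj
  exact ed_eq_of_mem_iff (blkKey_off' h4 hbc (bO_disj h4 hm) (bO_cell_disj h4 hm))

lemma bB_sum : ∀ j ∈ Out u v w z, ed a.1 u j + ed a.1 v j = ed b.1 u j + ed b.1 v j := by
  intro j hj
  obtain ⟨j1, j2, j3, j4⟩ := mem_Out.1 hj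
  rw [blkKey_sum hac j1 j2, bB_ed_bO h4 hac hbc hσ (Or.inl rfl) hj,
    bB_ed_bO h4 hac hbc hσ (Or.inr rfl) hj]

lemma bB_uv : ed a.1 u v = ed b.1 u v := by
  have n1 : s(u, v) ∉ bO u v w z := uv_not_bO _ _ (Or.inl rfl) (Or.inr rfl)
  have n2 : s(u, v) ∉ cellE u v w z := uv_not_cell h4
  have n3 : s(u, v) ∉ bO w z u v := by
    rw [mk_mem_bO]
    obtain ⟨h1, h2, h3, h5, h6, h7⟩ := h4
    rintro (⟨h8 | h8, -⟩ | ⟨h8 | h8, -⟩)
    · exact h2 h8
    · exact h3 h8
    · exact h5 h8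
    · exact h6 h8
  have e1 : ed a.1 u v = ed c.1 u v := ed_eq_of_mem_iff (blkKey_off h4 hac n1 n2)
  have e2 : ed b.1 u v = ed c.1 u v := ed_eq_of_mem_iff (blkKey_off' h4 hbc n3 n2)
  rw [e1, e2]

lemma mixB_mem : glue u v w z a.1 b.1 (mR u v w z a.1 b.1) ∈ Omega d := by
  obtain ⟨m1, m2, m3, m4⟩ := mB_margins h4 hac hbc hσ
  exact glue_mem_Omega h4 a.2 b.2 (bB_uv h4 hac hbc hσ) m1 m2 m3 m4 (bB_sum h4 hac hbc hσ)

lemma mixB_val : (mixB u v w z a b).1 = glue u v w z a.1 b.1 (mR u v w z a.1 b.1) := by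
  simp [mixB, mixB_mem h4 hac hbc hσ]

lemma mixB_xi : xi u v (mixB u v w z a b) = xi u v b := by
  show blkKey u v (mixB u v w z a b).1 = blkKey u v b.1
  rw [mixB_val h4 hac hbc hσ]
  obtain ⟨m1, m2, m3, m4⟩ := mB_margins h4 hac hbc hσ
  exact blkKey_glue_left h4 (bB_sum h4 hac hbc hσ) m3 m4

lemma mixB_xi' : xi w z (mixB u v w z a b) = xi w z a := by
  show blkKey w z (mixB u v w z a b).1 = blkKey w z a.1
  rw [mixB_val h4 hac hbc hσ]
  obtain ⟨m1, m2, m3, m4⟩ := mB_margins h4 hac hbc hσ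
  refine blkKey_glue_right h4 ?_ ?_ m1 m2
  · intro e h1 h2 h3
    rw [blkKey_off' h4 hbc h3 h2, blkKey_off h4 hac h1 h2]
  · intro j hj
    obtain ⟨j1, j2, j3, j4⟩ := mem_Out.1 hj
    rw [blkKey_sum hbc j3 j4]
    have hj' : j ∈ Out w z u v := by rwa [Out_symm]
    have n1 : s(w, j) ∉ bO u v w z := bO_disj h4.symm (mk_mem_bO_of_out (Or.inl rfl) hj')
    have n2 : s(z, j) ∉ bO u v w z := bO_disj h4.symm (mk_mem_bO_of_out (Or.inr rfl) hj')
    have n3 : s(w, j) ∉ cellE u v w z := by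
      rw [← cellE_symm]; exact bO_cell_disj h4.symm (mk_mem_bO_of_out (Or.inl rfl) hj')
    have n4 : s(z, j) ∉ cellE u v w z := by
      rw [← cellE_symm]; exact bO_cell_disj h4.symm (mk_mem_bO_of_out (Or.inr rfl) hj')
    rw [ed_eq_of_mem_iff (blkKey_off h4 hac n1 n3), ed_eq_of_mem_iff (blkKey_off h4 hac n2 n4)]

end Props2

/-- Recovering a graph from its two keys. -/
lemma mixB_recover (h4 : Distinct4 u v w z) {q r r' : State d} (h1 : xi w z q = xi w z r')
    (h2 : xi u v r = xi u v r') (hσ : sigma u v w z r'.1 ≠ 2) : mixB u v w z q r = r' := by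
  have hg : glue u v w z q.1 r.1 (mR u v w z q.1 r.1) = r'.1 := by
    obtain ⟨a1, a2, a3, a4, a5, a6⟩ := h4
    have h4' : Distinct4 u v w z := ⟨a1, a2, a3, a4, a5, a6⟩
    have hρ : ∀ i, (i = u ∨ i = v) → ed q.1 i w + ed q.1 i z = ed r'.1 i w + ed r'.1 i z := by
      intro i hi
      have i1 : i ≠ w := by rcases hi with h | h <;> rw [h] <;> assumption
      have i2 : i ≠ z := by rcases hi with h | h <;> rw [h] <;> assumption
      have := blkKey_sum h1 i1 i2
      rwa [ed_comm q.1 w, ed_comm q.1 z, ed_comm r'.1 w, ed_comm r'.1 z] at this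
    have hγ : ∀ j, (j = w ∨ j = z) → ed r.1 u j + ed r.1 v j = ed r'.1 u j + ed r'.1 v j := by
      intro j hj
      have j1 : j ≠ u := by rcases hj with h | h <;> rw [h] <;> [exact a2.symm; exact a3.symm]
      have j2 : j ≠ v := by rcases hj with h | h <;> rw [h] <;> [exact a4.symm; exact a5.symm]
      exact blkKey_sum h2 j1 j2
    obtain ⟨m1, m2, m3, m4⟩ := mR_recover h4' q.1 r.1 r'.1 (hρ u (Or.inl rfl)) (hρ v (Or.inr rfl))
      (hγ w (Or.inl rfl)) (hγ z (Or.inr rfl)) hσ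
    apply glue_eq_of
    · intro e he
      exact blkKey_off' h4' h1 (bO_disj h4' he) (bO_cell_disj h4' he)
    · intro e _ he
      exact cell_agree m1 m2 m3 m4 e he
    · intro e n1 n2
      exact blkKey_off h4' h2 n1 n2
  apply Subtype.ext
  have hm : glue u v w z q.1 r.1 (mR u v w z q.1 r.1) ∈ Omega d := by rw [hg]; exact r'.2
  simp only [mixB, hm, dif_pos]
  exact hg

/-- Outside the sector of two cell pairs the two block averages commute. -/
theorem comm_sector (h4 : Distinct4 u v w z) (x : State d) (hx : sigma u v w z x.1 ≠ 2)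
    (f : State d → ℝ) :
    cond (xi u v) (cond (xi w z) f) x = cond (xi w z) (cond (xi u v) f) x := by
  refine cond_comm_at (xi u v) (xi w z) x (mixB u v w z) ?_ ?_ ?_ ?_ ?_ f
  · intro y t hy ht
    exact ⟨mixB_xi h4 hy ht hx, mixB_xi' h4 hy ht hx⟩
  · intro y t hy ht
    have ht2 : sigma u v w z t.1 ≠ 2 := by
      rw [sigma_of_xi' h4 ht]; exact hx
    exact mixB_recover h4 ht.symm (mixB_xi h4 hy ht hx) ht2
  · intro y t hy ht
    have hy2 : sigma u v w z y.1 ≠ 2 := by
      rw [sigma_of_xi h4 hy]; exact hx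
    have ht2 : sigma u v w z t.1 ≠ 2 := by
      rw [sigma_of_xi' h4 ht]; exact hy2
    refine ⟨mixB_xi' h4 hy.symm ht hy2, ?_⟩
    exact mixB_recover h4 ht.symm (mixB_xi h4 hy.symm ht hy2) ht2
  · intro y t hy ht
    have hy2 : sigma u v w z y.1 ≠ 2 := by
      rw [sigma_of_xi h4 hy]; exact hx
    exact mixB_recover h4 (mixB_xi' h4 hy ht hx) hy.symm hy2
  · intro y t ht hy
    have ht2 : sigma u v w z t.1 ≠ 2 := by
      rw [sigma_of_xi' h4 ht]; exact hx
    have hy2 : sigma u v w z y.1 ≠ 2 := by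
      rw [sigma_of_xi h4 hy]; exact ht2
    refine ⟨mixB_xi h4 hy ht.symm ht2, ?_⟩
    exact mixB_recover h4 (mixB_xi' h4 hy ht.symm ht2) hy.symm hy2

end Vale.Agent.Lib.P335
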