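import Vale.Agent.Lib.P335.Graph
set_option linter.unusedSectionVars false

/-!
The switch chain of the problem, its total variation distance to the uniform law, and its mixing time.
-/

namespace Vale.Agent.Lib.P335

open Finset

variable {n : ℕ}

/-- `F` is a perfect matching of the vertex set `S`: two edges, without loops, inside `S`,
covering `S`. -/
def IsPM (S : Finset (Fin n)) (F : Finset (Sym2 (Fin n))) : Prop :=
  F.card = 2 ∧ (∀ e ∈ F, ¬ e.IsDiag ∧ ∀ x ∈ e, x ∈ S) ∧ ∀ x ∈ S, ∃ e ∈ F, x ∈ e

open Classical in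
/-- All triples `(S, F, F')`: `S` a 4-set and `F, F'` distinct perfect matchings of `S`. -/
noncomputable def moves (n : ℕ) :
    Finset (Finset (Fin n) × Finset (Sym2 (Fin n)) × Finset (Sym2 (Fin n))) :=
  univ.filter fun t => t.1.card = 4 ∧ IsPM t.1 t.2.1 ∧ IsPM t.1 t.2.2 ∧ t.2.1 ≠ t.2.2

/-- Replace `F` by `F'` if all edges of `F` are present and all edges of `F'` are absent. -/
def applyMove (G F F' : Finset (Sym2 (Fin n))) : Finset (Sym2 (Fin n)) :=
  if F ⊆ G ∧ Disjoint F' G then (G \ F) ∪ F' else G

open Classical in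
/-- The transition matrix `P_d`: stay with probability `1/2`, otherwise a uniform 4-set and a
uniform one of the six ordered pairs of distinct perfect matchings of it. -/
noncomputable def kernel (d : Fin n → ℕ) : Matrix (State d) (State d) ℝ := fun G H =>
  (if G = H then 1 / 2 else 0) +
    (1 / 2) * (((moves n).filter fun t => applyMove G.1 t.2.1 t.2.2 = H.1).card : ℝ) /
      (6 * (n.choose 4 : ℝ))

/-- Total variation distance. -/
noncomputable def tv {d : Fin n → ℕ} (μ ν : State d → ℝ) : ℝ := (1 / 2) * ∑ G, |μ G - ν G|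

/-- The uniform law on `State d`. -/
noncomputable def unif (d : Fin n → ℕ) : State d → ℝ := fun _ => 1 / (Fintype.card (State d) : ℝ)

open Classical in
/-- The mixing time. -/
noncomputable def tmix (d : Fin n → ℕ) : ℕ :=
  sInf {t : ℕ | ∀ G : State d, tv ((kernel d ^ t) G) (unif d) ≤ 1 / 4}

end Vale.Agent.Lib.P335
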