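import Mathlib
set_option linter.unusedSectionVars false

/-!
Simple graphs on a finite vertex type, as loopless edge sets, their degrees, and the switch operation.
-/

namespace Vale.Agent.Lib.P335

open Finset

variable {V : Type*} [Fintype V] [DecidableEq V]

/-- The degree of `v` in the edge set `G`: the number of `w` with `{v,w} ∈ G`. -/
def deg (G : Finset (Sym2 V)) (v : V) : ℕ := (univ.filter (fun w => s(v, w) ∈ G)).card

/-- The labeled simple graphs with degree vector `d`, as loopless edge sets. -/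
def Omega (d : V → ℕ) : Finset (Finset (Sym2 V)) :=
  univ.filter (fun G => (∀ e ∈ G, ¬ e.IsDiag) ∧ ∀ v, deg G v = d v)

/-- The elements of `Omega d` as a type. -/
abbrev State (d : V → ℕ) := {G : Finset (Sym2 V) // G ∈ Omega d}

/-- Four pairwise distinct vertices. -/
def Distinct4 (u v w z : V) : Prop :=
  u ≠ v ∧ u ≠ w ∧ u ≠ z ∧ v ≠ w ∧ v ≠ z ∧ w ≠ z

instance (u v w z : V) : Decidable (Distinct4 u v w z) := by
  unfold Distinct4; infer_instance

/-- `G` contains `{u,w},{v,z}` and misses `{u,z},{v,w}`. -/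
def Pat (u v w z : V) (G : Finset (Sym2 V)) : Prop :=
  s(u, w) ∈ G ∧ s(v, z) ∈ G ∧ s(u, z) ∉ G ∧ s(v, w) ∉ G

instance (u v w z : V) (G : Finset (Sym2 V)) : Decidable (Pat u v w z G) := by
  unfold Pat; infer_instance

/-- The four edges of the 4-cycle `u w v z`. -/
def cyc (u v w z : V) : Finset (Sym2 V) := {s(u, w), s(v, z), s(u, z), s(v, w)}

/-- The switch on the 4-cycle `u w v z`: it exchanges the two perfect matchings when one of them is
present and the other absent, and does nothing otherwise. -/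
def swp (u v w z : V) (G : Finset (Sym2 V)) : Finset (Sym2 V) :=
  if Pat u v w z G ∨ Pat u v z w G then symmDiff G (cyc u v w z) else G

/-- The edge indicator with values in `ℤ`. -/
def ed (G : Finset (Sym2 V)) (x y : V) : ℤ := if s(x, y) ∈ G then 1 else 0

lemma ed_comm (G : Finset (Sym2 V)) (x y : V) : ed G x y = ed G y x := by
  simp [ed, Sym2.eq_swap]

lemma ed_nonneg (G : Finset (Sym2 V)) (x y : V) : 0 ≤ ed G x y := by
  unfold ed; split_ifs <;> norm_num

lemma ed_le_one (G : Finset (Sym2 V)) (x y : V) : ed G x y ≤ 1 := by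
  unfold ed; split_ifs <;> norm_num

lemma deg_eq_sum (G : Finset (Sym2 V)) (x : V) : (deg G x : ℤ) = ∑ y, ed G x y := by
  unfold deg ed
  rw [Finset.card_filter]
  push_cast
  rfl

lemma sum_sym2_eq (a b x : V) (h : a ≠ b) :
    (∑ y : V, if s(x, y) = s(a, b) then (1 : ℤ) else 0)
      = (if x = a then 1 else 0) + (if x = b then 1 else 0) := by
  have key : ∀ y : V, (if s(x, y) = s(a, b) then (1 : ℤ) else 0)
      = (if x = a ∧ y = b then 1 else 0) + (if x = b ∧ y = a then 1 else 0) := by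
    intro y
    by_cases h1 : x = a ∧ y = b
    · obtain ⟨rfl, rfl⟩ := h1
      have : ¬ (x = y ∧ y = x) := fun h2 => h h2.1
      simp [h]
    · by_cases h2 : x = b ∧ y = a
      · obtain ⟨rfl, rfl⟩ := h2
        simp [h1, Sym2.eq_swap]
      · have : s(x, y) ≠ s(a, b) := by
          intro h3
          rcases Sym2.eq_iff.1 h3 with h4 | h4
          · exact h1 h4
          · exact h2 h4
        simp [h1, h2, this]
  have e1 : ∀ c d : V, (∑ y : V, if x = c ∧ y = d then (1 : ℤ) else 0) = if x = c then 1 else 0 := by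
    intro c d
    by_cases h1 : x = c
    · simp only [h1, true_and, if_true, Finset.sum_ite_eq', Finset.mem_univ]
    · simp [h1]
  simp_rw [key, Finset.sum_add_distrib, e1]

section Switch

variable {u v w z : V}

lemma cyc_ne (h : Distinct4 u v w z) :
    s(u, w) ≠ s(v, z) ∧ s(u, w) ≠ s(u, z) ∧ s(u, w) ≠ s(v, w) ∧ s(v, z) ≠ s(u, z) ∧
      s(v, z) ≠ s(v, w) ∧ s(u, z) ≠ s(v, w) := by
  obtain ⟨h1, h2, h3, h4, h5, h6⟩ := h
  refine ⟨?_, ?_, ?_, ?_, ?_, ?_⟩ <;> intro h7 <;> rcases Sym2.eq_iff.1 h7 with h8 | h8 <;>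
    simp_all

lemma mem_swp_of_pat {G : Finset (Sym2 V)} (h : Pat u v w z G ∨ Pat u v z w G) (e : Sym2 V) :
    e ∈ swp u v w z G ↔ ((e ∈ G ∧ e ∉ cyc u v w z) ∨ (e ∈ cyc u v w z ∧ e ∉ G)) := by
  simp only [swp, if_pos h, Finset.mem_symmDiff]

lemma ed_swp_pat (h : Distinct4 u v w z) {G : Finset (Sym2 V)} (hp : Pat u v w z G) (x y : V) :
    ed (swp u v w z G) x y = ed G x y
      - (if s(x, y) = s(u, w) then 1 else 0) - (if s(x, y) = s(v, z) then 1 else 0)
      + (if s(x, y) = s(u, z) then 1 else 0) + (if s(x, y) = s(v, w) then 1 else 0) := by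
  obtain ⟨h1, h2, h3, h4, h5, h6⟩ := cyc_ne h
  obtain ⟨p1, p2, p3, p4⟩ := hp
  have hm := mem_swp_of_pat (u := u) (v := v) (w := w) (z := z) (G := G) (Or.inl ⟨p1, p2, p3, p4⟩)
  unfold ed
  by_cases a1 : s(x, y) = s(u, w)
  · have : s(x, y) ∉ swp u v w z G := by
      rw [hm, a1]; simp [cyc, p1]
    rw [if_neg this, a1]; simp [h1, h2, h3, p1]
  by_cases a2 : s(x, y) = s(v, z)
  · have : s(x, y) ∉ swp u v w z G := by
      rw [hm, a2]; simp [cyc, p2]
    rw [if_neg this, a2]; simp [h1.symm, h4, h5, p2]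
  by_cases a3 : s(x, y) = s(u, z)
  · have : s(x, y) ∈ swp u v w z G := by
      rw [hm, a3]; right; simp [cyc, p3]
    rw [if_pos this, a3]; simp [h2.symm, h4.symm, h6, p3]
  by_cases a4 : s(x, y) = s(v, w)
  · have : s(x, y) ∈ swp u v w z G := by
      rw [hm, a4]; right; simp [cyc, p4]
    rw [if_pos this, a4]; simp [h3.symm, h5.symm, h6.symm, p4]
  have hc : s(x, y) ∉ cyc u v w z := by simp [cyc, a1, a2, a3, a4]
  have : s(x, y) ∈ swp u v w z G ↔ s(x, y) ∈ G := by
    rw [hm]; simp [hc]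
  simp [this, a1, a2, a3, a4]

lemma Distinct4.swap_wz (h : Distinct4 u v w z) : Distinct4 u v z w := by
  obtain ⟨h1, h2, h3, h4, h5, h6⟩ := h
  exact ⟨h1, h3, h2, h5, h4, h6.symm⟩

lemma cyc_swap_wz : cyc u v w z = cyc u v z w := by
  ext e
  simp only [cyc, Finset.mem_insert, Finset.mem_singleton]
  tauto

lemma swp_swap_wz (G : Finset (Sym2 V)) : swp u v w z G = swp u v z w G := by
  unfold swp
  rw [cyc_swap_wz (u := u) (v := v) (w := w) (z := z)]
  by_cases h : Pat u v w z G ∨ Pat u v z w G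
  · rw [if_pos h, if_pos h.symm]
  · rw [if_neg h, if_neg (fun h' => h h'.symm)]

lemma deg_swp_pat (h : Distinct4 u v w z) {G : Finset (Sym2 V)} (hp : Pat u v w z G) (x : V) :
    deg (swp u v w z G) x = deg G x := by
  have h0 : (deg (swp u v w z G) x : ℤ) = deg G x := by
    rw [deg_eq_sum, deg_eq_sum]
    simp_rw [ed_swp_pat h hp x]
    obtain ⟨h1, h2, h3, h4, h5, h6⟩ := h
    simp only [Finset.sum_add_distrib, Finset.sum_sub_distrib]
    rw [sum_sym2_eq u w x h2, sum_sym2_eq v z x h5, sum_sym2_eq u z x h3, sum_sym2_eq v w x h4]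
    ring
  exact_mod_cast h0

lemma deg_swp (h : Distinct4 u v w z) (G : Finset (Sym2 V)) (x : V) :
    deg (swp u v w z G) x = deg G x := by
  by_cases h1 : Pat u v w z G
  · exact deg_swp_pat h h1 x
  by_cases h2 : Pat u v z w G
  · rw [swp_swap_wz]; exact deg_swp_pat h.swap_wz h2 x
  · simp [swp, h1, h2]

lemma swp_mem_Omega (h : Distinct4 u v w z) {d : V → ℕ} {G : Finset (Sym2 V)} (hG : G ∈ Omega d) :
    swp u v w z G ∈ Omega d := by
  simp only [Omega, Finset.mem_filter, Finset.mem_univ, true_and] at hG ⊢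
  refine ⟨?_, fun x => by rw [deg_swp h, hG.2]⟩
  intro e he
  by_cases hp : Pat u v w z G ∨ Pat u v z w G
  · rw [mem_swp_of_pat hp] at he
    rcases he with he | he
    · exact hG.1 e he.1
    · obtain ⟨h1, h2, h3, h4, h5, h6⟩ := h
      have := he.1
      simp only [cyc, Finset.mem_insert, Finset.mem_singleton] at this
      rcases this with rfl | rfl | rfl | rfl <;> simpa [Sym2.mk_isDiag_iff]
  · simp only [swp, if_neg hp] at he
    exact hG.1 e he

/-- The switch as a map on states; the identity unless the four vertices are distinct. -/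
def tau {d : V → ℕ} (u v w z : V) (G : State d) : State d :=
  if h : Distinct4 u v w z then ⟨swp u v w z G.1, swp_mem_Omega h G.2⟩ else G

lemma pat_swp (h : Distinct4 u v w z) {G : Finset (Sym2 V)} (hp : Pat u v w z G) :
    Pat u v z w (swp u v w z G) := by
  obtain ⟨h1, h2, h3, h4, h5, h6⟩ := cyc_ne h
  have hm := mem_swp_of_pat (u := u) (v := v) (w := w) (z := z) (G := G) (Or.inl hp)
  obtain ⟨p1, p2, p3, p4⟩ := hp
  refine ⟨?_, ?_, ?_, ?_⟩
  · rw [hm]; right; simp [cyc, p3]
  · rw [hm]; right; simp [cyc, p4]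
  · rw [hm]; simp [cyc, p1]
  · rw [hm]; simp [cyc, p2]

lemma swp_swp_pat (h : Distinct4 u v w z) {G : Finset (Sym2 V)} (hp : Pat u v w z G) :
    swp u v w z (swp u v w z G) = G := by
  have h1 : Pat u v z w (swp u v w z G) := pat_swp h hp
  have h2 : swp u v w z G = symmDiff G (cyc u v w z) := by simp [swp, hp]
  have h3 : swp u v w z (swp u v w z G) = symmDiff (swp u v w z G) (cyc u v w z) :=
    if_pos (Or.inr h1)
  rw [h3, h2]
  simp

lemma swp_swp (h : Distinct4 u v w z) (G : Finset (Sym2 V)) :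
    swp u v w z (swp u v w z G) = G := by
  by_cases h1 : Pat u v w z G
  · exact swp_swp_pat h h1
  by_cases h2 : Pat u v z w G
  · rw [swp_swap_wz, swp_swap_wz (w := w) (z := z)]
    exact swp_swp_pat h.swap_wz h2
  · have : swp u v w z G = G := by simp [swp, h1, h2]
    rw [this, this]

lemma tau_tau {d : V → ℕ} (G : State d) : tau u v w z (tau u v w z G) = G := by
  by_cases h : Distinct4 u v w z
  · apply Subtype.ext
    simp [tau, h, swp_swp h]
  · simp [tau, h]

end Switch

/-- The Dirichlet sum of the switch on the cycle `u w v z`: over graphs containing `{u,w},{v,z}`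
and missing `{u,z},{v,w}`. -/
def Dsw {d : V → ℕ} (u v w z : V) (f : State d → ℝ) : ℝ :=
  ∑ G : State d, if Pat u v w z G.1 then (f G - f (tau u v w z G)) ^ 2 else 0

/-- Sum over ordered 4-tuples of distinct vertices. -/
def sum4 (F : V → V → V → V → ℝ) : ℝ :=
  ∑ u, ∑ v, ∑ w, ∑ z, if Distinct4 u v w z then F u v w z else 0

end Vale.Agent.Lib.P335
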