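import Vale.Agent.Lib.P335.ThreeRowNum
set_option linter.unusedSectionVars false

namespace Vale.Agent.Lib.P335

open Finset

variable {Y : Type*} [Fintype Y] [DecidableEq Y]

/-- All `3 × Y` zero-one matrices with row sums `r` and column sums `c`; a matrix is given by its
rows as subsets of `Y`. -/
def Rows3 (r : Fin 3 → ℕ) (c : Y → ℕ) : Finset (Fin 3 → Finset Y) :=
  univ.filter fun x => (∀ a, (x a).card = r a) ∧ ∀ y, (univ.filter fun a => y ∈ x a).card = c y

variable {r : Fin 3 → ℕ} {c : Y → ℕ}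

lemma mem_rows {x : Fin 3 → Finset Y} :
    x ∈ Rows3 r c ↔ (∀ a, (x a).card = r a) ∧ ∀ y, (univ.filter fun a => y ∈ x a).card = c y := by
  simp [Rows3]

lemma univ_eq3 {a b e : Fin 3} (hab : a ≠ b) (hae : a ≠ e) (hbe : b ≠ e) :
    (univ : Finset (Fin 3)) = {a, b, e} := by
  revert a b e; decide

lemma erase_eq3 {a b e : Fin 3} (hab : a ≠ b) (hae : a ≠ e) (hbe : b ≠ e) :
    (univ : Finset (Fin 3)).erase a = {b, e} := by
  revert a b e; decide

lemma exists_others (a : Fin 3) : ∃ b e : Fin 3, a ≠ b ∧ a ≠ e ∧ b ≠ e := by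
  revert a; decide

lemma sum_three {β : Type*} [AddCommMonoid β] {a b e : Fin 3} (hab : a ≠ b) (hae : a ≠ e)
    (hbe : b ≠ e) (g : Fin 3 → β) : ∑ f, g f = g a + (g b + g e) := by
  rw [univ_eq3 hab hae hbe, Finset.sum_insert (by simp [hab, hae]),
    Finset.sum_insert (by simp [hbe]), Finset.sum_singleton]

/-- Column count in terms of the three rows. -/
lemma count3 {x : Fin 3 → Finset Y} (hx : x ∈ Rows3 r c) {a b e : Fin 3} (hab : a ≠ b)
    (hae : a ≠ e) (hbe : b ≠ e) (y : Y) :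
    (if y ∈ x a then 1 else 0) + ((if y ∈ x b then 1 else 0) + (if y ∈ x e then 1 else 0)) = c y := by
  have h := (mem_rows.1 hx).2 y
  rw [Finset.card_filter, sum_three hab hae hbe] at h
  exact h

section Operator

variable (r c)

/-- The fiber of the class over the value `S` of row `a`. -/
def trFib (a : Fin 3) (S : Finset Y) : Finset (Fin 3 → Finset Y) :=
  (Rows3 r c).filter fun x => x a = S

/-- Conditional expectation given the row `a`. -/
noncomputable def condE (a : Fin 3) (S : Finset Y) (f : (Fin 3 → Finset Y) → ℝ) : ℝ :=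
  (∑ x ∈ trFib r c a S, f x) / (trFib r c a S).card

/-- The operator `K`. -/
noncomputable def KK (F : Fin 3 → Finset Y → ℝ) : Fin 3 → Finset Y → ℝ :=
  fun a S => ∑ b ∈ univ.erase a, condE r c a S (fun x => F b (x b))

/-- The bilinear form. -/
noncomputable def form (X Z : Fin 3 → Finset Y → ℝ) : ℝ :=
  ∑ a, ∑ x ∈ Rows3 r c, X a (x a) * Z a (x a)

variable {r c}

lemma mem_trFib {a : Fin 3} {S : Finset Y} {x : Fin 3 → Finset Y} :
    x ∈ trFib r c a S ↔ x ∈ Rows3 r c ∧ x a = S := by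
  simp [trFib]

/-- Tower property. -/
lemma sum_condE_mul (a : Fin 3) (f : (Fin 3 → Finset Y) → ℝ) (g : Finset Y → ℝ) :
    ∑ x ∈ Rows3 r c, condE r c a (x a) f * g (x a) = ∑ x ∈ Rows3 r c, f x * g (x a) := by
  set I := (Rows3 r c).image (fun x => x a) with hI
  have hmaps : ∀ x ∈ Rows3 r c, x a ∈ I := fun x hx => Finset.mem_image_of_mem _ hx
  rw [← Finset.sum_fiberwise_of_maps_to hmaps, ← Finset.sum_fiberwise_of_maps_to hmaps]
  apply Finset.sum_congr rfl
  intro S hS
  have hne : ((Rows3 r c).filter fun x => x a = S).Nonempty := by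
    obtain ⟨x, hx, rfl⟩ := Finset.mem_image.1 hS
    exact ⟨x, by simp [hx]⟩
  have hcard : (((Rows3 r c).filter fun x => x a = S).card : ℝ) ≠ 0 := by
    exact_mod_cast (Finset.card_pos.2 hne).ne'
  have e1 : ∀ x ∈ (Rows3 r c).filter (fun x => x a = S),
      condE r c a (x a) f * g (x a) = condE r c a S f * g S := by
    intro x hx
    rw [(Finset.mem_filter.1 hx).2]
  have e2 : ∀ x ∈ (Rows3 r c).filter (fun x => x a = S), f x * g (x a) = f x * g S := by
    intro x hx
    rw [(Finset.mem_filter.1 hx).2]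
  rw [Finset.sum_congr rfl e1, Finset.sum_congr rfl e2, Finset.sum_const, ← Finset.sum_mul,
    nsmul_eq_mul]
  unfold condE trFib
  field_simp

lemma form_KK_left (X Z : Fin 3 → Finset Y → ℝ) :
    form r c (KK r c X) Z = ∑ a, ∑ b ∈ univ.erase a, ∑ x ∈ Rows3 r c, X b (x b) * Z a (x a) := by
  unfold form KK
  apply Finset.sum_congr rfl
  intro a _
  simp_rw [Finset.sum_mul]
  rw [Finset.sum_comm]
  apply Finset.sum_congr rfl
  intro b _
  exact sum_condE_mul a (fun x => X b (x b)) (Z a)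

lemma form_KK_right (X Z : Fin 3 → Finset Y → ℝ) :
    form r c X (KK r c Z) = ∑ a, ∑ b ∈ univ.erase a, ∑ x ∈ Rows3 r c, X a (x a) * Z b (x b) := by
  unfold form KK
  apply Finset.sum_congr rfl
  intro a _
  simp_rw [Finset.mul_sum]
  rw [Finset.sum_comm]
  apply Finset.sum_congr rfl
  intro b _
  have := sum_condE_mul (r := r) (c := c) a (fun x => Z b (x b)) (X a)
  simp_rw [mul_comm (X a _)]
  rw [this]

lemma form_KK_symm (X Z : Fin 3 → Finset Y → ℝ) :
    form r c (KK r c X) Z = form r c X (KK r c Z) := by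
  rw [form_KK_left, form_KK_right]
  rw [Finset.sum_comm' (s' := fun b => univ.erase b) (t' := univ)]
  intro a b
  simp only [Finset.mem_univ, Finset.mem_erase, ne_eq, and_true, true_and]
  exact ⟨fun h => fun h' => h h'.symm, fun h => fun h' => h h'.symm⟩

lemma form_cs (X Z : Fin 3 → Finset Y → ℝ) :
    (form r c X Z) ^ 2 ≤ form r c X X * form r c Z Z := by
  have e : ∀ X Z : Fin 3 → Finset Y → ℝ, form r c X Z =
      ∑ p ∈ (univ : Finset (Fin 3)) ×ˢ Rows3 r c, X p.1 (p.2 p.1) * Z p.1 (p.2 p.1) := by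
    intro X Z
    unfold form
    rw [Finset.sum_product]
  rw [e X Z, e X X, e Z Z]
  have := Finset.sum_mul_sq_le_sq_mul_sq ((univ : Finset (Fin 3)) ×ˢ Rows3 r c)
    (fun p => X p.1 (p.2 p.1)) (fun p => Z p.1 (p.2 p.1))
  simpa [sq] using this

lemma form_self_nonneg (X : Fin 3 → Finset Y → ℝ) : 0 ≤ form r c X X := by
  unfold form
  exact Finset.sum_nonneg fun a _ => Finset.sum_nonneg fun x _ => mul_self_nonneg _

lemma sum_sq_eq_form (F : Fin 3 → Finset Y → ℝ) :
    ∑ x ∈ Rows3 r c, (∑ a, F a (x a)) ^ 2 = form r c F F + form r c (KK r c F) F := by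
  rw [form_KK_left]
  unfold form
  have e1 : ∀ a : Fin 3, ∑ b ∈ univ.erase a, ∑ x ∈ Rows3 r c, F b (x b) * F a (x a)
      = ∑ x ∈ Rows3 r c, ∑ b ∈ univ.erase a, F b (x b) * F a (x a) := fun a => Finset.sum_comm
  simp_rw [e1]
  rw [← Finset.sum_add_distrib]
  have e2 : ∀ a : Fin 3, ∑ x ∈ Rows3 r c, F a (x a) * F a (x a)
        + ∑ x ∈ Rows3 r c, ∑ b ∈ univ.erase a, F b (x b) * F a (x a)
      = ∑ x ∈ Rows3 r c, (F a (x a) * F a (x a) + ∑ b ∈ univ.erase a, F b (x b) * F a (x a)) :=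
    fun a => (Finset.sum_add_distrib).symm
  simp_rw [e2]
  rw [Finset.sum_comm]
  apply Finset.sum_congr rfl
  intro x _
  rw [sq, Finset.sum_mul]
  apply Finset.sum_congr rfl
  intro a _
  rw [Finset.mul_sum]
  have := Finset.add_sum_erase (univ : Finset (Fin 3)) (fun b => F a (x a) * F b (x b)) (Finset.mem_univ a)
  rw [← this]
  congr 1
  apply Finset.sum_congr rfl
  intro b _
  ring

end Operator

section Swap

/-- Swap two columns in a row. -/
def sw (i j : Y) (S : Finset Y) : Finset Y := S.map (Equiv.swap i j).toEmbedding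

lemma mem_sw {i j y : Y} {S : Finset Y} : y ∈ sw i j S ↔ Equiv.swap i j y ∈ S := by
  unfold sw
  rw [Finset.mem_map_equiv, Equiv.symm_swap]

lemma sw_sw (i j : Y) (S : Finset Y) : sw i j (sw i j S) = S := by
  ext y; simp [mem_sw]

lemma card_sw (i j : Y) (S : Finset Y) : (sw i j S).card = S.card := by
  simp [sw]

lemma sw_comm (i j : Y) (S : Finset Y) : sw i j S = sw j i S := by
  unfold sw; rw [Equiv.swap_comm]

lemma sw_eq_self {i j : Y} {S : Finset Y} (h : i ∈ S ↔ j ∈ S) : sw i j S = S := by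
  ext y
  rw [mem_sw]
  by_cases h1 : y = i
  · subst h1; simp [h]
  by_cases h2 : y = j
  · subst h2; simp [h]
  rw [Equiv.swap_apply_of_ne_of_ne h1 h2]

lemma c_swap {i j : Y} (hc : c i = c j) (y : Y) : c (Equiv.swap i j y) = c y := by
  by_cases h1 : y = i
  · subst h1; simp [hc]
  by_cases h2 : y = j
  · subst h2; simp [hc]
  rw [Equiv.swap_apply_of_ne_of_ne h1 h2]

/-- The action of a column swap on a matrix. -/
def act (i j : Y) (x : Fin 3 → Finset Y) : Fin 3 → Finset Y := fun a => sw i j (x a)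

lemma act_act (i j : Y) (x : Fin 3 → Finset Y) : act i j (act i j x) = x := by
  funext a; exact sw_sw i j (x a)

lemma act_mem {i j : Y} (hc : c i = c j) {x : Fin 3 → Finset Y} (hx : x ∈ Rows3 r c) :
    act i j x ∈ Rows3 r c := by
  rw [mem_rows] at hx ⊢
  refine ⟨fun a => by rw [← hx.1 a]; exact card_sw i j (x a), fun y => ?_⟩
  have : (univ.filter fun a => y ∈ act i j x a) = univ.filter fun a => Equiv.swap i j y ∈ x a := by
    ext a; simp [act, mem_sw]
  rw [this, hx.2, c_swap hc]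

lemma sum_fib_sw {i j : Y} (hc : c i = c j) (a : Fin 3) (S : Finset Y)
    (f : (Fin 3 → Finset Y) → ℝ) :
    ∑ x ∈ trFib r c a (sw i j S), f x = ∑ x ∈ trFib r c a S, f (act i j x) := by
  symm
  apply Finset.sum_nbij' (act i j) (act i j)
  · intro x hx
    rw [mem_trFib] at hx ⊢
    exact ⟨act_mem hc hx.1, by simp [act, hx.2]⟩
  · intro x hx
    rw [mem_trFib] at hx ⊢
    refine ⟨act_mem hc hx.1, ?_⟩
    simp [act, hx.2, sw_sw]
  · intro x _; exact act_act i j x
  · intro x _; exact act_act i j x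
  · intro x _; rfl

lemma card_fib_sw {i j : Y} (hc : c i = c j) (a : Fin 3) (S : Finset Y) :
    (trFib r c a (sw i j S)).card = (trFib r c a S).card := by
  have := sum_fib_sw (r := r) (c := c) hc a S (fun _ => 1)
  simp only [Finset.sum_const, nsmul_eq_mul, mul_one] at this
  exact_mod_cast this

variable (r c)

/-- `S` occurs as row `a`. -/
def feas (a : Fin 3) (S : Finset Y) : Prop := (trFib r c a S).Nonempty

variable {r c}

lemma feas_row {x : Fin 3 → Finset Y} (hx : x ∈ Rows3 r c) (a : Fin 3) : feas r c a (x a) :=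
  ⟨x, mem_trFib.2 ⟨hx, rfl⟩⟩

lemma feas_sw {i j : Y} (hc : c i = c j) {a : Fin 3} {S : Finset Y} (h : feas r c a S) :
    feas r c a (sw i j S) := by
  obtain ⟨x, hx⟩ := h
  rw [mem_trFib] at hx
  exact ⟨act i j x, mem_trFib.2 ⟨act_mem hc hx.1, by simp [act, hx.2]⟩⟩

lemma KK_eq (F : Fin 3 → Finset Y → ℝ) {a b e : Fin 3} (hab : a ≠ b) (hae : a ≠ e) (hbe : b ≠ e)
    (S : Finset Y) :
    KK r c F a S = (∑ x ∈ trFib r c a S, (F b (x b) + F e (x e))) / (trFib r c a S).card := by
  unfold KK condE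
  rw [erase_eq3 hab hae hbe, Finset.sum_insert (by simp [hbe]), Finset.sum_singleton, ← add_div,
    Finset.sum_add_distrib]

lemma abs_avg_le {α : Type*} (s : Finset α) (u : α → ℝ) (C : ℝ) (hC : 0 ≤ C)
    (h : ∀ x ∈ s, |u x| ≤ C) : |(∑ x ∈ s, u x) / s.card| ≤ C := by
  rcases s.eq_empty_or_nonempty with rfl | hne
  · simpa using hC
  have hpos : (0 : ℝ) < s.card := by exact_mod_cast Finset.card_pos.2 hne
  rw [abs_div, Nat.abs_cast, div_le_iff₀ hpos]
  calc |∑ x ∈ s, u x| ≤ ∑ x ∈ s, |u x| := Finset.abs_sum_le_sum_abs _ _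
    _ ≤ ∑ _x ∈ s, C := Finset.sum_le_sum h
    _ = C * s.card := by simp [mul_comm]

lemma not_both_changed {x : Fin 3 → Finset Y} (hx : x ∈ Rows3 r c) {a b e : Fin 3} (hab : a ≠ b)
    (hae : a ≠ e) (hbe : b ≠ e) {i j : Y} (hc : c i = c j) (hi : i ∈ x a) (hj : j ∉ x a) :
    sw i j (x b) = x b ∨ sw i j (x e) = x e := by
  have h1 := count3 hx hab hae hbe i
  have h2 := count3 hx hab hae hbe j
  by_cases hb : i ∈ x b ↔ j ∈ x b
  · exact Or.inl (sw_eq_self hb)
  by_cases he : i ∈ x e ↔ j ∈ x e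
  · exact Or.inr (sw_eq_self he)
  exfalso
  rw [hc] at h1
  simp only [hi, hj, if_true, if_false] at h1 h2
  by_cases h3 : i ∈ x b <;> by_cases h4 : j ∈ x b <;> by_cases h5 : i ∈ x e <;>
    by_cases h6 : j ∈ x e <;> simp_all <;> omega

variable (r c)

/-- Lipschitz constant for column swaps. -/
def TLip (F : Fin 3 → Finset Y → ℝ) (C : ℝ) : Prop :=
  ∀ a S i j, feas r c a S → c i = c j → |F a S - F a (sw i j S)| ≤ C

variable {r c}

lemma TLip_KK_aux {F : Fin 3 → Finset Y → ℝ} {C : ℝ} (hF : TLip r c F C) (hC : 0 ≤ C)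
    {a : Fin 3} {S : Finset Y} {i j : Y} (hS : feas r c a S) (hc : c i = c j) (hi : i ∈ S)
    (hj : j ∉ S) : |KK r c F a S - KK r c F a (sw i j S)| ≤ C := by
  obtain ⟨b, e, hab, hae, hbe⟩ := exists_others a
  rw [KK_eq F hab hae hbe, KK_eq F hab hae hbe, sum_fib_sw hc, card_fib_sw hc, ← sub_div,
    ← Finset.sum_sub_distrib]
  apply abs_avg_le _ _ _ hC
  intro x hx
  rw [mem_trFib] at hx
  have hxa : x a = S := hx.2
  have hb := hF b (x b) i j (feas_row hx.1 b) hc
  have he := hF e (x e) i j (feas_row hx.1 e) hc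
  simp only [act]
  rcases not_both_changed hx.1 hab hae hbe hc (by rwa [hxa]) (by rwa [hxa]) with h | h
  · rw [h]
    have : F b (x b) + F e (x e) - (F b (x b) + F e (sw i j (x e)))
        = F e (x e) - F e (sw i j (x e)) := by ring
    rwa [this]
  · rw [h]
    have : F b (x b) + F e (x e) - (F b (sw i j (x b)) + F e (x e))
        = F b (x b) - F b (sw i j (x b)) := by ring
    rwa [this]

lemma TLip_KK {F : Fin 3 → Finset Y → ℝ} {C : ℝ} (hF : TLip r c F C) (hC : 0 ≤ C) :
    TLip r c (KK r c F) C := by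
  intro a S i j hS hc
  by_cases h : i ∈ S ↔ j ∈ S
  · rw [sw_eq_self h]; simpa using hC
  by_cases hi : i ∈ S
  · have hj : j ∉ S := fun hj => h ⟨fun _ => hj, fun _ => hi⟩
    exact TLip_KK_aux hF hC hS hc hi hj
  · have hj : j ∈ S := by
      by_contra hj
      exact h ⟨fun h' => absurd h' hi, fun h' => absurd h' hj⟩
    rw [sw_comm]
    exact TLip_KK_aux hF hC hS hc.symm hj hi

end Swap

end Vale.Agent.Lib.P335
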