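import Vale.Agent.Lib.P335.ThreeRowBase
set_option linter.unusedSectionVars false

namespace Vale.Agent.Lib.P335

open Finset

variable {Y : Type*} [Fintype Y] [DecidableEq Y]
variable {r : Fin 3 → ℕ} {c : Y → ℕ}

/-- Number of elements of `S` in columns of sum one. -/
def pv (c : Y → ℕ) (S : Finset Y) : ℕ := (S.filter fun y => c y = 1).card

/-- Number of elements of `S` in columns of sum two. -/
def pw (c : Y → ℕ) (S : Finset Y) : ℕ := (S.filter fun y => c y = 2).card

/-- Number of columns of sum three. -/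
def n3 (c : Y → ℕ) : ℕ := (univ.filter fun y => c y = 3).card

lemma col_le {x : Fin 3 → Finset Y} (hx : x ∈ Rows3 r c) (y : Y) : c y ≤ 3 := by
  rw [← (mem_rows.1 hx).2 y]
  exact (Finset.card_filter_le _ _).trans (by simp)

lemma mem_of_c3 {x : Fin 3 → Finset Y} (hx : x ∈ Rows3 r c) {y : Y} (h : c y = 3) (a : Fin 3) :
    y ∈ x a := by
  obtain ⟨b, e, hab, hae, hbe⟩ := exists_others a
  have := count3 hx hab hae hbe y
  by_contra h1
  rw [if_neg h1, h] at this
  split_ifs at this <;> omega

lemma not_mem_of_c0 {x : Fin 3 → Finset Y} (hx : x ∈ Rows3 r c) {y : Y} (h : c y = 0) (a : Fin 3) :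
    y ∉ x a := by
  obtain ⟨b, e, hab, hae, hbe⟩ := exists_others a
  have := count3 hx hab hae hbe y
  intro h1
  rw [if_pos h1, h] at this
  omega

lemma pv_sw {i j : Y} (hc : c i = c j) (S : Finset Y) : pv c (sw i j S) = pv c S := by
  unfold pv sw
  rw [Finset.filter_map, Finset.card_map]
  congr 1
  apply Finset.filter_congr
  intro y _
  simp only [Function.comp, Equiv.coe_toEmbedding]
  rw [c_swap hc]

lemma pw_sw {i j : Y} (hc : c i = c j) (S : Finset Y) : pw c (sw i j S) = pw c S := by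
  unfold pw sw
  rw [Finset.filter_map, Finset.card_map]
  congr 1
  apply Finset.filter_congr
  intro y _
  simp only [Function.comp, Equiv.coe_toEmbedding]
  rw [c_swap hc]

/-- Decomposition of the row size. -/
lemma card_decomp {x : Fin 3 → Finset Y} (hx : x ∈ Rows3 r c) (a : Fin 3) :
    pv c (x a) + pw c (x a) + n3 c = r a := by
  have h0 : (x a).card = r a := (mem_rows.1 hx).1 a
  have h1 : x a = ((x a).filter fun y => c y = 1) ∪ ((x a).filter fun y => c y = 2) ∪
      (univ.filter fun y => c y = 3) := by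
    ext y
    simp only [Finset.mem_union, Finset.mem_filter, Finset.mem_univ, true_and]
    constructor
    · intro hy
      have h2 := col_le hx y
      have h3 : c y ≠ 0 := fun h => not_mem_of_c0 hx h a hy
      have : c y = 1 ∨ c y = 2 ∨ c y = 3 := by omega
      tauto
    · rintro ((⟨h, _⟩ | ⟨h, _⟩) | h)
      · exact h
      · exact h
      · exact mem_of_c3 hx h a
  rw [← h0]
  conv_rhs => rw [h1]
  rw [Finset.card_union_of_disjoint, Finset.card_union_of_disjoint]
  · rfl
  · rw [Finset.disjoint_left]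
    intro y hy hy'
    have h2 := (Finset.mem_filter.1 hy).2
    have h3 := (Finset.mem_filter.1 hy').2
    omega
  · rw [Finset.disjoint_left]
    intro y hy hy'
    have h3 := (Finset.mem_filter.1 hy').2
    simp only [Finset.mem_union, Finset.mem_filter] at hy
    omega

lemma exists_not_mem_of_card_eq {A B : Finset Y} (hcard : A.card = B.card) {i : Y} (hi : i ∈ A)
    (hi' : i ∉ B) : ∃ j ∈ B, j ∉ A := by
  by_contra h
  push Not at h
  have : B = A := Finset.eq_of_subset_of_card_le (fun j hj => h j hj) (by omega)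
  exact hi' (this ▸ hi)

lemma exists_swap {a : Fin 3} {S S' : Finset Y} (hS : feas r c a S) (hS' : feas r c a S')
    (hp : pv c S = pv c S') {i : Y} (hi : i ∈ S) (hi' : i ∉ S') : ∃ j ∈ S', j ∉ S ∧ c i = c j := by
  obtain ⟨x, hx⟩ := hS
  obtain ⟨x', hx'⟩ := hS'
  rw [mem_trFib] at hx hx'
  obtain ⟨hx, rfl⟩ := hx
  obtain ⟨hx', rfl⟩ := hx'
  have h1 := card_decomp hx a
  have h2 := card_decomp hx' a
  have hq : pw c (x a) = pw c (x' a) := by omega
  have h3 := col_le hx i
  have h4 : c i ≠ 0 := fun h => not_mem_of_c0 hx h a hi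
  have h5 : c i ≠ 3 := fun h => hi' (mem_of_c3 hx' h a)
  have h6 : c i = 1 ∨ c i = 2 := by omega
  rcases h6 with h6 | h6
  · obtain ⟨j, hj, hj'⟩ := exists_not_mem_of_card_eq (A := (x a).filter fun y => c y = 1)
      (B := (x' a).filter fun y => c y = 1) hp (Finset.mem_filter.2 ⟨hi, h6⟩)
      (fun h => hi' (Finset.mem_filter.1 h).1)
    have hj1 := Finset.mem_filter.1 hj
    refine ⟨j, hj1.1, ?_, by omega⟩
    intro h
    exact hj' (Finset.mem_filter.2 ⟨h, hj1.2⟩)
  · obtain ⟨j, hj, hj'⟩ := exists_not_mem_of_card_eq (A := (x a).filter fun y => c y = 2)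
      (B := (x' a).filter fun y => c y = 2) hq (Finset.mem_filter.2 ⟨hi, h6⟩)
      (fun h => hi' (Finset.mem_filter.1 h).1)
    have hj1 := Finset.mem_filter.1 hj
    refine ⟨j, hj1.1, ?_, by omega⟩
    intro h
    exact hj' (Finset.mem_filter.2 ⟨h, hj1.2⟩)

lemma feas_card {a : Fin 3} {S : Finset Y} (hS : feas r c a S) : S.card = r a := by
  obtain ⟨x, hx⟩ := hS
  rw [mem_trFib] at hx
  rw [← hx.2]
  exact (mem_rows.1 hx.1).1 a

lemma sw_sdiff {i j : Y} {S S' : Finset Y} (hi : i ∈ S) (hi' : i ∉ S') (hj : j ∈ S') (hj' : j ∉ S) :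
    (sw i j S \ S') = (S \ S').erase i := by
  ext y
  simp only [Finset.mem_sdiff, Finset.mem_erase, mem_sw]
  by_cases h1 : y = i
  · subst h1; simp [hj']
  by_cases h2 : y = j
  · subst h2; simp [hi, hj, h1]
  rw [Equiv.swap_apply_of_ne_of_ne h1 h2]
  simp [h1]

/-- Swap chains: two feasible rows with the same `pv` are close. -/
lemma chain_same_pv {F : Fin 3 → Finset Y → ℝ} {C : ℝ} (hF : TLip r c F C) (hC : 0 ≤ C) (a : Fin 3) :
    ∀ (k : ℕ) (S S' : Finset Y), feas r c a S → feas r c a S' → pv c S = pv c S' →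
      (S \ S').card = k → |F a S - F a S'| ≤ k * C := by
  intro k
  induction k with
  | zero =>
    intro S S' hS hS' _ hk
    have h1 : S ⊆ S' := by
      rw [Finset.card_eq_zero, Finset.sdiff_eq_empty_iff_subset] at hk
      exact hk
    have h2 : S = S' := Finset.eq_of_subset_of_card_le h1 (by rw [feas_card hS, feas_card hS'])
    rw [h2]; simp
  | succ k ih =>
    intro S S' hS hS' hp hk
    have hne : (S \ S').Nonempty := by
      rw [← Finset.card_pos]; omega
    obtain ⟨i, hi⟩ := hne
    rw [Finset.mem_sdiff] at hi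
    obtain ⟨j, hj, hj', hc⟩ := exists_swap hS hS' hp hi.1 hi.2
    have h1 := hF a S i j hS hc
    have h2 := ih (sw i j S) S' (feas_sw hc hS) hS' (by rw [pv_sw hc, hp]) (by
      rw [sw_sdiff hi.1 hi.2 hj hj', Finset.card_erase_of_mem (Finset.mem_sdiff.2 hi), hk]; rfl)
    have h3 := abs_sub_le (F a S) (F a (sw i j S)) (F a S')
    push_cast
    linarith

lemma same_pv_le {F : Fin 3 → Finset Y → ℝ} {C : ℝ} (hF : TLip r c F C) (hC : 0 ≤ C) (a : Fin 3)
    {S S' : Finset Y} (hS : feas r c a S) (hS' : feas r c a S') (hp : pv c S = pv c S') :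
    |F a S - F a S'| ≤ (Fintype.card Y : ℝ) * C := by
  have h1 := chain_same_pv hF hC a _ S S' hS hS' hp rfl
  have h2 : ((S \ S').card : ℝ) ≤ Fintype.card Y := by
    exact_mod_cast Finset.card_le_univ _
  exact h1.trans (mul_le_mul_of_nonneg_right h2 hC)

/-! ### The fibers of the class over a row value -/

/-- Columns of sum one outside `S`. -/
def W1 (c : Y → ℕ) (S : Finset Y) : Finset Y := univ.filter fun y => c y = 1 ∧ y ∉ S

/-- Columns of sum two inside `S`. -/
def W2 (c : Y → ℕ) (S : Finset Y) : Finset Y := univ.filter fun y => c y = 2 ∧ y ∈ S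

/-- Columns where the other two rows differ. -/
def WW (c : Y → ℕ) (S : Finset Y) : Finset Y := W1 c S ∪ W2 c S

/-- Columns contained in both other rows. -/
def BB (c : Y → ℕ) (S : Finset Y) : Finset Y := univ.filter fun y => (c y = 2 ∧ y ∉ S) ∨ c y = 3

lemma mem_WW {S : Finset Y} {y : Y} : y ∈ WW c S ↔ (c y = 1 ∧ y ∉ S) ∨ (c y = 2 ∧ y ∈ S) := by
  simp [WW, W1, W2]

lemma mem_BB {S : Finset Y} {y : Y} : y ∈ BB c S ↔ (c y = 2 ∧ y ∉ S) ∨ c y = 3 := by
  simp [BB]

lemma disjoint_W1_W2 (S : Finset Y) : Disjoint (W1 c S) (W2 c S) := by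
  rw [Finset.disjoint_left]
  intro y h1 h2
  simp only [W1, W2, Finset.mem_filter, Finset.mem_univ, true_and] at h1 h2
  tauto

lemma disjoint_BB_WW (S : Finset Y) : Disjoint (BB c S) (WW c S) := by
  rw [Finset.disjoint_left]
  intro y h1 h2
  rw [mem_BB] at h1
  rw [mem_WW] at h2
  rcases h1 with h1 | h1 <;> rcases h2 with h2 | h2 <;> first | omega | tauto

/-- Structure of the rows of a matrix in a fiber. -/
lemma row_b_eq {x : Fin 3 → Finset Y} (hx : x ∈ Rows3 r c) {a b e : Fin 3} (hab : a ≠ b)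
    (hae : a ≠ e) (hbe : b ≠ e) : x b = BB c (x a) ∪ (x b ∩ WW c (x a)) := by
  ext y
  have h := count3 hx hab hae hbe y
  simp only [Finset.mem_union, Finset.mem_inter, mem_BB, mem_WW]
  by_cases h1 : y ∈ x a <;> by_cases h2 : y ∈ x b <;> by_cases h3 : y ∈ x e <;>
    simp only [h1, h2, h3, if_true, if_false] at h <;> simp [h1, h2, h3] <;> omega

lemma row_e_eq {x : Fin 3 → Finset Y} (hx : x ∈ Rows3 r c) {a b e : Fin 3} (hab : a ≠ b)
    (hae : a ≠ e) (hbe : b ≠ e) : x e = BB c (x a) ∪ (WW c (x a) \ x b) := by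
  ext y
  have h := count3 hx hab hae hbe y
  simp only [Finset.mem_union, Finset.mem_sdiff, mem_BB, mem_WW]
  by_cases h1 : y ∈ x a <;> by_cases h2 : y ∈ x b <;> by_cases h3 : y ∈ x e <;>
    simp only [h1, h2, h3, if_true, if_false] at h <;> simp [h1, h2, h3] <;> omega

/-- Build a matrix from its three rows. -/
def mk3 (a b : Fin 3) (S T U : Finset Y) : Fin 3 → Finset Y :=
  fun f => if f = a then S else if f = b then T else U


lemma fin3_cases {a b e : Fin 3} (hab : a ≠ b) (hae : a ≠ e) (hbe : b ≠ e) (f : Fin 3) :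
    f = a ∨ f = b ∨ f = e := by
  revert a b e f; decide

lemma mk3_a (a b : Fin 3) (S T U : Finset Y) : mk3 a b S T U a = S := by simp [mk3]

lemma mk3_b {a b : Fin 3} (hab : a ≠ b) (S T U : Finset Y) : mk3 a b S T U b = T := by
  simp [mk3, hab.symm]

lemma mk3_e {a b e : Fin 3} (hae : a ≠ e) (hbe : b ≠ e) (S T U : Finset Y) :
    mk3 a b S T U e = U := by
  simp [mk3, hae.symm, hbe.symm]

lemma card_row_b {x : Fin 3 → Finset Y} (hx : x ∈ Rows3 r c) {a b e : Fin 3} (hab : a ≠ b)
    (hae : a ≠ e) (hbe : b ≠ e) : r b = (BB c (x a)).card + (x b ∩ WW c (x a)).card := by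
  rw [← (mem_rows.1 hx).1 b]
  conv_lhs => rw [row_b_eq hx hab hae hbe]
  rw [Finset.card_union_of_disjoint]
  exact Finset.disjoint_of_subset_right Finset.inter_subset_right (disjoint_BB_WW _)

lemma card_row_e {x : Fin 3 → Finset Y} (hx : x ∈ Rows3 r c) {a b e : Fin 3} (hab : a ≠ b)
    (hae : a ≠ e) (hbe : b ≠ e) : r e = (BB c (x a)).card + (WW c (x a) \ x b).card := by
  rw [← (mem_rows.1 hx).1 e]
  conv_lhs => rw [row_e_eq hx hab hae hbe]
  rw [Finset.card_union_of_disjoint]
  exact Finset.disjoint_of_subset_right Finset.sdiff_subset (disjoint_BB_WW _)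

lemma mk3_mem {x0 : Fin 3 → Finset Y} (hx0 : x0 ∈ Rows3 r c) {a b e : Fin 3} (hab : a ≠ b)
    (hae : a ≠ e) (hbe : b ≠ e) {A : Finset Y} (hA : A ⊆ WW c (x0 a))
    (hcard : A.card = (x0 b ∩ WW c (x0 a)).card) :
    mk3 a b (x0 a) (BB c (x0 a) ∪ A) (BB c (x0 a) ∪ (WW c (x0 a) \ A)) ∈ Rows3 r c := by
  rw [mem_rows]
  constructor
  · intro f
    rcases fin3_cases hab hae hbe f with rfl | rfl | rfl
    · rw [mk3_a]; exact (mem_rows.1 hx0).1 f
    · rw [mk3_b hab, Finset.card_union_of_disjoint
        (Finset.disjoint_of_subset_right hA (disjoint_BB_WW _)), hcard,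
        card_row_b hx0 hab hae hbe]
    · rw [mk3_e hae hbe, Finset.card_union_of_disjoint
        (Finset.disjoint_of_subset_right Finset.sdiff_subset (disjoint_BB_WW _)),
        card_row_e hx0 hab hae hbe]
      congr 1
      have h1 := Finset.card_sdiff_add_card_inter (WW c (x0 a)) (x0 b)
      have h2 := Finset.card_sdiff_add_card_eq_card hA
      rw [Finset.inter_comm] at h1
      omega
  · intro y
    rw [Finset.card_filter, sum_three hab hae hbe, mk3_a, mk3_b hab, mk3_e hae hbe]
    have h := count3 hx0 hab hae hbe y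
    have hA' : y ∈ A → y ∈ WW c (x0 a) := fun h => hA h
    simp only [Finset.mem_union, Finset.mem_sdiff, mem_BB]
    simp only [mem_WW] at hA' ⊢
    by_cases h1 : y ∈ x0 a <;> by_cases h2 : y ∈ x0 b <;> by_cases h3 : y ∈ x0 e <;>
      by_cases h4 : y ∈ A <;> simp only [h1, h2, h3, h4, if_true, if_false, true_or, or_true,
        true_and, false_and, and_true, and_false, not_true, not_false_iff, or_false, false_or,
        true_implies, false_implies] at h hA' ⊢ <;>
      first
      | omega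
      | (split_ifs <;> omega)

/-- The sum over a fiber as a sum over subsets. -/
lemma sum_fib_eq {x0 : Fin 3 → Finset Y} (hx0 : x0 ∈ Rows3 r c) {a b e : Fin 3} (hab : a ≠ b)
    (hae : a ≠ e) (hbe : b ≠ e) (Φ : Finset Y → Finset Y → ℝ) :
    ∑ x ∈ trFib r c a (x0 a), Φ (x b) (x e) =
      ∑ A ∈ powersetCard (x0 b ∩ WW c (x0 a)).card (WW c (x0 a)),
        Φ (BB c (x0 a) ∪ A) (BB c (x0 a) ∪ (WW c (x0 a) \ A)) := by
  apply Finset.sum_nbij' (fun x => x b ∩ WW c (x0 a))
    (fun A => mk3 a b (x0 a) (BB c (x0 a) ∪ A) (BB c (x0 a) ∪ (WW c (x0 a) \ A)))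
  · intro x hx
    rw [mem_trFib] at hx
    rw [Finset.mem_powersetCard]
    refine ⟨Finset.inter_subset_right, ?_⟩
    have h1 := card_row_b hx.1 hab hae hbe
    have h2 := card_row_b hx0 hab hae hbe
    rw [hx.2] at h1
    omega
  · intro A hA
    rw [Finset.mem_powersetCard] at hA
    rw [mem_trFib]
    exact ⟨mk3_mem hx0 hab hae hbe hA.1 hA.2, mk3_a _ _ _ _ _⟩
  · intro x hx
    rw [mem_trFib] at hx
    funext f
    rcases fin3_cases hab hae hbe f with rfl | rfl | rfl
    · rw [mk3_a]; exact hx.2.symm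
    · rw [mk3_b hab]
      have := row_b_eq hx.1 hab hae hbe
      rw [hx.2] at this
      exact this.symm
    · rw [mk3_e hae hbe]
      have := row_e_eq hx.1 hab hae hbe
      rw [hx.2] at this
      rw [this]
      congr 1
      ext y
      simp only [Finset.mem_sdiff, Finset.mem_inter]
      tauto
  · intro A hA
    rw [Finset.mem_powersetCard] at hA
    rw [mk3_b hab, Finset.union_inter_distrib_right,
      Finset.disjoint_iff_inter_eq_empty.1 (disjoint_BB_WW _), Finset.empty_union]
    exact Finset.inter_eq_left.2 hA.1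
  · intro x hx
    rw [mem_trFib] at hx
    have h1 := row_b_eq hx.1 hab hae hbe
    have h2 := row_e_eq hx.1 hab hae hbe
    rw [hx.2] at h1 h2
    have h3 : WW c (x0 a) \ (x b ∩ WW c (x0 a)) = WW c (x0 a) \ x b := by
      ext y
      simp only [Finset.mem_sdiff, Finset.mem_inter]
      tauto
    rw [h3, ← h1, ← h2]

/-- Subsets of a disjoint union, sorted by the size of their part in the first block. -/
lemma sum_powersetCard_union (P Q : Finset Y) (hd : Disjoint P Q) (w : ℕ) (Θ : ℕ → ℝ) :
    ∑ A ∈ powersetCard w (P ∪ Q), Θ (A ∩ P).card =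
      ∑ u ∈ range (w + 1), hyp P.card Q.card w u * Θ u := by
  have hmaps : ∀ A ∈ powersetCard w (P ∪ Q), (A ∩ P).card ∈ range (w + 1) := by
    intro A hA
    rw [Finset.mem_powersetCard] at hA
    rw [Finset.mem_range]
    have := Finset.card_le_card (Finset.inter_subset_left (s₁ := A) (s₂ := P))
    omega
  rw [← Finset.sum_fiberwise_of_maps_to hmaps]
  apply Finset.sum_congr rfl
  intro u hu
  have hu' : u ≤ w := by
    have := Finset.mem_range.1 hu; omega
  have e1 : ∀ A ∈ (powersetCard w (P ∪ Q)).filter (fun A => (A ∩ P).card = u),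
      Θ (A ∩ P).card = Θ u := by
    intro A hA
    rw [(Finset.mem_filter.1 hA).2]
  rw [Finset.sum_congr rfl e1, Finset.sum_const, nsmul_eq_mul]
  congr 1
  have hcard : ((powersetCard w (P ∪ Q)).filter (fun A => (A ∩ P).card = u)).card =
      (powersetCard u P ×ˢ powersetCard (w - u) Q).card := by
    apply Finset.card_nbij' (fun A => (A ∩ P, A ∩ Q)) (fun p => p.1 ∪ p.2)
    · intro A hA
      have hA' := Finset.mem_filter.1 (Finset.mem_coe.1 hA)
      have hA1 := Finset.mem_powersetCard.1 hA'.1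
      simp only [Finset.coe_product, Set.mem_prod, Finset.mem_coe, Finset.mem_powersetCard]
      refine ⟨⟨Finset.inter_subset_right, hA'.2⟩, Finset.inter_subset_right, ?_⟩
      have h1 : A = (A ∩ P) ∪ (A ∩ Q) := by
        rw [← Finset.inter_union_distrib_left]
        exact (Finset.inter_eq_left.2 hA1.1).symm
      have h2 : Disjoint (A ∩ P) (A ∩ Q) :=
        Finset.disjoint_of_subset_left Finset.inter_subset_right
          (Finset.disjoint_of_subset_right Finset.inter_subset_right hd)
      have h3 : A.card = (A ∩ P).card + (A ∩ Q).card := by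
        conv_lhs => rw [h1]
        exact Finset.card_union_of_disjoint h2
      have := hA'.2
      omega
    · rintro ⟨A1, A2⟩ hp
      have hp' := Finset.mem_product.1 (Finset.mem_coe.1 hp)
      simp only [Finset.mem_powersetCard] at hp'
      obtain ⟨⟨h1, h2⟩, h3, h4⟩ := hp'
      have hd' : Disjoint A1 A2 := Finset.disjoint_of_subset_left h1
        (Finset.disjoint_of_subset_right h3 hd)
      have e2 : (A1 ∪ A2) ∩ P = A1 := by
        rw [Finset.union_inter_distrib_right, Finset.inter_eq_left.2 h1,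
          Finset.disjoint_iff_inter_eq_empty.1 (Finset.disjoint_of_subset_left h3 hd.symm),
          Finset.union_empty]
      simp only [Finset.coe_filter, Set.mem_setOf_eq, Finset.mem_powersetCard]
      refine ⟨⟨Finset.union_subset_union h1 h3, ?_⟩, ?_⟩
      · rw [Finset.card_union_of_disjoint hd', h2, h4]; omega
      · rw [e2, h2]
    · intro A hA
      have hA' := Finset.mem_filter.1 (Finset.mem_coe.1 hA)
      have hA1 := Finset.mem_powersetCard.1 hA'.1
      simp only
      rw [← Finset.inter_union_distrib_left]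
      exact Finset.inter_eq_left.2 hA1.1
    · rintro ⟨A1, A2⟩ hp
      have hp' := Finset.mem_product.1 (Finset.mem_coe.1 hp)
      simp only [Finset.mem_powersetCard] at hp'
      obtain ⟨⟨h1, h2⟩, h3, h4⟩ := hp'
      have e2 : (A1 ∪ A2) ∩ P = A1 := by
        rw [Finset.union_inter_distrib_right, Finset.inter_eq_left.2 h1,
          Finset.disjoint_iff_inter_eq_empty.1 (Finset.disjoint_of_subset_left h3 hd.symm),
          Finset.union_empty]
      have e3 : (A1 ∪ A2) ∩ Q = A2 := by
        rw [Finset.union_inter_distrib_right, Finset.inter_eq_left.2 h3,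
          Finset.disjoint_iff_inter_eq_empty.1 (Finset.disjoint_of_subset_left h1 hd),
          Finset.empty_union]
      simp only [e2, e3]
  rw [hcard, Finset.card_product, Finset.card_powersetCard, Finset.card_powersetCard]
  unfold hyp
  push_cast
  ring

lemma pv_BB_union (S A : Finset Y) : pv c (BB c S ∪ A) = pv c A := by
  unfold pv
  rw [Finset.filter_union]
  have : (BB c S).filter (fun y => c y = 1) = ∅ := by
    rw [Finset.filter_eq_empty_iff]
    intro y hy
    rw [mem_BB] at hy
    omega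
  rw [this, Finset.empty_union]

lemma pv_sub_WW {S A : Finset Y} (hA : A ⊆ WW c S) : pv c A = (A ∩ W1 c S).card := by
  unfold pv
  congr 1
  ext y
  simp only [Finset.mem_filter, Finset.mem_inter, W1, Finset.mem_univ, true_and]
  constructor
  · rintro ⟨h1, h2⟩
    have := mem_WW.1 (hA h1)
    refine ⟨h1, h2, ?_⟩
    rcases this with h | h
    · exact h.2
    · omega
  · rintro ⟨h1, h2, _⟩
    exact ⟨h1, h2⟩

lemma pv_compl_WW {S A : Finset Y} (hA : A ⊆ WW c S) :
    pv c (WW c S \ A) = (W1 c S).card - (A ∩ W1 c S).card := by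
  have h1 : (WW c S \ A).filter (fun y => c y = 1) = W1 c S \ (A ∩ W1 c S) := by
    ext y
    simp only [Finset.mem_filter, Finset.mem_sdiff, Finset.mem_inter, mem_WW, W1, Finset.mem_univ,
      true_and]
    constructor
    · rintro ⟨⟨h1, h2⟩, h3⟩
      rcases h1 with h1 | h1
      · exact ⟨h1, fun h => h2 h.1⟩
      · omega
    · rintro ⟨h1, h2⟩
      exact ⟨⟨Or.inl h1, fun h => h2 ⟨h, h1⟩⟩, h1.1⟩
  unfold pv
  rw [h1, Finset.card_sdiff_of_subset Finset.inter_subset_right]

/-- The sum over a fiber of a function of the two `pv` values. -/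
lemma sum_fib_pv {x0 : Fin 3 → Finset Y} (hx0 : x0 ∈ Rows3 r c) {a b e : Fin 3} (hab : a ≠ b)
    (hae : a ≠ e) (hbe : b ≠ e) (g : ℕ → ℕ → ℝ) :
    ∑ x ∈ trFib r c a (x0 a), g (pv c (x b)) (pv c (x e)) =
      ∑ u ∈ range ((x0 b ∩ WW c (x0 a)).card + 1),
        hyp (W1 c (x0 a)).card (W2 c (x0 a)).card (x0 b ∩ WW c (x0 a)).card u *
          g u ((W1 c (x0 a)).card - u) := by
  rw [sum_fib_eq hx0 hab hae hbe (fun T U => g (pv c T) (pv c U))]
  have := sum_powersetCard_union (W1 c (x0 a)) (W2 c (x0 a)) (disjoint_W1_W2 _)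
    (x0 b ∩ WW c (x0 a)).card (fun u => g u ((W1 c (x0 a)).card - u))
  rw [← this]
  apply Finset.sum_congr rfl
  intro A hA
  have hA' := (Finset.mem_powersetCard.1 hA).1
  rw [pv_BB_union, pv_BB_union, pv_sub_WW hA', pv_compl_WW hA']

lemma exists_of_hyp {x0 : Fin 3 → Finset Y} (hx0 : x0 ∈ Rows3 r c) {a b e : Fin 3} (hab : a ≠ b)
    (hae : a ≠ e) (hbe : b ≠ e) {u : ℕ} (hu : u ≤ (x0 b ∩ WW c (x0 a)).card)
    (hne : hyp (W1 c (x0 a)).card (W2 c (x0 a)).card (x0 b ∩ WW c (x0 a)).card u ≠ 0) :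
    ∃ x ∈ trFib r c a (x0 a), pv c (x b) = u := by
  by_contra hcon
  push Not at hcon
  have h1 := sum_fib_pv hx0 hab hae hbe (fun v _ => if v = u then 1 else 0)
  have h2 : ∑ x ∈ trFib r c a (x0 a), (fun (v : ℕ) (_ : ℕ) => if v = u then (1 : ℝ) else 0)
      (pv c (x b)) (pv c (x e)) = 0 := by
    apply Finset.sum_eq_zero
    intro x hx
    simp [hcon x hx]
  rw [h2] at h1
  simp only [mul_ite, mul_one, mul_zero] at h1
  rw [Finset.sum_ite_eq' , if_pos (Finset.mem_range.2 (by omega))] at h1
  exact hne h1.symm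

/-- Number of columns of sum one. -/
def n1t (c : Y → ℕ) : ℕ := (univ.filter fun y => c y = 1).card

/-- Number of columns of sum two. -/
def n2t (c : Y → ℕ) : ℕ := (univ.filter fun y => c y = 2).card

lemma card_W1_add (S : Finset Y) : (W1 c S).card + pv c S = n1t c := by
  unfold W1 pv n1t
  rw [← Finset.card_union_of_disjoint]
  · congr 1
    ext y
    simp only [Finset.mem_union, Finset.mem_filter, Finset.mem_univ, true_and]
    tauto
  · rw [Finset.disjoint_left]
    intro y h1 h2
    simp only [Finset.mem_filter, Finset.mem_univ, true_and] at h1 h2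
    tauto

lemma card_W2 (S : Finset Y) : (W2 c S).card = pw c S := by
  unfold W2 pw
  congr 1
  ext y
  simp only [Finset.mem_filter, Finset.mem_univ, true_and]
  tauto

lemma card_BB_add (S : Finset Y) : (BB c S).card + pw c S = n2t c + n3 c := by
  have h1 : (BB c S) = (univ.filter fun y => c y = 2 ∧ y ∉ S) ∪ (univ.filter fun y => c y = 3) := by
    ext y
    simp [BB]
  have h2 : (univ.filter fun y => c y = 2) = (univ.filter fun y => c y = 2 ∧ y ∉ S) ∪ (S.filter fun y => c y = 2) := by
    ext y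
    simp only [Finset.mem_filter, Finset.mem_univ, true_and, Finset.mem_union]
    tauto
  have h3 : Disjoint (univ.filter fun y => c y = 2 ∧ y ∉ S) (univ.filter fun y => c y = 3) := by
    rw [Finset.disjoint_left]
    intro y h1 h2
    simp only [Finset.mem_filter, Finset.mem_univ, true_and] at h1 h2
    omega
  have h4 : Disjoint (univ.filter fun y => c y = 2 ∧ y ∉ S) (S.filter fun y => c y = 2) := by
    rw [Finset.disjoint_left]
    intro y h1 h2
    simp only [Finset.mem_filter, Finset.mem_univ, true_and] at h1 h2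
    tauto
  unfold pw n2t n3
  rw [h1, Finset.card_union_of_disjoint h3, h2, Finset.card_union_of_disjoint h4]
  ring

lemma pv_sum {x : Fin 3 → Finset Y} (hx : x ∈ Rows3 r c) {a b e : Fin 3} (hab : a ≠ b)
    (hae : a ≠ e) (hbe : b ≠ e) : pv c (x b) + pv c (x e) = (W1 c (x a)).card := by
  have h1 : x b = BB c (x a) ∪ (x b ∩ WW c (x a)) := row_b_eq hx hab hae hbe
  have h2 : x e = BB c (x a) ∪ (WW c (x a) \ x b) := row_e_eq hx hab hae hbe
  have h3 : WW c (x a) \ x b = WW c (x a) \ (x b ∩ WW c (x a)) := by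
    ext y
    simp only [Finset.mem_sdiff, Finset.mem_inter]
    tauto
  have hA : x b ∩ WW c (x a) ⊆ WW c (x a) := Finset.inter_subset_right
  have h4 : pv c (x b) = ((x b ∩ WW c (x a)) ∩ W1 c (x a)).card := by
    conv_lhs => rw [h1]
    rw [pv_BB_union, pv_sub_WW hA]
  have h5 : pv c (x e) = (W1 c (x a)).card - ((x b ∩ WW c (x a)) ∩ W1 c (x a)).card := by
    conv_lhs => rw [h2, h3]
    rw [pv_BB_union, pv_compl_WW hA]
  have h6 : ((x b ∩ WW c (x a)) ∩ W1 c (x a)).card ≤ (W1 c (x a)).card :=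
    Finset.card_le_card Finset.inter_subset_right
  omega

end Vale.Agent.Lib.P335
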