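import Mathlib
set_option linter.unusedSectionVars false

namespace Vale.Agent.Lib.P335

open Finset

/-- log-convex sequences with polynomial growth do not increase at the first step. -/
lemma first_step_le (a : ℕ → ℝ) (h0 : ∀ t, 0 ≤ a t)
    (hc : ∀ t, a (t + 1) ^ 2 ≤ a t * a (t + 2)) (A : ℝ)
    (hb : ∀ t : ℕ, a t ≤ A * ((t : ℝ) + 1) ^ 2) : a 1 ≤ a 0 := by
  by_contra hlt
  push Not at hlt
  have ha0 : 0 < a 0 := by
    rcases (h0 0).lt_or_eq with h | h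
    · exact h
    · exfalso
      have h1 := hc 0
      rw [← h] at h1
      have h2 : 0 < a 1 := lt_of_le_of_lt (h0 0) hlt
      nlinarith
  set ρ : ℝ := a 1 / a 0 with hρ
  have hρ1 : 1 < ρ := by
    rw [hρ, one_lt_div ha0]; exact hlt
  have ha1 : a 1 = ρ * a 0 := by
    rw [hρ]; field_simp
  have hstep : ∀ t, 0 < a t ∧ a (t + 1) ≥ ρ * a t := by
    intro t
    induction t with
    | zero => exact ⟨ha0, by simp [ha1]⟩
    | succ t ih =>
      obtain ⟨h1, h2⟩ := ih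
      have h3 : 0 < a (t + 1) := by
        have : 0 < ρ * a t := by positivity
        linarith
      refine ⟨h3, ?_⟩
      have h4 := hc t
      have h5 : a (t + 1) ^ 2 ≥ ρ * a t * a (t + 1) := by
        nlinarith
      have h6 : a t * (ρ * a (t + 1)) ≤ a t * a (t + 2) := by
        nlinarith
      have := le_of_mul_le_mul_left h6 h1
      linarith
  have hpow : ∀ t : ℕ, ρ ^ t * a 0 ≤ a t := by
    intro t
    induction t with
    | zero => simp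
    | succ t ih =>
      have := (hstep t).2
      have hρ0 : 0 < ρ := by linarith
      calc ρ ^ (t + 1) * a 0 = ρ * (ρ ^ t * a 0) := by ring
        _ ≤ ρ * a t := by exact mul_le_mul_of_nonneg_left ih hρ0.le
        _ ≤ a (t + 1) := this
  have hA : 0 < A := by
    have h1 := hb 0
    simp at h1
    linarith
  have hlim := tendsto_pow_const_div_const_pow_of_one_lt 2 hρ1
  have hev : ∀ᶠ n : ℕ in Filter.atTop, ((n : ℝ) ^ 2 / ρ ^ n) < a 0 / (4 * A) := by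
    apply hlim.eventually_lt_const
    positivity
  obtain ⟨n, hn⟩ := (hev.and (Filter.eventually_ge_atTop 1)).exists
  obtain ⟨hn1, hn2⟩ := hn
  have hρn : 0 < ρ ^ n := by positivity
  have h1 := hpow n
  have h2 := hb n
  have hn3 : (1 : ℝ) ≤ n := by exact_mod_cast hn2
  have h3 : ((n : ℝ) + 1) ^ 2 ≤ 4 * (n : ℝ) ^ 2 := by nlinarith
  have h4 : ρ ^ n * a 0 ≤ A * (4 * (n : ℝ) ^ 2) := by
    calc ρ ^ n * a 0 ≤ a n := h1
      _ ≤ A * ((n : ℝ) + 1) ^ 2 := h2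
      _ ≤ A * (4 * (n : ℝ) ^ 2) := by exact mul_le_mul_of_nonneg_left h3 hA.le
  rw [div_lt_div_iff₀ hρn (by positivity)] at hn1
  nlinarith

/-- Chebyshev-type correlation: for a weight `H ≥ 0`, `Φ` monotone on the support of `H` and
`ρ` antitone, the correlation is nonpositive. -/
lemma cov_le {ι : Type*} (I : Finset ι) (H Φ ρ : ι → ℝ) (hH : ∀ u ∈ I, 0 ≤ H u)
    (hmono : ∀ u ∈ I, ∀ v ∈ I, H u ≠ 0 → H v ≠ 0 → (Φ u - Φ v) * (ρ u - ρ v) ≤ 0) :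
    (∑ u ∈ I, H u * (Φ u * ρ u)) * (∑ u ∈ I, H u) ≤ (∑ u ∈ I, H u * Φ u) * (∑ u ∈ I, H u * ρ u) := by
  have key : 0 ≤ ∑ u ∈ I, ∑ v ∈ I, H u * H v * (-( (Φ u - Φ v) * (ρ u - ρ v))) := by
    apply Finset.sum_nonneg
    intro u hu
    apply Finset.sum_nonneg
    intro v hv
    by_cases h1 : H u = 0
    · simp [h1]
    by_cases h2 : H v = 0
    · simp [h2]
    have := hmono u hu v hv h1 h2
    have h3 := hH u hu
    have h4 := hH v hv
    have : 0 ≤ -((Φ u - Φ v) * (ρ u - ρ v)) := by linarith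
    positivity
  have e : ∑ u ∈ I, ∑ v ∈ I, H u * H v * (-( (Φ u - Φ v) * (ρ u - ρ v)))
      = 2 * ((∑ u ∈ I, H u * Φ u) * (∑ u ∈ I, H u * ρ u)
          - (∑ u ∈ I, H u * (Φ u * ρ u)) * (∑ u ∈ I, H u)) := by
    have e1 : ∀ u v, H u * H v * (-( (Φ u - Φ v) * (ρ u - ρ v)))
        = (H u * Φ u) * (H v * ρ v) + (H v * Φ v) * (H u * ρ u)
          - (H u * (Φ u * ρ u)) * H v - (H v * (Φ v * ρ v)) * H u := by
      intro u v; ring
    simp_rw [e1, Finset.sum_sub_distrib, Finset.sum_add_distrib]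
    have s1 : ∑ u ∈ I, ∑ v ∈ I, (H u * Φ u) * (H v * ρ v)
        = (∑ u ∈ I, H u * Φ u) * (∑ u ∈ I, H u * ρ u) := by
      rw [Finset.sum_mul_sum]
    have s2 : ∑ u ∈ I, ∑ v ∈ I, (H v * Φ v) * (H u * ρ u)
        = (∑ u ∈ I, H u * Φ u) * (∑ u ∈ I, H u * ρ u) := by
      rw [Finset.sum_comm, Finset.sum_mul_sum]
    have s3 : ∑ u ∈ I, ∑ v ∈ I, (H u * (Φ u * ρ u)) * H v
        = (∑ u ∈ I, H u * (Φ u * ρ u)) * (∑ u ∈ I, H u) := by
      rw [Finset.sum_mul_sum]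
    have s4 : ∑ u ∈ I, ∑ v ∈ I, (H v * (Φ v * ρ v)) * H u
        = (∑ u ∈ I, H u * (Φ u * ρ u)) * (∑ u ∈ I, H u) := by
      rw [Finset.sum_comm, Finset.sum_mul_sum]
    rw [s1, s2, s3, s4]
    ring
  rw [e] at key
  linarith


/-- The hypergeometric weight. -/
noncomputable def hyp (n1 n2 w u : ℕ) : ℝ := (n1.choose u : ℝ) * (n2.choose (w - u) : ℝ)

lemma hyp_nonneg (n1 n2 w u : ℕ) : 0 ≤ hyp n1 n2 w u := by
  unfold hyp; positivity

lemma hyp_ne_zero_iff (n1 n2 w u : ℕ) :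
    hyp n1 n2 w u ≠ 0 ↔ u ≤ n1 ∧ w - u ≤ n2 := by
  unfold hyp
  rw [mul_ne_zero_iff, Nat.cast_ne_zero, Nat.cast_ne_zero, Ne, Ne, Nat.choose_eq_zero_iff,
    Nat.choose_eq_zero_iff]
  omega

lemma hyp_rel1 (n1 n2 w u : ℕ) (hu : u ≤ w) :
    hyp n1 n2 w u * (((n1 : ℝ) + 1) * ((n2 : ℝ) + 1)) =
      hyp (n1 + 1) (n2 + 1) (w + 1) u * (((n1 + 1 - u : ℕ) : ℝ) * ((w + 1 - u : ℕ) : ℝ)) := by
  unfold hyp
  have h1 : n1.choose u * (n1 + 1) = (n1 + 1).choose u * (n1 + 1 - u) :=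
    Nat.choose_mul_succ_eq n1 u
  have h2 : (n2 + 1) * n2.choose (w - u) = (n2 + 1).choose (w - u + 1) * (w - u + 1) :=
    Nat.add_one_mul_choose_eq n2 (w - u)
  have h3 : w + 1 - u = w - u + 1 := by omega
  rw [h3]
  have h1' : (n1.choose u : ℝ) * ((n1 : ℝ) + 1) = ((n1 + 1).choose u : ℝ) * ((n1 + 1 - u : ℕ) : ℝ) := by
    exact_mod_cast h1
  have h2' : ((n2 : ℝ) + 1) * (n2.choose (w - u) : ℝ)
      = ((n2 + 1).choose (w - u + 1) : ℝ) * ((w - u + 1 : ℕ) : ℝ) := by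
    exact_mod_cast h2
  calc (n1.choose u : ℝ) * (n2.choose (w - u) : ℝ) * (((n1 : ℝ) + 1) * ((n2 : ℝ) + 1))
      = ((n1.choose u : ℝ) * ((n1 : ℝ) + 1)) * (((n2 : ℝ) + 1) * (n2.choose (w - u) : ℝ)) := by ring
    _ = _ := by rw [h1', h2']; ring

lemma hyp_rel2 (n1 n2 w u : ℕ) (hu : u ≤ w) :
    hyp n1 n2 w u * (((n1 : ℝ) + 1) * ((n2 : ℝ) + 1)) =
      hyp (n1 + 1) (n2 + 1) (w + 1) (u + 1) *
        (((u + 1 : ℕ) : ℝ) * ((n2 + 1 - (w + 1 - (u + 1)) : ℕ) : ℝ)) := by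
  unfold hyp
  have h1 : (n1 + 1) * n1.choose u = (n1 + 1).choose (u + 1) * (u + 1) :=
    Nat.add_one_mul_choose_eq n1 u
  have h2 : n2.choose (w - u) * (n2 + 1) = (n2 + 1).choose (w - u) * (n2 + 1 - (w - u)) :=
    Nat.choose_mul_succ_eq n2 (w - u)
  have h3 : w + 1 - (u + 1) = w - u := by omega
  rw [h3]
  have h1' : ((n1 : ℝ) + 1) * (n1.choose u : ℝ) = ((n1 + 1).choose (u + 1) : ℝ) * ((u + 1 : ℕ) : ℝ) := by
    exact_mod_cast h1
  have h2' : (n2.choose (w - u) : ℝ) * ((n2 : ℝ) + 1)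
      = ((n2 + 1).choose (w - u) : ℝ) * ((n2 + 1 - (w - u) : ℕ) : ℝ) := by
    exact_mod_cast h2
  calc (n1.choose u : ℝ) * (n2.choose (w - u) : ℝ) * (((n1 : ℝ) + 1) * ((n2 : ℝ) + 1))
      = (((n1 : ℝ) + 1) * (n1.choose u : ℝ)) * ((n2.choose (w - u) : ℝ) * ((n2 : ℝ) + 1)) := by ring
    _ = _ := by rw [h1', h2']; ring

/-- First transfer: the small law is the big law reweighted by a decreasing function. -/
lemma hyp_sum1 (n1 n2 w : ℕ) (Φ : ℕ → ℝ) :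
    (∑ u ∈ range (w + 1), hyp n1 n2 w u * Φ u) * (((n1 : ℝ) + 1) * ((n2 : ℝ) + 1)) =
      ∑ u ∈ range (w + 1 + 1), hyp (n1 + 1) (n2 + 1) (w + 1) u *
        (Φ u * (((n1 + 1 - u : ℕ) : ℝ) * ((w + 1 - u : ℕ) : ℝ))) := by
  rw [Finset.sum_range_succ _ (w + 1), Finset.sum_mul]
  have : ((w + 1 - (w + 1) : ℕ) : ℝ) = 0 := by simp
  rw [this]
  simp only [mul_zero, add_zero]
  apply Finset.sum_congr rfl
  intro u hu
  have hu' : u ≤ w := by
    have := Finset.mem_range.1 hu; omega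
  have := hyp_rel1 n1 n2 w u hu'
  calc hyp n1 n2 w u * Φ u * (((n1 : ℝ) + 1) * ((n2 : ℝ) + 1))
      = (hyp n1 n2 w u * (((n1 : ℝ) + 1) * ((n2 : ℝ) + 1))) * Φ u := by ring
    _ = _ := by rw [this]; ring

/-- Second transfer: the shifted small law is the big law reweighted by an increasing function. -/
lemma hyp_sum2 (n1 n2 w : ℕ) (Ξ : ℕ → ℝ) :
    (∑ u ∈ range (w + 1), hyp n1 n2 w u * Ξ (u + 1)) * (((n1 : ℝ) + 1) * ((n2 : ℝ) + 1)) =
      ∑ v ∈ range (w + 1 + 1), hyp (n1 + 1) (n2 + 1) (w + 1) v *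
        (Ξ v * ((v : ℝ) * ((n2 + 1 - (w + 1 - v) : ℕ) : ℝ))) := by
  rw [Finset.sum_range_succ' _ (w + 1), Finset.sum_mul]
  simp only [Nat.cast_zero, zero_mul, mul_zero, add_zero]
  apply Finset.sum_congr rfl
  intro u hu
  have hu' : u ≤ w := by
    have := Finset.mem_range.1 hu; omega
  have := hyp_rel2 n1 n2 w u hu'
  calc hyp n1 n2 w u * Ξ (u + 1) * (((n1 : ℝ) + 1) * ((n2 : ℝ) + 1))
      = (hyp n1 n2 w u * (((n1 : ℝ) + 1) * ((n2 : ℝ) + 1))) * Ξ (u + 1) := by ring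
    _ = _ := by rw [this]; ring

/-- Stochastic dominance (a). -/
lemma hyp_dom_a (n1 n2 w : ℕ) (Φ : ℕ → ℝ)
    (hpos : 0 < ∑ u ∈ range (w + 1), hyp n1 n2 w u)
    (hΦ : ∀ u v, u ≤ w + 1 → v ≤ w + 1 → hyp (n1 + 1) (n2 + 1) (w + 1) u ≠ 0 →
      hyp (n1 + 1) (n2 + 1) (w + 1) v ≠ 0 → u ≤ v → Φ u ≤ Φ v)
    (hpos' : 0 < ∑ u ∈ range (w + 1 + 1), hyp (n1 + 1) (n2 + 1) (w + 1) u) :
    (∑ u ∈ range (w + 1), hyp n1 n2 w u * Φ u) / (∑ u ∈ range (w + 1), hyp n1 n2 w u) ≤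
      (∑ u ∈ range (w + 1 + 1), hyp (n1 + 1) (n2 + 1) (w + 1) u * Φ u) /
        (∑ u ∈ range (w + 1 + 1), hyp (n1 + 1) (n2 + 1) (w + 1) u) := by
  set H := hyp (n1 + 1) (n2 + 1) (w + 1) with hH
  set ρ : ℕ → ℝ := fun u => ((n1 + 1 - u : ℕ) : ℝ) * ((w + 1 - u : ℕ) : ℝ) with hρ
  have hZ : (0 : ℝ) < ((n1 : ℝ) + 1) * ((n2 : ℝ) + 1) := by positivity
  have hanti : ∀ u v : ℕ, u ≤ v → ρ v ≤ ρ u := by
    intro u v huv
    have h1 : ((n1 + 1 - v : ℕ) : ℝ) ≤ ((n1 + 1 - u : ℕ) : ℝ) := by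
      exact_mod_cast Nat.sub_le_sub_left huv _
    have h2 : ((w + 1 - v : ℕ) : ℝ) ≤ ((w + 1 - u : ℕ) : ℝ) := by
      exact_mod_cast Nat.sub_le_sub_left huv _
    have h3 : (0 : ℝ) ≤ ((n1 + 1 - v : ℕ) : ℝ) := by positivity
    have h4 : (0 : ℝ) ≤ ((w + 1 - v : ℕ) : ℝ) := by positivity
    exact mul_le_mul h1 h2 h4 (by positivity)
  have hcov := cov_le (range (w + 1 + 1)) H Φ ρ (fun u _ => hyp_nonneg _ _ _ _) (by
    intro u hu v hv h1 h2
    have hu' : u ≤ w + 1 := by have := Finset.mem_range.1 hu; omega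
    have hv' : v ≤ w + 1 := by have := Finset.mem_range.1 hv; omega
    rcases le_total u v with h | h
    · have h3 := hΦ u v hu' hv' h1 h2 h
      have h4 := hanti u v h
      nlinarith
    · have h3 := hΦ v u hv' hu' h2 h1 h
      have h4 := hanti v u h
      nlinarith)
  have e1 := hyp_sum1 n1 n2 w Φ
  have e2 := hyp_sum1 n1 n2 w (fun _ => 1)
  simp only [mul_one, one_mul] at e2
  rw [div_le_div_iff₀ hpos hpos']
  have e3 : ∑ u ∈ range (w + 1 + 1), H u * ρ u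
      = (∑ u ∈ range (w + 1), hyp n1 n2 w u) * (((n1 : ℝ) + 1) * ((n2 : ℝ) + 1)) := by
    rw [e2]
  have e4 : ∑ u ∈ range (w + 1 + 1), H u * (Φ u * ρ u)
      = (∑ u ∈ range (w + 1), hyp n1 n2 w u * Φ u) * (((n1 : ℝ) + 1) * ((n2 : ℝ) + 1)) := by
    rw [e1]
  rw [e3, e4] at hcov
  have : ((∑ u ∈ range (w + 1), hyp n1 n2 w u * Φ u) *
        ∑ u ∈ range (w + 1 + 1), H u) * (((n1 : ℝ) + 1) * ((n2 : ℝ) + 1)) ≤
      ((∑ u ∈ range (w + 1 + 1), H u * Φ u) * ∑ u ∈ range (w + 1), hyp n1 n2 w u)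
        * (((n1 : ℝ) + 1) * ((n2 : ℝ) + 1)) := by
    nlinarith
  exact le_of_mul_le_mul_right this hZ

/-- Stochastic dominance (b). -/
lemma hyp_dom_b (n1 n2 w : ℕ) (Ξ : ℕ → ℝ)
    (hpos : 0 < ∑ u ∈ range (w + 1), hyp n1 n2 w u)
    (hΞ : ∀ u v, u ≤ w + 1 → v ≤ w + 1 → hyp (n1 + 1) (n2 + 1) (w + 1) u ≠ 0 →
      hyp (n1 + 1) (n2 + 1) (w + 1) v ≠ 0 → u ≤ v → Ξ u ≤ Ξ v)
    (hpos' : 0 < ∑ u ∈ range (w + 1 + 1), hyp (n1 + 1) (n2 + 1) (w + 1) u) :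
    (∑ u ∈ range (w + 1 + 1), hyp (n1 + 1) (n2 + 1) (w + 1) u * Ξ u) /
        (∑ u ∈ range (w + 1 + 1), hyp (n1 + 1) (n2 + 1) (w + 1) u) ≤
      (∑ u ∈ range (w + 1), hyp n1 n2 w u * Ξ (u + 1)) / (∑ u ∈ range (w + 1), hyp n1 n2 w u) := by
  set H := hyp (n1 + 1) (n2 + 1) (w + 1) with hH
  set σ : ℕ → ℝ := fun v => (v : ℝ) * ((n2 + 1 - (w + 1 - v) : ℕ) : ℝ) with hσ
  have hZ : (0 : ℝ) < ((n1 : ℝ) + 1) * ((n2 : ℝ) + 1) := by positivity
  have hmono : ∀ u v : ℕ, u ≤ v → σ u ≤ σ v := by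
    intro u v huv
    have h1 : (u : ℝ) ≤ v := by exact_mod_cast huv
    have h2 : ((n2 + 1 - (w + 1 - u) : ℕ) : ℝ) ≤ ((n2 + 1 - (w + 1 - v) : ℕ) : ℝ) := by
      have : n2 + 1 - (w + 1 - u) ≤ n2 + 1 - (w + 1 - v) := by omega
      exact_mod_cast this
    exact mul_le_mul h1 h2 (by positivity) (by positivity)
  have hcov := cov_le (range (w + 1 + 1)) H Ξ (fun v => - σ v) (fun u _ => hyp_nonneg _ _ _ _) (by
    intro u hu v hv h1 h2
    have hu' : u ≤ w + 1 := by have := Finset.mem_range.1 hu; omega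
    have hv' : v ≤ w + 1 := by have := Finset.mem_range.1 hv; omega
    rcases le_total u v with h | h
    · have h3 := hΞ u v hu' hv' h1 h2 h
      have h4 := hmono u v h
      nlinarith
    · have h3 := hΞ v u hv' hu' h2 h1 h
      have h4 := hmono v u h
      nlinarith)
  have e1 := hyp_sum2 n1 n2 w Ξ
  have e2 := hyp_sum2 n1 n2 w (fun _ => 1)
  simp only [mul_one, one_mul] at e2
  rw [div_le_div_iff₀ hpos' hpos]
  have e3 : ∑ u ∈ range (w + 1 + 1), H u * σ u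
      = (∑ u ∈ range (w + 1), hyp n1 n2 w u) * (((n1 : ℝ) + 1) * ((n2 : ℝ) + 1)) := by
    rw [e2]
  have e4 : ∑ u ∈ range (w + 1 + 1), H u * (Ξ u * σ u)
      = (∑ u ∈ range (w + 1), hyp n1 n2 w u * Ξ (u + 1)) * (((n1 : ℝ) + 1) * ((n2 : ℝ) + 1)) := by
    rw [e1]
  have e5 : ∑ u ∈ range (w + 1 + 1), H u * (Ξ u * (- σ u)) = - ∑ u ∈ range (w + 1 + 1), H u * (Ξ u * σ u) := by
    rw [← Finset.sum_neg_distrib]
    apply Finset.sum_congr rfl
    intro u _; ring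
  have e6 : ∑ u ∈ range (w + 1 + 1), H u * (- σ u) = - ∑ u ∈ range (w + 1 + 1), H u * σ u := by
    rw [← Finset.sum_neg_distrib]
    apply Finset.sum_congr rfl
    intro u _; ring
  rw [e5, e6, e3, e4] at hcov
  have : ((∑ u ∈ range (w + 1 + 1), H u * Ξ u) * ∑ u ∈ range (w + 1), hyp n1 n2 w u)
        * (((n1 : ℝ) + 1) * ((n2 : ℝ) + 1)) ≤
      ((∑ u ∈ range (w + 1), hyp n1 n2 w u * Ξ (u + 1)) *
        ∑ u ∈ range (w + 1 + 1), H u) * (((n1 : ℝ) + 1) * ((n2 : ℝ) + 1)) := by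
    nlinarith
  exact le_of_mul_le_mul_right this hZ

/-- The support of the hypergeometric weight is an interval. -/
lemma hyp_support_interval (n1 n2 w u k v : ℕ) (h1 : hyp n1 n2 w u ≠ 0) (h2 : hyp n1 n2 w v ≠ 0)
    (huk : u ≤ k) (hkv : k ≤ v) : hyp n1 n2 w k ≠ 0 := by
  rw [hyp_ne_zero_iff] at *
  omega

/-- Adjacent Lipschitz on the support gives Lipschitz on the support. -/
lemma lip_of_adjacent (n1 n2 w : ℕ) (L : ℝ) (φ : ℕ → ℝ)
    (hφ : ∀ u, u + 1 ≤ w → hyp n1 n2 w u ≠ 0 → hyp n1 n2 w (u + 1) ≠ 0 → |φ u - φ (u + 1)| ≤ L)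
    (hL : 0 ≤ L) :
    ∀ u v, v ≤ w → hyp n1 n2 w u ≠ 0 → hyp n1 n2 w v ≠ 0 → u ≤ v →
      |φ v - φ u| ≤ L * ((v : ℝ) - u) := by
  intro u v hvw hu hv huv
  obtain ⟨d, rfl⟩ := Nat.exists_eq_add_of_le huv
  induction d with
  | zero => simp
  | succ d ih =>
    have h1 : hyp n1 n2 w (u + d) ≠ 0 :=
      hyp_support_interval n1 n2 w u (u + d) (u + (d + 1)) hu hv (by omega) (by omega)
    have h2 := ih (by omega) h1 (by omega)
    have h3 := hφ (u + d) (by omega) h1 (by simpa [add_assoc] using hv)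
    have h4 : φ (u + (d + 1)) - φ u = (φ (u + d) - φ u) - (φ (u + d) - φ (u + d + 1)) := by
      rw [add_assoc]; ring
    rw [h4]
    have h5 := abs_sub (φ (u + d) - φ u) (φ (u + d) - φ (u + d + 1))
    push_cast
    have h6 : L * ((u : ℝ) + ((d : ℝ) + 1) - u) = L * ((u : ℝ) + d - u) + L := by ring
    rw [h6]
    push_cast at h2
    linarith

/-- The main numerical Lipschitz estimate for the passage between two consecutive hypergeometric
laws. -/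
lemma hyp_lip (n1 n2 w : ℕ) (L : ℝ) (hL : 0 ≤ L) (φ ζ : ℕ → ℝ)
    (hφ : ∀ u, u + 1 ≤ w + 1 → hyp (n1 + 1) (n2 + 1) (w + 1) u ≠ 0 →
      hyp (n1 + 1) (n2 + 1) (w + 1) (u + 1) ≠ 0 → |φ u - φ (u + 1)| ≤ L)
    (hζ : ∀ u, u + 1 ≤ w + 1 → hyp (n1 + 1) (n2 + 1) (w + 1) u ≠ 0 →
      hyp (n1 + 1) (n2 + 1) (w + 1) (u + 1) ≠ 0 → |ζ u - ζ (u + 1)| ≤ L)
    (hpos : 0 < ∑ u ∈ range (w + 1), hyp n1 n2 w u)
    (hpos' : 0 < ∑ u ∈ range (w + 1 + 1), hyp (n1 + 1) (n2 + 1) (w + 1) u) :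
    |(∑ u ∈ range (w + 1 + 1), hyp (n1 + 1) (n2 + 1) (w + 1) u * (φ u + ζ u)) /
        (∑ u ∈ range (w + 1 + 1), hyp (n1 + 1) (n2 + 1) (w + 1) u) -
      (∑ u ∈ range (w + 1), hyp n1 n2 w u * (φ u + ζ (u + 1))) /
        (∑ u ∈ range (w + 1), hyp n1 n2 w u)| ≤ L := by
  set H := hyp (n1 + 1) (n2 + 1) (w + 1) with hH
  set h := hyp n1 n2 w with hh
  set X := ∑ u ∈ range (w + 1 + 1), H u with hX
  set X' := ∑ u ∈ range (w + 1), h u with hX'
  have lφ := lip_of_adjacent (n1 + 1) (n2 + 1) (w + 1) L φ hφ hL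
  have lζ := lip_of_adjacent (n1 + 1) (n2 + 1) (w + 1) L ζ hζ hL
  -- linear expansions
  have linb : ∀ A B : ℕ → ℝ, ∀ r : ℝ,
      (∑ u ∈ range (w + 1 + 1), H u * (r * A u + B u)) / X
        = r * ((∑ u ∈ range (w + 1 + 1), H u * A u) / X)
          + (∑ u ∈ range (w + 1 + 1), H u * B u) / X := by
    intro A B r
    have : ∑ u ∈ range (w + 1 + 1), H u * (r * A u + B u)
        = r * (∑ u ∈ range (w + 1 + 1), H u * A u) + ∑ u ∈ range (w + 1 + 1), H u * B u := by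
      rw [Finset.mul_sum, ← Finset.sum_add_distrib]
      apply Finset.sum_congr rfl
      intro u _; ring
    rw [this]; ring
  have lins : ∀ A B : ℕ → ℝ, ∀ r : ℝ,
      (∑ u ∈ range (w + 1), h u * (r * A u + B u)) / X'
        = r * ((∑ u ∈ range (w + 1), h u * A u) / X')
          + (∑ u ∈ range (w + 1), h u * B u) / X' := by
    intro A B r
    have : ∑ u ∈ range (w + 1), h u * (r * A u + B u)
        = r * (∑ u ∈ range (w + 1), h u * A u) + ∑ u ∈ range (w + 1), h u * B u := by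
      rw [Finset.mul_sum, ← Finset.sum_add_distrib]
      apply Finset.sum_congr rfl
      intro u _; ring
    rw [this]; ring
  set Eφ := (∑ u ∈ range (w + 1 + 1), H u * φ u) / X with hEφ
  set Eζ := (∑ u ∈ range (w + 1 + 1), H u * ζ u) / X with hEζ
  set Eu := (∑ u ∈ range (w + 1 + 1), H u * (u : ℝ)) / X with hEu
  set Fφ := (∑ u ∈ range (w + 1), h u * φ u) / X' with hFφ
  set Fζ := (∑ u ∈ range (w + 1), h u * ζ (u + 1)) / X' with hFζ
  set Fu := (∑ u ∈ range (w + 1), h u * (u : ℝ)) / X' with hFu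
  have hFu1 : (∑ u ∈ range (w + 1), h u * (((u + 1 : ℕ) : ℝ))) / X' = Fu + 1 := by
    have : ∑ u ∈ range (w + 1), h u * (((u + 1 : ℕ) : ℝ))
        = (∑ u ∈ range (w + 1), h u * (u : ℝ)) + X' := by
      rw [hX', ← Finset.sum_add_distrib]
      apply Finset.sum_congr rfl
      intro u _; push_cast; ring
    rw [this, hFu, add_div, div_self hpos.ne']
  -- dominance (a) for φ + L id and L id - φ
  have a1 := hyp_dom_a n1 n2 w (fun u => L * (u : ℝ) + φ u) hpos (by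
    intro u v _ hv h1 h2 huv
    have := abs_le.1 (lφ u v hv h1 h2 huv)
    nlinarith [this.1, this.2]) hpos'
  have a2 := hyp_dom_a n1 n2 w (fun u => L * (u : ℝ) + (- φ u)) hpos (by
    intro u v _ hv h1 h2 huv
    have := abs_le.1 (lφ u v hv h1 h2 huv)
    nlinarith [this.1, this.2]) hpos'
  have b1 := hyp_dom_b n1 n2 w (fun u => L * (u : ℝ) + ζ u) hpos (by
    intro u v _ hv h1 h2 huv
    have := abs_le.1 (lζ u v hv h1 h2 huv)
    nlinarith [this.1, this.2]) hpos'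
  have b2 := hyp_dom_b n1 n2 w (fun u => L * (u : ℝ) + (- ζ u)) hpos (by
    intro u v _ hv h1 h2 huv
    have := abs_le.1 (lζ u v hv h1 h2 huv)
    nlinarith [this.1, this.2]) hpos'
  rw [lins (fun u => (u : ℝ)) φ L, linb (fun u => (u : ℝ)) φ L] at a1
  rw [lins (fun u => (u : ℝ)) (fun u => - φ u) L, linb (fun u => (u : ℝ)) (fun u => - φ u) L] at a2
  have hb1 : ∀ u : ℕ, L * (((u + 1 : ℕ) : ℝ)) + ζ (u + 1)
      = L * (((u + 1 : ℕ) : ℝ)) + ζ (u + 1) := fun _ => rfl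
  rw [linb (fun u => (u : ℝ)) ζ L] at b1
  rw [linb (fun u => (u : ℝ)) (fun u => - ζ u) L] at b2
  rw [lins (fun u => ((u + 1 : ℕ) : ℝ)) (fun u => ζ (u + 1)) L] at b1
  rw [lins (fun u => ((u + 1 : ℕ) : ℝ)) (fun u => - ζ (u + 1)) L] at b2
  rw [hFu1] at b1 b2
  have negb : ∀ A : ℕ → ℝ, (∑ u ∈ range (w + 1 + 1), H u * (- A u)) / X
      = - ((∑ u ∈ range (w + 1 + 1), H u * A u) / X) := by
    intro A
    rw [← neg_div, ← Finset.sum_neg_distrib]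
    congr 1
    apply Finset.sum_congr rfl
    intro u _; ring
  have negs : ∀ A : ℕ → ℝ, (∑ u ∈ range (w + 1), h u * (- A u)) / X'
      = - ((∑ u ∈ range (w + 1), h u * A u) / X') := by
    intro A
    rw [← neg_div, ← Finset.sum_neg_distrib]
    congr 1
    apply Finset.sum_congr rfl
    intro u _; ring
  rw [negb φ, negs φ] at a2
  rw [negb ζ, negs (fun u => ζ (u + 1))] at b2
  have e1 : (∑ u ∈ range (w + 1 + 1), H u * (φ u + ζ u)) / X = Eφ + Eζ := by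
    rw [hEφ, hEζ, ← add_div, ← Finset.sum_add_distrib]
    congr 1
    apply Finset.sum_congr rfl
    intro u _; ring
  have e2 : (∑ u ∈ range (w + 1), h u * (φ u + ζ (u + 1))) / X' = Fφ + Fζ := by
    rw [hFφ, hFζ, ← add_div, ← Finset.sum_add_distrib]
    congr 1
    apply Finset.sum_congr rfl
    intro u _; ring
  rw [e1, e2, abs_le]
  constructor <;> nlinarith

end Vale.Agent.Lib.P335
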